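import Vale.Agent.P180.R2.H954.G1
import Vale.Agent.P180.R2.H12.Tame
import Vale.Agent.P180.R2.H365.Loc

/-!
P180: the local theorem for a normal subgroup `X = X₀ A_1 ... A_r`, where the `A_j` are pairwise
commuting, permuted by `G`, and have bounded corners.
-/

set_option linter.all false

namespace Vale.Agent.P180.R2.H954

open Vale.Agent.P180 Vale.Agent.P180.H768.Gd Vale.Agent.P180.R2.H365 Vale.Agent.P180.R2.H799
  Vale.Agent.P180.R2.H12 Vale.Agent.P180.R2.H47

/-- The corner property of a factor `S` on which the `p`-group `R` acts, for the block `e` of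
`kS`. -/
def Cor {k : Type*} [Field k] {G : Type*} [Group G] (C : ℕ) (S R : Subgroup G)
    (e : MonoidAlgebra k G) : Prop :=
  ∃ (m : ℕ) (f : Fin m → MonoidAlgebra k G),
    (∀ l, f l ∈ SubAlg k S ∧ f l ∈ Fix (cj k G) R ∧ f l * f l = f l ∧
      Module.finrank k (NN (SubAlg k S) (e * f l) (e * f l)) ≤ C) ∧
    br R e ∈ Submodule.span k (Fam.Gens k S R f)

section

variable {k : Type*} [Field k] {p : ℕ} [Fact p.Prime] [CharP k p] {G : Type} [Group G] [Finite G]

omit [Fact p.Prime] [CharP k p] in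
theorem finrank_NN_conj (S : Subgroup G) (t : G) (f g : MonoidAlgebra k G) :
    Module.finrank k (NN (SubAlg k (conjS t S)) (cj k G t f) (cj k G t g)) =
      Module.finrank k (NN (SubAlg k S) f g) := by
  have hfin : FiniteDimensional k (MonoidAlgebra k G) :=
    Module.Finite.equiv (MonoidAlgebra.coeffLinearEquiv k (M := G) (S := k)).symm
  have h : ∀ (S : Subgroup G) (t : G) (f g : MonoidAlgebra k G),
      Module.finrank k (NN (SubAlg k S) f g) ≤
        Module.finrank k (NN (SubAlg k (conjS t S)) (cj k G t f) (cj k G t g)) := by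
    intro S t f g
    have h1 : (NN (SubAlg k S) f g).map ((cj k G t).toLinearEquiv : _ →ₗ[k] _) ≤
        NN (SubAlg k (conjS t S)) (cj k G t f) (cj k G t g) := by
      rintro _ ⟨x, ⟨hx1, hx2, hx3⟩, rfl⟩
      refine ⟨SuppIn.conj hx1 t fun s hs => mem_conjS.mpr (by simpa [mul_assoc] using hs), ?_, ?_⟩
      · change cj k G t f * cj k G t x = cj k G t x
        rw [← map_mul, hx2]
      · change cj k G t x * cj k G t g = cj k G t x
        rw [← map_mul, hx3]
    have h2 := LinearEquiv.finrank_map_eq (cj k G t).toLinearEquiv (NN (SubAlg k S) f g)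
    rw [← h2]
    exact Submodule.finrank_mono h1
  refine le_antisymm ?_ (h S t f g)
  have h2 := h (conjS t S) t⁻¹ (cj k G t f) (cj k G t g)
  have hback : conjS t⁻¹ (conjS t S) = S := by
    ext x
    rw [mem_conjS, mem_conjS]
    simp [mul_assoc]
  rwa [map_inv_act, map_inv_act, hback] at h2

omit [Fact p.Prime] [CharP k p] in
theorem conjS_eq_of {S T : Subgroup G} {t : G} (h : ∀ s ∈ S, t * s * t⁻¹ ∈ T)
    (h' : ∀ s ∈ T, t⁻¹ * s * t ∈ S) : conjS t S = T := by
  ext x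
  rw [mem_conjS]
  constructor
  · intro hx
    have := h _ hx
    simpa [mul_assoc] using this
  · intro hx
    exact h' x hx

theorem Fam_conjS {r : ℕ} {E : Subgroup G} (F : Fam G r E) (g : E) (j : Fin r) :
    conjS (g : G) (F.A j) = F.A (F.σ g j) := by
  refine conjS_eq_of (F.conj g j) fun s hs => ?_
  have h := F.conj g⁻¹ _ s hs
  rw [← F.σ_mul, inv_mul_cancel, F.σ_one] at h
  simpa using h

omit [Fact p.Prime] [CharP k p] in
theorem prd_mul_eq {r : ℕ} {e : Fin r → MonoidAlgebra k G} {b : MonoidAlgebra k G}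
    (h : ∀ j, e j * b = b) : Fam.prd e * b = b := by
  have : ∀ l : List (Fin r), (l.map e).prod * b = b := by
    intro l
    induction l with
    | nil => simp
    | cons i l ih => rw [List.map_cons, List.prod_cons, mul_assoc, ih, h]
  exact this _

omit [Fact p.Prime] [CharP k p] in
theorem NN_le {S : Subalgebra k (MonoidAlgebra k G)} {g g' : MonoidAlgebra k G}
    (h : g * g' = g') (h' : g' * g = g') : NN S g' g' ≤ NN S g g := by
  rintro x ⟨h1, h2, h3⟩
  refine ⟨h1, ?_, ?_⟩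
  · rw [← h2, ← mul_assoc, h]
  · rw [← h3, mul_assoc, h']

end

section Loc

variable {k : Type*} [Field k] [IsAlgClosed k] {p : ℕ} [Fact p.Prime] [CharP k p]

/-- **The local theorem**, general form. -/
theorem loc_cp {r β C C₀ : ℕ} {G : Type} [Group G] [Finite G] (F : Fam G r ⊤)
    {X X₀ Z D : Subgroup G} [X.Normal] [X₀.Normal] (hXX : X = X₀ ⊔ F.μ.range)
    (hcomm : ∀ j, ∀ x ∈ X₀, ∀ y ∈ F.A j, x * y = y * x)
    (hinj : ∀ i j, F.A i ≤ F.A j → i = j)
    (hZ : ∀ z ∈ Z, ∀ g, z * g = g * z) (hZp : ¬ p ∣ Nat.card Z) (hidx : (Z ⊔ X).index ≤ β)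
    {b a : MonoidAlgebra k G} (hb : IsBlockOf (⊤ : Subgroup G) b) (hD : IsPGroup p D)
    (ha : a ∈ Fix (cj k G) D) (hba : b = tr (cj k G) D ⊤ a)
    (hST : ∀ N : Subgroup G, N.Normal → ∀ e : MonoidAlgebra k G, IsBlockOf N e → b * e ≠ 0 →
      ∀ g, cj k G g e = e)
    (h0 : ∀ P ≤ D, ∀ a' ∈ Fix (cj k G) P, b = tr (cj k G) P ⊤ a' → br P b ≠ 0 →
      ∃ f₀ ∈ SubAlg k X₀, f₀ ∈ Fix (cj k G) P ∧ f₀ * f₀ = f₀ ∧ br P (f₀ * b) ≠ 0 ∧
        ∀ e₀ : MonoidAlgebra k G, IsBlockOf X₀ e₀ → e₀ ∈ Fix (cj k G) ⊤ → e₀ * b = b →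
          (∃ z ∈ SubAlg k X₀, z ∈ Fix (cj k G) (X₀ ⊓ P) ∧
            e₀ = tr (cj k G) (X₀ ⊓ P) X₀ (f₀ * z)) → br (X₀ ⊓ P) (f₀ * e₀) ≠ 0 →
          Module.finrank k (NN (SubAlg k X₀) (e₀ * f₀) (e₀ * f₀)) ≤ C₀)
    (hcor : ∀ j, ∀ R ≤ D, (∀ x ∈ R, ∀ s ∈ F.A j, x * s * x⁻¹ ∈ F.A j) →
      ∀ e : MonoidAlgebra k G, Below b (F.A j) e → e ∈ Fix (cj k G) R → br R e ≠ 0 →
      (∃ z ∈ SubAlg k (F.A j), z ∈ Fix (cj k G) (F.A j ⊓ R) ∧
        e = tr (cj k G) (F.A j ⊓ R) (F.A j) z) →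
      (∃ z ∈ SubAlg k (F.A j), z ∈ Fix (cj k G) R ∧ e = tr (cj k G) R (F.A j ⊔ R) z) →
      Cor C (F.A j) R e) :
    ∃ (P : Subgroup G) (i : MonoidAlgebra k G) (hi : IsIdempotentElem i), P ≤ D ∧
      i ∈ Fix (cj k G) P ∧ b * i = i ∧
      (∃ w ∈ Fix (cj k G) P, b = tr (cj k G) P ⊤ (i * w)) ∧
      Module.finrank k hi.Corner ≤ β * ((C₀ * C ^ r) ^ 2) := by
  obtain ⟨P, hPD, a', ha', hba', c, hc, hc0⟩ := exists_min_defect hb ha hba
  have hP : IsPGroup p P := hD.to_le hPD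
  have hbr : br P b ≠ 0 := br_ne_zero_of_coeff hc hc0
  have hbc : ∀ z : MonoidAlgebra k G, z * b = b * z := fun z =>
    commute_of_mem (SubAlg_top z) hb.mem.2
  have hbF : ∀ S : Subgroup G, b ∈ Fix (cj k G) S := fun S => Fix_mono _ le_top hb.mem.2
  have hfin : FiniteDimensional k (MonoidAlgebra k G) :=
    Module.Finite.equiv (MonoidAlgebra.coeffLinearEquiv k (M := G) (S := k)).symm
  -- the block of `kX`
  obtain ⟨e, he, hbe⟩ := exists_covered (k := k) (X := X) hb.ne_zero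
  have heT : e ∈ Fix (cj k G) ⊤ := fun g _ => hST X inferInstance e he hbe g
  have heb : e * b = b := mul_eq_of_stable hb he heT (by rw [hbc]; exact hbe)
  -- the block of `kX₀`
  obtain ⟨e₀, he₀, hbe₀⟩ := exists_covered (k := k) (X := X₀) hb.ne_zero
  have heT₀ : e₀ ∈ Fix (cj k G) ⊤ := fun g _ => hST X₀ inferInstance e₀ he₀ hbe₀ g
  have heb₀ : e₀ * b = b := mul_eq_of_stable hb he₀ heT₀ (by rw [hbc]; exact hbe₀)
  obtain ⟨f₀, hf₀X, hf₀P, hf₀f₀, hf₀b, hf₀C⟩ := h0 P hPD a' ha' hba' hbr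
  have hX₀X : X₀ ≤ X := by rw [hXX]; exact le_sup_left
  have hAX : ∀ j, F.A j ≤ X := by
    intro j x hx
    rw [hXX]
    exact Subgroup.mem_sup_right ⟨_, F.μ_single j ⟨x, hx⟩⟩
  have hμ : F.μ.range = ⨆ j, F.A j := Subgroup.noncommPiCoprod_range
  have hXS : ∀ j, ∀ x ∈ X, ∃ s ∈ F.A j, ∃ c ∈ Subgroup.centralizer (F.A j : Set G),
      x = s * c := by
    intro j x hx
    have h1 : X ≤ F.A j ⊔ Subgroup.centralizer (F.A j : Set G) := by
      rw [hXX, hμ]
      refine sup_le ?_ (iSup_le fun i => ?_)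
      · refine le_trans (fun y hy => ?_) le_sup_right
        rw [Subgroup.mem_centralizer_iff]
        exact fun s hs => (hcomm j y hy s hs).symm
      · by_cases hij : i = j
        · subst hij; exact le_sup_left
        · refine le_trans (fun y hy => ?_) le_sup_right
          rw [Subgroup.mem_centralizer_iff]
          exact fun s hs => (F.comm i j hij y hy s hs).symm
    obtain ⟨s, hs, c, hc, h⟩ := mem_sup_of_commute
      (fun s hs c hc => Subgroup.mem_centralizer_iff.mp hc s hs) (h1 hx)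
    exact ⟨s, hs, c, hc, h.symm⟩
  -- the blocks of the factors
  choose ε hε using fun j => exists_below (hAX j) (hXS j) he heb
  have hεE : ∀ (g : G) (j : Fin r), cj k G g (ε j) = ε (F.σ ⟨g, trivial⟩ j) := by
    intro g j
    have h1 := (hε j).1.conj (hbF ⊤) g
    rw [show conjS g (F.A j) = F.A (F.σ ⟨g, trivial⟩ j) from Fam_conjS F ⟨g, trivial⟩ j] at h1
    exact h1.eq hb.ne_zero (hε _).1
  let F' : Fam G r P := F.res le_top
  have hstP : ∀ j, F'.st j ≤ P := F'.st_le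
  have hnst : ∀ j, ∀ x ∈ F'.st j, ∀ s ∈ F.A j, x * s * x⁻¹ ∈ F.A j := by
    rintro j _ ⟨d, hd, rfl⟩ s hs
    have h1 := F'.conj d j s hs
    rw [hd] at h1
    exact h1
  have hAst : ∀ j, F.A j ⊓ P ≤ F'.st j := by
    rintro j x ⟨hx, hxP⟩
    refine ⟨⟨x, hxP⟩, ?_, rfl⟩
    symm
    apply hinj
    intro s hs
    have h1 := F'.conj ⟨x, hxP⟩ j (x⁻¹ * s * x) ((F.A j).mul_mem ((F.A j).mul_mem
      ((F.A j).inv_mem hx) hs) hx)
    have h2 : x * (x⁻¹ * s * x) * x⁻¹ = s := by group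
    change x * (x⁻¹ * s * x) * x⁻¹ ∈ _ at h1
    rwa [h2] at h1
  have hcor' : ∀ j, Cor C (F.A j) (F'.st j) (ε j) := by
    intro j
    obtain ⟨h1, h2, h3, h4⟩ := (hε j).1.exists_tr (hAX j) (hXS j) hP hb ha' hba' hbr he heT heb
      (hstP j) (hAst j) (hnst j)
    exact hcor j _ ((hstP j).trans hPD) (hnst j) _ (hε j).1 h1 h2 h3 h4
  have hprd : Fam.prd ε * b = b := prd_mul_eq fun j => (hε j).1.mul
  have hεS : ∀ j, ε j ∈ SubAlg k (F'.A j) := fun j => (hε j).1.block.mem.1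
  have hεq : F'.Eqv ε := fun d j => hεE d j
  set w : MonoidAlgebra k G := br P (f₀ * b) with hw
  have hfb : f₀ * b ∈ Fix (cj k G) P := Subalgebra.mul_mem _ hf₀P (hbF P)
  have hcommX : ∀ x ∈ SubAlg k F.μ.range, ∀ y ∈ SubAlg k X₀, x * y = y * x := by
    intro x hx y hy
    refine comm_SubAlg (A := F.μ.range) (B := X₀) ?_ hx hy
    intro u hu v hv
    have h1 : F.μ.range ≤ Subgroup.centralizer {v} := by
      rw [hμ]
      refine iSup_le fun j u hu => ?_
      rw [Subgroup.mem_centralizer_iff]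
      rintro _ rfl
      exact hcomm j _ hv u hu
    exact (Subgroup.mem_centralizer_iff.mp (h1 hu) v rfl).symm
  obtain ⟨h, hhA, hhE, hhI, hhP, hhne⟩ := Fam.tame (F := F') hP (e := ε) hεS hεq
    (fun j => (hε j).1.block.idem.eq)
    (fun j f => Module.finrank k (NN (SubAlg k (F.A j)) (ε j * f) (ε j * f)) ≤ C)
    (by
      intro d j f hf
      change Module.finrank k (NN (SubAlg k (F.A (F'.σ d j))) _ _) ≤ C
      have h1 : ε (F'.σ d j) * cj k G (d : G) f = cj k G (d : G) (ε j * f) := by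
        rw [map_mul]
        congr 1
        exact (hεq d j).symm
      rw [h1]
      have h2 : F.A (F'.σ d j) = conjS (d : G) (F.A j) := (Fam_conjS F' d j).symm
      rw [h2, finrank_NN_conj]
      exact hf)
    (fun j => by
      obtain ⟨m, f, hf, hfs⟩ := hcor' j
      exact ⟨m, f, fun l => ⟨(hf l).1, (hf l).2.1, (hf l).2.2.1, (hf l).2.2.2⟩, hfs⟩)
    (w := w)
    (by
      intro x hx
      have hxP : x ∈ SubAlg k (Subgroup.centralizer (P : Set G)) := SubAlg_mono inf_le_right hx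
      have hxF : x ∈ Fix (cj k G) P := H365.fix_of_cent hxP
      have hx' : x ∈ SubAlg k F.μ.range := SubAlg_mono inf_le_left hx
      have h1 : x * (f₀ * b) = f₀ * b * x := by
        rw [← mul_assoc, hcommX x hx' f₀ hf₀X, mul_assoc, hbc x, mul_assoc]
      rw [hw, ← br_of_cent hxP, ← br_mul hP hxF hfb, ← br_mul hP hfb hxF, h1])
    (by
      rw [hw, ← br_mul hP hfb (F'.prd_fix hεS hεq), mul_assoc, ← hbc, hprd]
      exact hf₀b)
  -- the idempotent
  have hHX : Fam.prd h ∈ SubAlg k F.μ.range := Fam.prd_mem (F := F') hhA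
  have hHP : Fam.prd h ∈ Fix (cj k G) P := F'.prd_fix hhA hhE
  have hHH : Fam.prd h * Fam.prd h = Fam.prd h := by
    rw [F'.prd_mul hhA hhA]
    congr 1
    funext j
    exact hhI j
  have hfH : f₀ * Fam.prd h = Fam.prd h * f₀ := (hcommX _ hHX f₀ hf₀X).symm
  set f : MonoidAlgebra k G := f₀ * Fam.prd h with hf
  have hff : f * f = f := by
    calc f * f = f₀ * (Fam.prd h * f₀) * Fam.prd h := by rw [hf]; simp only [mul_assoc]
      _ = (f₀ * f₀) * (Fam.prd h * Fam.prd h) := by rw [← hfH, hf]; simp only [mul_assoc]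
      _ = f := by rw [hf₀f₀, hHH]
  have hfP : f ∈ Fix (cj k G) P := Subalgebra.mul_mem _ hf₀P hHP
  have hμX : F.μ.range ≤ X := by rw [hXX]; exact le_sup_right
  have hfX : f ∈ SubAlg k X :=
    Subalgebra.mul_mem _ (SubAlg_mono hX₀X hf₀X) (SubAlg_mono hμX hHX)
  have hfb' : br P (f * b) ≠ 0 := by
    have h1 : f * b = f₀ * b * Fam.prd h := by
      rw [hf, mul_assoc, hbc (Fam.prd h), ← mul_assoc]
    rw [h1, br_mul hP hfb hHP]
    exact hhne
  obtain ⟨w', hw'P, hw'b, hbw'⟩ := gen hb hP ha' hba' hfP hff hfb'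
  have hi : IsIdempotentElem (b * f) := by
    change b * f * (b * f) = b * f
    rw [mul_assoc, ← mul_assoc f, hbc, mul_assoc b f, hff, ← mul_assoc, hb.idem.eq]
  refine ⟨P, b * f, hi, hPD, Subalgebra.mul_mem _ (hbF P) hfP, ?_, ⟨w', hw'P, ?_⟩, ?_⟩
  · rw [← mul_assoc, hb.idem.eq]
  · rw [mul_assoc, ← hbc, mul_assoc, hw'b]
    exact hbw'
  -- the dimension
  have hec : ∀ z : MonoidAlgebra k G, z * e = e * z := fun z =>
    commute_of_mem (SubAlg_top z) heT
  have he₀c : ∀ z : MonoidAlgebra k G, z * e₀ = e₀ * z := fun z =>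
    commute_of_mem (SubAlg_top z) heT₀
  have hεX : ∀ j, ε j ∈ Fix (cj k G) X := fun j => (hε j).2.1
  have hE₁X : Fam.prd ε ∈ Fix (cj k G) X := by
    refine Subalgebra.list_prod_mem _ fun x hx => ?_
    obtain ⟨j, -, rfl⟩ := List.mem_map.mp hx
    exact hεX j
  have hE₁f : Fam.prd ε * f = f * Fam.prd ε := (commute_of_mem hfX hE₁X).symm
  have hE₁e : Fam.prd ε * e = e := prd_mul_eq fun j => (hε j).2.2
  have he₀e : e₀ * e = e := by
    refine mul_block_eq hX₀X he₀ (Fix_mono _ le_top heT₀) he ?_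
    intro h1
    apply hb.ne_zero
    rw [← heb, ← heb₀, ← mul_assoc, h1, zero_mul]
  have hG₀ : (e₀ * f₀) * (e₀ * f₀) = e₀ * f₀ := by
    rw [mul_assoc, ← mul_assoc f₀, he₀c f₀, mul_assoc e₀ f₀, hf₀f₀, ← mul_assoc, he₀.idem.eq]
  have hG₀X : e₀ * f₀ ∈ SubAlg k X₀ := Subalgebra.mul_mem _ he₀.mem.1 hf₀X
  have hGA : ∀ j, ε j * h j ∈ SubAlg k (F.A j) := fun j =>
    Subalgebra.mul_mem _ (hεS j) (hhA j)
  have hGI : ∀ j, (ε j * h j) * (ε j * h j) = ε j * h j := by
    intro j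
    have h1 : h j * ε j = ε j * h j := commute_of_mem (hhA j) (hε j).1.block.mem.2
    rw [mul_assoc, ← mul_assoc (h j), h1, mul_assoc (ε j) (h j), hhI, ← mul_assoc,
      (hε j).1.block.idem.eq]
  have hG₁ : Fam.prd (fun j => ε j * h j) = Fam.prd ε * Fam.prd h := (F'.prd_mul hεS hhA).symm
  obtain ⟨hl1, hl2, hl3⟩ := finrank_NN_list F.A F.comm (fun j => ε j * h j) hGI hGA
    (List.finRange r) (List.nodup_finRange r)
  have hsup : (⨆ i ∈ List.finRange r, F.A i) = F.μ.range := by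
    rw [hμ]
    refine le_antisymm (iSup₂_le fun i _ => le_iSup F.A i) (iSup_le fun i => ?_)
    exact le_iSup₂ (f := fun i (_ : i ∈ List.finRange r) => F.A i) i (List.mem_finRange i)
  rw [hsup] at hl2 hl3
  have hbound : Module.finrank k (NN (SubAlg k X) (e * f) (e * f)) ≤ C₀ * C ^ r := by
    have h1 : (e₀ * f₀) * Fam.prd (fun j => ε j * h j) = e₀ * Fam.prd ε * f := by
      rw [hG₁, hf]
      have h2 : f₀ * Fam.prd ε = Fam.prd ε * f₀ :=
        commute_of_mem (SubAlg_mono hX₀X hf₀X) hE₁X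
      calc e₀ * f₀ * (Fam.prd ε * Fam.prd h) = e₀ * (f₀ * Fam.prd ε) * Fam.prd h := by
            simp only [mul_assoc]
        _ = _ := by rw [h2]; simp only [mul_assoc]
    have h3 : NN (SubAlg k X) (e * f) (e * f) ≤ NN (SubAlg k X)
        ((e₀ * f₀) * Fam.prd (fun j => ε j * h j)) ((e₀ * f₀) * Fam.prd (fun j => ε j * h j)) := by
      rw [h1]
      apply NN_le
      · calc e₀ * Fam.prd ε * f * (e * f) = e₀ * Fam.prd ε * (f * e) * f := by
              simp only [mul_assoc]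
          _ = e₀ * (Fam.prd ε * e) * (f * f) := by rw [hec]; simp only [mul_assoc]
          _ = _ := by rw [hE₁e, he₀e, hff]
      · calc e * f * (e₀ * Fam.prd ε * f) = e * (f * e₀) * Fam.prd ε * f := by
              simp only [mul_assoc]
          _ = e * e₀ * (f * Fam.prd ε) * f := by rw [he₀c]; simp only [mul_assoc]
          _ = e * e₀ * Fam.prd ε * (f * f) := by rw [← hE₁f]; simp only [mul_assoc]
          _ = e₀ * (Fam.prd ε * e) * f := by
            rw [hff, ← hec e₀, mul_assoc e₀ e, ← hec (Fam.prd ε)]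
          _ = _ := by rw [hE₁e, he₀e]
    have h4 := finrank_NN_sup (A := X₀) (B := F.μ.range) (fun u hu v hv => by
      have h1 : F.μ.range ≤ Subgroup.centralizer {u} := by
        rw [hμ]
        refine iSup_le fun j y hy => ?_
        rw [Subgroup.mem_centralizer_iff]
        rintro _ rfl
        exact hcomm j _ hu y hy
      exact Subgroup.mem_centralizer_iff.mp (h1 hv) u rfl) hG₀ hl1 hG₀X hl2
    rw [← hXX] at h4
    refine (Submodule.finrank_mono h3).trans (h4.trans (Nat.mul_le_mul ?_ ?_))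
    · obtain ⟨z, hz, hzF, -, hez⟩ := exists_full_tr hP he₀ heT₀ hb.idem heb₀ ha' hba' hf₀X hf₀P
        hf₀f₀ hf₀b
      exact hf₀C e₀ he₀ heT₀ heb₀ ⟨z, hz, hzF, hez⟩
        (br_inf_ne_zero hP heT₀ (hbF ⊤) heb₀ hf₀P hf₀b)
    · refine hl3.trans ?_
      refine (List.prod_le_pow_card _ C ?_).trans (by simp)
      intro x hx
      obtain ⟨j, -, rfl⟩ := List.mem_map.mp hx
      exact hhP j
  have h6 := finrank_corner_le hb.idem.eq hb.mem
    (fun z hz => central_smul hb hZ hZp hz) hidx he.idem.eq he.mem heT heb hff hfX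
    (exists_full hP he heT hb.idem heb ha' hba' hfX hfP hff hfb') hbound hi
  rw [sq]
  exact h6

end Loc

end Vale.Agent.P180.R2.H954
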