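import Vale.Agent.P180.R2.H799.Loc1
import Vale.Agent.P180.R2.H799.Jb

/-!
P180: blocks of a factor `S` of a normal subgroup `X` of `G`, below a block `b` of `G`: relative
traces from `D ∩ N_G(S)` in `S (D ∩ N_G(S))`.
-/

set_option linter.all false

namespace Vale.Agent.P180.R2.H954

open Vale.Agent.P180 Vale.Agent.P180.H768.Gd Vale.Agent.P180.R2.H365 Vale.Agent.P180.R2.H799

section Conj

variable {k : Type*} [Field k] {p : ℕ} [Fact p.Prime] [CharP k p] {G : Type} [Group G] [Finite G]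

/-- If `e = tr_P^N z` and the `p`-subgroup `Q` of `N` centralises an element of the support of `e`
then `Q` is contained in `P` up to conjugation in `N`. -/
theorem exists_conj_of_coeff {N P Q : Subgroup G} (hPN : P ≤ N) (hQN : Q ≤ N) (hQ : IsPGroup p Q)
    {e z : MonoidAlgebra k G} (hzF : z ∈ Fix (cj k G) P) (hez : e = tr (cj k G) P N z)
    {c : G} (hc : ∀ h ∈ Q, h * c * h⁻¹ = c) (hec : e.coeff c ≠ 0) :
    ∃ x ∈ N, ∀ v ∈ Q, x⁻¹ * v * x ∈ P := by
  classical
  have _ := Fintype.ofFinite (N ⧸ P.subgroupOf N)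
  let α : Q →* Equiv.Perm (N ⧸ P.subgroupOf N) :=
    (MulAction.toPermHom N (N ⧸ P.subgroupOf N)).comp (Subgroup.inclusion hQN)
  have hα : ∀ (v : Q) (x : N), α v (x : N ⧸ P.subgroupOf N) =
      ((⟨v, hQN v.2⟩ * x : N) : N ⧸ P.subgroupOf N) := fun _ _ => rfl
  have hout : ∀ x : N, cj k G ((((x : N ⧸ P.subgroupOf N).out : N)) : G) z = cj k G (x : G) z := by
    intro x
    have h1 : (x : N)⁻¹ * (x : N ⧸ P.subgroupOf N).out ∈ P.subgroupOf N := by
      rw [← QuotientGroup.eq, QuotientGroup.out_eq']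
    have h2 := hzF _ (Subgroup.mem_subgroupOf.mp h1)
    rw [Subgroup.coe_mul, Subgroup.coe_inv, map_mul_act] at h2
    calc cj k G (((x : N ⧸ P.subgroupOf N).out : N) : G) z
        = cj k G (x : G) (cj k G (x : G)⁻¹ (cj k G (((x : N ⧸ P.subgroupOf N).out : N) : G) z)) := by
          rw [map_act_inv]
      _ = cj k G (x : G) z := by rw [h2]
  let φ : N ⧸ P.subgroupOf N → k := fun q => (cj k G ((q.out : N) : G) z).coeff c
  have hφ : ∀ (v : Q) q, φ (α v q) = φ q := by
    intro v q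
    obtain ⟨x, rfl⟩ := QuotientGroup.mk_surjective q
    change (cj k G _ z).coeff c = (cj k G _ z).coeff c
    rw [hα, hout, hout, cj_coeff, cj_coeff]
    congr 1
    have h1 := hc (v : G)⁻¹ (Q.inv_mem v.2)
    rw [inv_inv] at h1
    change ((v : G) * (x : G))⁻¹ * c * ((v : G) * (x : G)) = _
    calc ((v : G) * (x : G))⁻¹ * c * ((v : G) * (x : G))
        = (x : G)⁻¹ * ((v : G)⁻¹ * c * (v : G)) * (x : G) := by group
      _ = (x : G)⁻¹ * c * (x : G) := by rw [h1]
  have hsum : e.coeff c = ∑ q, φ q := by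
    rw [hez, tr_def, MonoidAlgebra.coeff_sum, Finsupp.finsetSum_apply]
  rw [sum_fixed hQ α φ hφ (fun q => ∀ v, α v q = q) (fun _ => Iff.rfl)] at hsum
  obtain ⟨q, -, hq⟩ := Finset.exists_ne_zero_of_sum_ne_zero (by rw [← hsum]; exact hec)
  have hfix : ∀ v : Q, α v q = q := by
    by_contra h
    exact hq (if_neg h)
  obtain ⟨x, rfl⟩ := QuotientGroup.mk_surjective q
  refine ⟨x, x.2, fun v hv => ?_⟩
  have h1 := hfix ⟨v, hv⟩
  rw [hα, eq_comm, QuotientGroup.eq, Subgroup.mem_subgroupOf] at h1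
  have h2 : ((x⁻¹ * (⟨v, hQN hv⟩ * x) : N) : G) = (x : G)⁻¹ * v * (x : G) := by
    rw [Subgroup.coe_mul, Subgroup.coe_mul, Subgroup.coe_inv, mul_assoc]
  rwa [h2] at h1

omit [Fact p.Prime] [CharP k p] in
theorem exists_coeff_of_br {D : Subgroup G} {e : MonoidAlgebra k G} (h : br D e ≠ 0) :
    ∃ c, (∀ h ∈ D, h * c * h⁻¹ = c) ∧ e.coeff c ≠ 0 := by
  classical
  by_contra hcon
  push Not at hcon
  apply h
  apply MonoidAlgebra.coeff_injective
  ext x
  rw [br_coeff]
  split_ifs with hx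
  · rw [hcon x (mem_cent.mp hx)]
    rfl
  · rfl

omit [Fact p.Prime] [CharP k p] in
theorem br_ne_zero_of_coeff {D : Subgroup G} {e : MonoidAlgebra k G} {c : G}
    (hc : ∀ h ∈ D, h * c * h⁻¹ = c) (h : e.coeff c ≠ 0) : br D e ≠ 0 := by
  classical
  intro h0
  apply h
  have h1 := congrArg (fun z : MonoidAlgebra k G => z.coeff c) h0
  simp only [br_coeff, if_pos (mem_cent.mpr hc)] at h1
  exact h1

omit [Fact p.Prime] [CharP k p] in
theorem br_ne_zero_mono {R D : Subgroup G} (hRD : R ≤ D) {e : MonoidAlgebra k G}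
    (h : br D e ≠ 0) : br R e ≠ 0 := by
  obtain ⟨c, hc, hec⟩ := exists_coeff_of_br h
  exact br_ne_zero_of_coeff (fun x hx => hc x (hRD hx)) hec

theorem card_eq_inf_mul {D N : Subgroup G} :
    Nat.card (D ⊓ N : Subgroup G) * N.relIndex D = Nat.card D := by
  have h2 := Subgroup.relIndex_mul_relIndex (⊥ : Subgroup G) (D ⊓ N) D bot_le inf_le_left
  rwa [Subgroup.relIndex_bot_left, Subgroup.relIndex_bot_left, Subgroup.inf_relIndex_left] at h2

/-- A block `e` of `kN`, `N` normal in `N R`, which is a relative trace from `N ∩ R` in `N`, fixed by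
the `p`-group `R` and not killed by the Brauer homomorphism relative to `R`, is a relative trace
from `R` in `N R`. -/
theorem lift_tr {N R : Subgroup G} [N.Normal] (hR : IsPGroup p R) (hNR : N ⊔ R = ⊤)
    {e z : MonoidAlgebra k G} (he : IsBlockOf N e) (heR : e ∈ Fix (cj k G) R) (hbr : br R e ≠ 0)
    (hzF : z ∈ Fix (cj k G) (N ⊓ R))
    (hez : e = tr (cj k G) (N ⊓ R) N z) :
    ∃ y ∈ SubAlg k N, y ∈ Fix (cj k G) R ∧ e = tr (cj k G) R ⊤ y := by
  have heT : e ∈ Fix (cj k G) ⊤ := by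
    intro g _
    have hg : g ∈ N ⊔ R := by rw [hNR]; trivial
    rw [Subgroup.mem_sup_of_normal_left] at hg
    obtain ⟨x, hx, y, hy, rfl⟩ := hg
    rw [map_mul_act, heR y hy, he.mem.2 x hx]
  obtain ⟨Dh, ⟨hDp, -, a, haN, -, haD, hea⟩, n, hnN, hn, hen⟩ :=
    KP.exists_min_cand (p := p) (N := N) (R := ⊤) le_top he heT
  have h1 : Nat.card (Dh ⊓ N : Subgroup G) ≤ Nat.card (N ⊓ R : Subgroup G) :=
    card_le_of_coeff inf_le_left inf_le_right (hDp.to_le inf_le_left) hzF hez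
      (fun h hh => hn h hh.1) hen
  obtain ⟨c, hc, hec⟩ := exists_coeff_of_br hbr
  obtain ⟨x, -, hx⟩ := exists_conj_of_coeff (N := ⊤) le_top le_top hR haD hea hc hec
  have hidx : N.relIndex R = N.index := by
    rw [← Subgroup.relIndex_top_right, ← hNR, sup_comm, Subgroup.relIndex_sup_right]
  have h2 : Nat.card Dh ≤ Nat.card R := by
    rw [← card_eq_inf_mul (D := Dh) (N := N), ← card_eq_inf_mul (D := R) (N := N), hidx,
      inf_comm R N]
    refine Nat.mul_le_mul h1 ?_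
    exact Nat.le_of_dvd (Nat.pos_of_ne_zero Subgroup.index_ne_zero_of_finite)
      (Subgroup.relIndex_dvd_index_of_normal N Dh)
  have h3 : R ≤ conjS x Dh := fun v hv => mem_conjS.mpr (hx v hv)
  have h4 : Nat.card (conjS x Dh) = Nat.card Dh :=
    Subgroup.card_map_of_injective (MulAut.conj x).injective
  have h5 : conjS x Dh = R := by
    refine (Subgroup.eq_of_le_of_card_ge h3 ?_).symm
    rw [h4]; exact h2
  have h6 : conjS x (⊤ : Subgroup G) = ⊤ := by
    ext y
    rw [mem_conjS]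
    simp
  refine ⟨cj k G x a, KP.cj_mem_SubAlg x haN, ?_, ?_⟩
  · rw [← h5]
    exact conj_mem_Fix haD x fun h hh => mem_conjS.mp hh
  · have h7 := cj_tr (k := k) x (K := (⊤ : Subgroup G)) haD
    rw [← hea, heT x trivial, h5, h6] at h7
    exact h7

/-- Relative version of `lift_tr`. -/
theorem lift_tr_rel {S R : Subgroup G} (hR : IsPGroup p R)
    (hRS : ∀ r ∈ R, ∀ s ∈ S, r * s * r⁻¹ ∈ S)
    {e z : MonoidAlgebra k G} (he : IsBlockOf S e) (heR : e ∈ Fix (cj k G) R) (hbr : br R e ≠ 0)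
    (hz : z ∈ SubAlg k S) (hzF : z ∈ Fix (cj k G) (S ⊓ R))
    (hez : e = tr (cj k G) (S ⊓ R) S z) :
    ∃ y ∈ SubAlg k S, y ∈ Fix (cj k G) R ∧ e = tr (cj k G) R (S ⊔ R) y := by
  set E : Subgroup G := S ⊔ R with hE
  have hSE : S ≤ E := le_sup_left
  have hRE : R ≤ E := le_sup_right
  obtain ⟨e', rfl⟩ := exists_incl E (SubAlg_mono hSE he.mem.1)
  obtain ⟨z', rfl⟩ := exists_incl E (SubAlg_mono hSE hz)
  have hmapS : (S.subgroupOf E).map E.subtype = S := Subgroup.map_subgroupOf_eq_of_le hSE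
  have hmapR : (R.subgroupOf E).map E.subtype = R := Subgroup.map_subgroupOf_eq_of_le hRE
  have hmapI : (S.subgroupOf E ⊓ R.subgroupOf E).map E.subtype = S ⊓ R := by
    rw [Subgroup.map_inf _ _ _ E.subtype_injective, hmapS, hmapR]
  have htop : (⊤ : Subgroup E).map E.subtype = E := by
    rw [← MonoidHom.range_eq_map, Subgroup.range_subtype]
  have hEnorm : E ≤ Subgroup.normalizer (S : Set G) := by
    rw [hE, sup_le_iff]
    refine ⟨Subgroup.le_normalizer, ?_⟩
    intro r hr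
    rw [Subgroup.mem_normalizer_iff]
    intro s
    refine ⟨fun hs => hRS r hr s hs, fun hs => ?_⟩
    have := hRS r⁻¹ (R.inv_mem hr) _ hs
    simpa [mul_assoc] using this
  have hSn : (S.subgroupOf E).Normal := by
    constructor
    intro s hs x
    rw [Subgroup.mem_subgroupOf] at hs ⊢
    exact (Subgroup.mem_normalizer_iff.mp (hEnorm x.2) _).mp hs
  have he' : IsBlockOf (S.subgroupOf E) e' := (isBlockOf_subgroupOf_iff hSE e').mpr he
  have heR' : e' ∈ Fix (cj k E) (R.subgroupOf E) := by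
    rw [← incl_mem_Fix_iff, hmapR]; exact heR
  have hzF' : z' ∈ Fix (cj k E) (S.subgroupOf E ⊓ R.subgroupOf E) := by
    rw [← incl_mem_Fix_iff, hmapI]; exact hzF
  have hR' : IsPGroup p (R.subgroupOf E) := hR.comap_of_injective E.subtype E.subtype_injective
  have hsup : S.subgroupOf E ⊔ R.subgroupOf E = ⊤ := by
    rw [← Subgroup.subgroupOf_sup hSE hRE, Subgroup.subgroupOf_self]
  have hbr' : br (R.subgroupOf E) e' ≠ 0 := by
    obtain ⟨c, hc, hec⟩ := exists_coeff_of_br hbr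
    have hcE : c ∈ E := incl_mem E e' c hec
    refine br_ne_zero_of_coeff (c := ⟨c, hcE⟩) ?_ ?_
    · intro r hr
      apply Subtype.ext
      exact hc r hr
    · rw [← H799.incl_coeff]
      exact hec
  have hez' : e' = tr (cj k E) (S.subgroupOf E ⊓ R.subgroupOf E) (S.subgroupOf E) z' := by
    apply incl_injective (k := k) E
    rw [incl_tr_gen E hzF', hmapI, hmapS]
    exact hez
  obtain ⟨y, hy, hyF, hey⟩ := lift_tr hR' hsup he' heR' hbr' hzF' hez'
  refine ⟨incl k E y, ?_, ?_, ?_⟩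
  · have := (incl_mem_SubAlg_iff E _ y).mpr hy
    rwa [hmapS] at this
  · rw [← hmapR, incl_mem_Fix_iff]
    exact hyF
  · conv_lhs => rw [hey]
    rw [incl_tr_gen E hyF, hmapR, htop]

/-- conjugation of blocks of subgroups -/
theorem isBlockOf_conj {S : Subgroup G} (g : G) {f : MonoidAlgebra k G} (hf : IsBlockOf S f) :
    IsBlockOf (conjS g S) (cj k G g f) := by
  have hmem : ∀ (g : G) (S : Subgroup G) (c : MonoidAlgebra k G), c ∈ ZAlg k S →
      cj k G g c ∈ ZAlg k (conjS g S) := by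
    intro g S c hc
    refine ⟨SuppIn.conj hc.1 g fun s hs => mem_conjS.mpr (by simpa [mul_assoc] using hs), ?_⟩
    exact conj_mem_Fix hc.2 g fun h hh => mem_conjS.mp hh
  have hback : conjS g⁻¹ (conjS g S) = S := by
    ext x
    rw [mem_conjS, mem_conjS]
    simp [mul_assoc]
  refine ⟨hmem g S f hf.mem, ?_, ?_, ?_⟩
  · change cj k G g f * cj k G g f = cj k G g f
    rw [← map_mul, hf.idem.eq]
  · intro h
    exact hf.ne_zero ((map_eq_zero_iff _ (cj k G g).injective).mp h)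
  · intro c hc hcc hce
    have h1 : cj k G g⁻¹ c * f = cj k G g⁻¹ c := by
      conv_lhs => rw [← map_inv_act (cj k G) g f]
      rw [← map_mul, hce]
    have h2 : IsIdempotentElem (cj k G g⁻¹ c) := by
      change cj k G g⁻¹ c * cj k G g⁻¹ c = _
      rw [← map_mul, hcc.eq]
    have h3 := hmem g⁻¹ _ c hc
    rw [hback] at h3
    rcases hf.primitive _ h3 h2 h1 with h | h
    · left
      exact (map_eq_zero_iff _ (cj k G g⁻¹).injective).mp h
    · right
      rw [← h, map_act_inv]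

/-- The block of `kS` below `b`, for a factor `S` of a normal subgroup `X` of `G` over which the
block is stable. -/
structure Below (b : MonoidAlgebra k G) (S : Subgroup G) (f : MonoidAlgebra k G) : Prop where
  block : IsBlockOf S f
  mul : f * b = b

omit [Fact p.Prime] [CharP k p] in
theorem Below.eq {b : MonoidAlgebra k G} (hb0 : b ≠ 0) {S : Subgroup G} {f f' : MonoidAlgebra k G}
    (h : Below b S f) (h' : Below b S f') : f = f' := by
  rcases h.block.eq_or_mul_eq_zero (by exact ZAlg_comm) h'.block with h1 | h1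
  · exact h1
  · exfalso
    apply hb0
    rw [← h.mul, ← h'.mul, ← mul_assoc, h1, zero_mul]

omit [Fact p.Prime] [CharP k p] in
theorem Below.conj {b : MonoidAlgebra k G} (hbF : b ∈ Fix (cj k G) ⊤) {S : Subgroup G}
    {f : MonoidAlgebra k G} (h : Below b S f) (g : G) : Below b (conjS g S) (cj k G g f) := by
  refine ⟨isBlockOf_conj g h.block, ?_⟩
  conv_lhs => rw [← hbF g trivial]
  rw [← map_mul, h.mul, hbF g trivial]

omit [Fact p.Prime] [CharP k p] in
/-- the block of `kS` below a stable block of `kX` -/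
theorem exists_below {X S : Subgroup G} (hSX : S ≤ X)
    (hXS : ∀ x ∈ X, ∃ s ∈ S, ∃ c ∈ Subgroup.centralizer (S : Set G), x = s * c)
    {b e : MonoidAlgebra k G} (he : IsBlockOf X e) (heb : e * b = b) :
    ∃ f, Below b S f ∧ f ∈ Fix (cj k G) X ∧ f * e = e := by
  obtain ⟨f, hf, hef⟩ := exists_covered (k := k) (X := S) he.ne_zero
  have hfX : f ∈ Fix (cj k G) X := by
    intro x hx
    obtain ⟨s, hs, c, hc, rfl⟩ := hXS x hx
    have h1 : cj k G c f = f := by
      refine SuppIn.induction (P := fun f => cj k G c f = f) hf.mem.1 (map_zero _) ?_ ?_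
      · intro a b ha hb; rw [map_add, ha, hb]
      · intro x hx r
        rw [map_smul, cj_single, ← Subgroup.mem_centralizer_iff.mp hc x hx, mul_inv_cancel_right]
    rw [map_mul_act, h1, hf.mem.2 s hs]
  have h2 : f * e = e := mul_block_eq hSX hf hfX he hef
  refine ⟨f, ⟨hf, ?_⟩, hfX, h2⟩
  rw [← heb, ← mul_assoc, h2]

/-- **Descent of the relative trace to a factor `S` of `X`.** -/
theorem Below.exists_tr {X S D R : Subgroup G} [X.Normal] (hSX : S ≤ X)
    (hXS : ∀ x ∈ X, ∃ s ∈ S, ∃ c ∈ Subgroup.centralizer (S : Set G), x = s * c)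
    (hD : IsPGroup p D) {b a e f : MonoidAlgebra k G} (hb : IsBlockOf (⊤ : Subgroup G) b)
    (ha : a ∈ Fix (cj k G) D) (hba : b = tr (cj k G) D ⊤ a) (hbr : br D b ≠ 0)
    (he : IsBlockOf X e) (heF : e ∈ Fix (cj k G) ⊤) (heb : e * b = b)
    (hf : Below b S f) (hRD : R ≤ D) (hDR : S ⊓ D ≤ R)
    (hRS : ∀ r ∈ R, ∀ s ∈ S, r * s * r⁻¹ ∈ S) :
    f ∈ Fix (cj k G) R ∧ br R f ≠ 0 ∧
      (∃ z ∈ SubAlg k S, z ∈ Fix (cj k G) (S ⊓ R) ∧ f = tr (cj k G) (S ⊓ R) S z) ∧
      ∃ z ∈ SubAlg k S, z ∈ Fix (cj k G) R ∧ f = tr (cj k G) R (S ⊔ R) z := by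
  have hbF : b ∈ Fix (cj k G) ⊤ := hb.mem.2
  obtain ⟨f', hf', hfX, hfe⟩ := exists_below hSX hXS he heb
  have hff : f = f' := hf.eq hb.ne_zero hf'
  subst hff
  have hfR : f ∈ Fix (cj k G) R := by
    intro r hr
    have h1 := hf.conj hbF r
    have h2 : conjS r S = S := by
      ext x
      rw [mem_conjS]
      constructor
      · intro hx
        have := hRS r hr _ hx
        simpa [mul_assoc] using this
      · intro hx
        have := hRS r⁻¹ (R.inv_mem hr) _ hx
        simpa [mul_assoc] using this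
    rw [h2] at h1
    exact h1.eq hb.ne_zero hf
  have hRp : IsPGroup p R := hD.to_le hRD
  have hbrf : br R f ≠ 0 := by
    intro h0
    apply br_ne_zero_mono hRD hbr
    rw [← hf.mul, br_mul hRp hfR (Fix_mono _ le_top hbF), h0, zero_mul]
  refine ⟨hfR, hbrf, ?_⟩
  obtain ⟨z, hz, hzF, hez⟩ := exists_tr_inf he heF hb.idem (by rw [heb]; exact hb.ne_zero) ha hba
  have hnorm : ∀ x ∈ X, ∀ s ∈ S, x * s * x⁻¹ ∈ S := by
    intro x hx s hs
    obtain ⟨t, ht, c, hc, rfl⟩ := hXS x hx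
    have h1 : t * c * s * (t * c)⁻¹ = t * s * t⁻¹ := by
      have h2 := Subgroup.mem_centralizer_iff.mp hc s hs
      calc t * c * s * (t * c)⁻¹ = t * (c * s) * c⁻¹ * t⁻¹ := by group
        _ = t * (s * c) * c⁻¹ * t⁻¹ := by rw [h2]
        _ = t * s * t⁻¹ := by group
    rw [h1]
    exact S.mul_mem (S.mul_mem ht hs) (S.inv_mem ht)
  obtain ⟨x, hx, w, hw, hwF, hfw⟩ := covering_rel hSX (inf_le_left : X ⊓ D ≤ X) hnorm hf.block
    he.idem (by rw [hfe]; exact he.ne_zero) hz hzF hez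
  have hcS : conjS x⁻¹ S = S := by
    ext y
    rw [mem_conjS, inv_inv]
    constructor
    · intro hy
      have := hnorm x⁻¹ (X.inv_mem hx) _ hy
      simpa [mul_assoc] using this
    · intro hy
      exact hnorm x hx y hy
  have hcI : conjS x⁻¹ (S ⊓ conjS x (X ⊓ D)) = S ⊓ R := by
    ext y
    rw [mem_conjS, inv_inv, Subgroup.mem_inf, mem_conjS, Subgroup.mem_inf, Subgroup.mem_inf]
    have h1 : x⁻¹ * (x * y * x⁻¹) * x = y := by group
    rw [h1]
    constructor
    · rintro ⟨h2, h3, h4⟩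
      have h5 := hnorm x⁻¹ (X.inv_mem hx) _ h2
      rw [inv_inv, h1] at h5
      exact ⟨h5, hDR ⟨h5, h4⟩⟩
    · rintro ⟨h2, h3⟩
      exact ⟨hnorm x hx y h2, hSX h2, hRD h3⟩
  have h := cj_tr (k := k) x⁻¹ (K := S) hwF
  rw [← hfw, hfX x⁻¹ (X.inv_mem hx), hcS, hcI] at h
  have hw1 : cj k G x⁻¹ w ∈ SubAlg k S :=
    SuppIn.conj (T := (S : Set G)) hw x⁻¹ fun s hs => hnorm x⁻¹ (X.inv_mem hx) s hs
  have hw2 : cj k G x⁻¹ w ∈ Fix (cj k G) (S ⊓ R) := by
    rw [← hcI]
    exact conj_mem_Fix hwF x⁻¹ fun h hh => mem_conjS.mp hh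
  exact ⟨⟨cj k G x⁻¹ w, hw1, hw2, h⟩, lift_tr_rel hRp hRS hf.block hfR hbrf hw1 hw2 h⟩

end Conj

end Vale.Agent.P180.R2.H954
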