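import Vale.Agent.P180.R2.H954.Hc2a
import Vale.Agent.P180.Int.LL
import Mathlib.RingTheory.WittVector.Complete
import Mathlib.RingTheory.WittVector.DiscreteValuationRing
import Mathlib.FieldTheory.IsAlgClosed.AlgebraicClosure
import Mathlib.RingTheory.Localization.FractionRing

/-!
P180: idempotents of group algebras over an algebraically closed field of characteristic `p` and
their lifts to characteristic zero.
-/

set_option linter.all false

namespace Vale.Agent.P180.R2.H954.Hc

open Vale.Agent.P180 Vale.Agent.P180.R2.H799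
open Vale.Agent.P180.I (rd rd_coeff exists_rd_inv exists_idem IB IB_closed Sp Dv)
open IsLocalRing

universe u

section

variable {k : Type u} [Field k] [IsAlgClosed k] {p : ℕ} [Fact p.Prime] [CharP k p]

theorem maxIdeal_eq : maximalIdeal (WittVector p k) = Ideal.span {(p : WittVector p k)} :=
  (WittVector.irreducible p (k := k)).maximalIdeal_eq

theorem adic : IsAdicComplete (maximalIdeal (WittVector p k)) (WittVector p k) := by
  rw [maxIdeal_eq]
  exact WittVector.isAdicCompleteIdealSpanP

theorem isUnit_iff_coeff {x : WittVector p k} : IsUnit x ↔ WittVector.constantCoeff x ≠ 0 := by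
  constructor
  · intro h h0
    have := h.map (WittVector.constantCoeff (p := p) (R := k))
    rw [h0] at this
    exact not_isUnit_zero this
  · intro h
    exact WittVector.isUnit_of_coeff_zero_ne_zero x h

theorem isLocalHom_cc : IsLocalHom (WittVector.constantCoeff (p := p) (R := k)) :=
  ⟨fun x hx => isUnit_iff_coeff.mpr hx.ne_zero⟩

theorem cc_surj : Function.Surjective (WittVector.constantCoeff (p := p) (R := k)) := by
  intro x
  exact ⟨WittVector.teichmuller p x, WittVector.teichmuller_coeff_zero p x⟩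

variable {G : Type} [Group G] [Finite G]

/-- Idempotents lift to the ring of Witt vectors. -/
theorem exists_lift {H Z : Subgroup G} (hZH : Z ≤ H)
    (hHZ : ∀ h ∈ H, ∀ z ∈ Z, h * z * h⁻¹ ∈ Z) (hZ : ¬ p ∣ Nat.card Z) {f : MonoidAlgebra k G}
    (hf : f * f = f) (hfH : f ∈ SubAlg k H)
    (hfZ : ∀ z ∈ Z, MonoidAlgebra.single z (1 : k) * f = f) :
    ∃ F : MonoidAlgebra (WittVector p k) G, F * F = F ∧ (∀ x, F.coeff x ≠ 0 → x ∈ H) ∧
      (∀ z ∈ Z, MonoidAlgebra.single z 1 * F = F) ∧
      MonoidAlgebra.mapRingHom G (WittVector.constantCoeff (p := p) (R := k)) F = f := by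
  classical
  have hadic : IsAdicComplete (maximalIdeal (WittVector p k)) (WittVector p k) := adic
  have hloc : IsLocalHom (WittVector.constantCoeff (p := p) (R := k)) := isLocalHom_cc
  let ε : ResidueField (WittVector p k) →+* k :=
    ResidueField.lift (WittVector.constantCoeff (p := p) (R := k))
  have hε : ∀ x, ε (residue _ x) = WittVector.constantCoeff x := fun x => rfl
  have hbij : Function.Bijective ε := by
    refine ⟨ε.injective, fun x => ?_⟩
    obtain ⟨y, hy⟩ := cc_surj (p := p) x
    exact ⟨residue _ y, by rw [hε, hy]⟩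
  let e := RingEquiv.ofBijective ε hbij
  set f' : MonoidAlgebra (ResidueField (WittVector p k)) G :=
    MonoidAlgebra.mapRingHom G (e.symm : k →+* _) f with hf'
  have hεf' : MonoidAlgebra.mapRingHom G ε f' = f := by
    apply MonoidAlgebra.coeff_injective
    ext x
    rw [MonoidAlgebra.coeff_mapRingHom, hf', MonoidAlgebra.coeff_mapRingHom]
    exact e.apply_symm_apply _
  have hf'H : Sp (H : Set G) f' := by
    intro x hx
    apply hfH x
    intro h
    apply hx
    rw [hf', MonoidAlgebra.coeff_mapRingHom, h, map_zero]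
  obtain ⟨f₀, h0, h1, -⟩ := exists_rd_inv (O := WittVector p k) f'
  obtain ⟨F₀, hF₀, hFF₀, hr⟩ := exists_idem (IB (WittVector p k) H (∅ : Set G)) (IB_closed)
    (f := f') (by rw [hf', ← map_mul, hf]) (f₀ := f₀)
    ⟨h1 _ hf'H, fun d hd => absurd hd (Set.notMem_empty d)⟩ h0
  -- the idempotent of `Z`
  have hcard : IsUnit (Nat.card Z : WittVector p k) := by
    rw [isUnit_iff_coeff, map_natCast]
    intro h
    exact hZ ((CharP.cast_eq_zero_iff k p _).mp h)
  obtain ⟨c, hc⟩ := hcard.exists_right_inv
  have hfint : Fintype Z := Fintype.ofFinite Z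
  set σ : MonoidAlgebra (WittVector p k) G := ∑ z : Z, MonoidAlgebra.single (z : G) 1 with hσ
  have hzσ : ∀ z ∈ Z, MonoidAlgebra.single z 1 * σ = σ := by
    intro z hz
    rw [hσ, Finset.mul_sum]
    refine Fintype.sum_equiv (Equiv.mulLeft (⟨z, hz⟩ : Z)) _ _ fun y => ?_
    rw [MonoidAlgebra.single_mul_single, one_mul]
    rfl
  have hσcomm : ∀ h ∈ H, MonoidAlgebra.single h 1 * σ = σ * MonoidAlgebra.single h 1 := by
    intro h hh
    rw [hσ, Finset.mul_sum, Finset.sum_mul]
    have hh' : ∀ z ∈ Z, h⁻¹ * z * h ∈ Z := by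
      intro z hz
      have := hHZ h⁻¹ (H.inv_mem hh) z hz
      rwa [inv_inv] at this
    refine Fintype.sum_equiv
      { toFun := fun y : Z => (⟨h * y * h⁻¹, hHZ h hh y y.2⟩ : Z)
        invFun := fun y : Z => (⟨h⁻¹ * y * h, hh' y y.2⟩ : Z)
        left_inv := fun y => Subtype.ext (by
          change h⁻¹ * (h * y * h⁻¹) * h = y
          group)
        right_inv := fun y => Subtype.ext (by
          change h * (h⁻¹ * y * h) * h⁻¹ = y
          group) } _ _ fun y => ?_
    change _ = MonoidAlgebra.single (h * y * h⁻¹) 1 * MonoidAlgebra.single h 1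
    rw [MonoidAlgebra.single_mul_single, MonoidAlgebra.single_mul_single, inv_mul_cancel_right]
  have hσH : ∀ a : MonoidAlgebra (WittVector p k) G, (∀ x, a.coeff x ≠ 0 → x ∈ H) →
      a * σ = σ * a := by
    intro a ha
    have h1 : a = ∑ x ∈ a.coeff.support, a.coeff x • MonoidAlgebra.single x 1 := by
      apply MonoidAlgebra.coeff_injective
      conv_lhs => rw [← Finsupp.sum_single a.coeff]
      rw [MonoidAlgebra.coeff_sum]
      simp [Finsupp.sum]
    rw [h1, Finset.sum_mul, Finset.mul_sum]
    refine Finset.sum_congr rfl fun x hx => ?_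
    have hx' : a.coeff x ≠ 0 := by simpa using hx
    rw [smul_mul_assoc, mul_smul_comm, hσcomm x (ha x hx')]
  have hσσ : σ * σ = (Nat.card Z : WittVector p k) • σ := by
    conv_lhs => rw [hσ, Finset.sum_mul]
    rw [← hσ, Finset.sum_congr rfl (fun (z : Z) _ => hzσ z z.2), Finset.sum_const, Finset.card_univ,
      Nat.card_eq_fintype_card, ← Nat.cast_smul_eq_nsmul (WittVector p k)]
  set E : MonoidAlgebra (WittVector p k) G := c • σ with hE
  have hEE : E * E = E := by
    rw [hE, smul_mul_smul_comm, hσσ, smul_smul]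
    congr 1
    rw [mul_assoc, mul_comm c (Nat.card Z : WittVector p k), hc, mul_one]
  have hzE : ∀ z ∈ Z, MonoidAlgebra.single z 1 * E = E := by
    intro z hz
    rw [hE, mul_smul_comm, hzσ z hz]
  have hEH : ∀ a : MonoidAlgebra (WittVector p k) G, (∀ x, a.coeff x ≠ 0 → x ∈ H) →
      a * E = E * a := by
    intro a ha
    rw [hE, mul_smul_comm, smul_mul_assoc, hσH a ha]
  have hEs : ∀ x, E.coeff x ≠ 0 → x ∈ H := by
    intro x hx
    by_contra hxH
    apply hx
    rw [hE, hσ, MonoidAlgebra.coeff_smul, Finsupp.smul_apply, MonoidAlgebra.coeff_sum,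
      Finsupp.finset_sum_apply]
    rw [Finset.sum_eq_zero, smul_zero]
    intro z _
    rw [MonoidAlgebra.coeff_single, Finsupp.single_apply, if_neg]
    intro h
    exact hxH (h ▸ hZH z.2)
  have hsupp : ∀ {a b : MonoidAlgebra (WittVector p k) G}, (∀ x, a.coeff x ≠ 0 → x ∈ H) →
      (∀ x, b.coeff x ≠ 0 → x ∈ H) → ∀ x, (a * b).coeff x ≠ 0 → x ∈ H := by
    intro a b ha hb x hx
    by_contra hxU
    apply hx
    rw [MonoidAlgebra.coeff_mul_apply_left]
    apply Finset.sum_eq_zero
    intro y hy
    have hy1 : a.coeff y ≠ 0 := by simpa using hy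
    have h2 : b.coeff (y⁻¹ * x) = 0 := by
      by_contra h3
      apply hxU
      have := H.mul_mem (ha y hy1) (hb _ h3)
      rwa [mul_inv_cancel_left] at this
    simp [h2]
  have hF₀H : ∀ x, F₀.coeff x ≠ 0 → x ∈ H := hF₀.1
  refine ⟨E * F₀, ?_, hsupp hEs hF₀H, ?_, ?_⟩
  · rw [mul_assoc, ← mul_assoc F₀, hEH F₀ hF₀H, mul_assoc, hFF₀, ← mul_assoc, hEE]
  · intro z hz
    rw [← mul_assoc, hzE z hz]
  · have h2 : MonoidAlgebra.mapRingHom G (WittVector.constantCoeff (p := p) (R := k)) F₀ = f := by
      rw [← hεf', ← hr]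
      apply MonoidAlgebra.coeff_injective
      ext x
      rw [MonoidAlgebra.coeff_mapRingHom, MonoidAlgebra.coeff_mapRingHom, rd_coeff, hε]
    rw [map_mul, h2, hE]
    have h3 : MonoidAlgebra.mapRingHom G (WittVector.constantCoeff (p := p) (R := k)) (c • σ) =
        WittVector.constantCoeff c • ∑ z : Z, MonoidAlgebra.single (z : G) (1 : k) := by
      apply MonoidAlgebra.coeff_injective
      ext x
      rw [MonoidAlgebra.coeff_mapRingHom, MonoidAlgebra.coeff_smul, Finsupp.smul_apply,
        smul_eq_mul, map_mul, MonoidAlgebra.coeff_smul, Finsupp.smul_apply, smul_eq_mul]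
      congr 1
      rw [← MonoidAlgebra.coeff_mapRingHom, hσ, map_sum]
      simp only [MonoidAlgebra.mapRingHom_single, map_one]
    rw [h3, smul_mul_assoc, Finset.sum_mul, Finset.sum_congr rfl (fun (z : Z) _ => hfZ z z.2),
      Finset.sum_const, Finset.card_univ, ← Nat.card_eq_fintype_card,
      ← Nat.cast_smul_eq_nsmul k, smul_smul]
    have h4 : WittVector.constantCoeff c * (Nat.card Z : k) = 1 := by
      have := congrArg (WittVector.constantCoeff (p := p) (R := k)) hc
      rw [map_mul, map_natCast, map_one] at this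
      rw [mul_comm]
      exact this
    rw [h4, one_smul]

end

section

variable (k : Type u) [Field k] (p : ℕ) [Fact p.Prime] [CharP k p]

/-- An algebraically closed field of characteristic zero. -/
abbrev KK : Type u := AlgebraicClosure (FractionRing (WittVector p k))

/-- The embedding of the Witt vectors. -/
noncomputable def toKK : WittVector p k →+* KK k p :=
  (algebraMap (FractionRing (WittVector p k)) (KK k p)).comp
    (algebraMap (WittVector p k) (FractionRing (WittVector p k)))

theorem charZero_W : CharZero (WittVector p k) := by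
  refine charZero_of_inj_zero fun n hn => ?_
  by_contra h0
  obtain ⟨a, m, hm, rfl⟩ := Nat.exists_eq_pow_mul_and_not_dvd h0 p (Fact.out : p.Prime).ne_one
  rw [Nat.cast_mul, Nat.cast_pow, mul_eq_zero] at hn
  have hp0 : (p : WittVector p k) ≠ 0 := WittVector.p_nonzero p k
  rcases hn with h | h
  · exact hp0 (pow_eq_zero_iff (fun ha => by
      rw [ha, pow_zero] at h; exact one_ne_zero h) |>.mp h)
  · have h1 := congrArg (WittVector.constantCoeff (p := p) (R := k)) h
    rw [map_natCast, map_zero] at h1
    exact hm ((CharP.cast_eq_zero_iff k p _).mp h1)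

theorem charZero_KK : CharZero (KK k p) := by
  have h0 : CharZero (WittVector p k) := charZero_W k p
  have h1 : CharZero (FractionRing (WittVector p k)) :=
    charZero_of_injective_algebraMap (R := WittVector p k)
      (IsFractionRing.injective (WittVector p k) (FractionRing (WittVector p k)))
  exact charZero_of_injective_algebraMap (R := FractionRing (WittVector p k))
    (algebraMap (FractionRing (WittVector p k)) (KK k p)).injective

end

/-- **(HC2)**: transfer of an idempotent to characteristic zero. -/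
theorem exists_char_zero (k : Type u) [Field k] [IsAlgClosed k] (p : ℕ) [Fact p.Prime] [CharP k p]
    {G : Type} [Group G] [Finite G] {H Z : Subgroup G} (hZH : Z ≤ H)
    (hHZ : ∀ h ∈ H, ∀ z ∈ Z, h * z * h⁻¹ ∈ Z) (hZ : ¬ p ∣ Nat.card Z) {f : MonoidAlgebra k G}
    (hf : f * f = f) (hfH : f ∈ SubAlg k H)
    (hfZ : ∀ z ∈ Z, MonoidAlgebra.single z (1 : k) * f = f) :
    ∃ (K : Type u) (_ : Field K) (_ : IsAlgClosed K) (_ : CharZero K) (F : MonoidAlgebra K G),
      F * F = F ∧ F ∈ SubAlg K H ∧ (∀ z ∈ Z, MonoidAlgebra.single z (1 : K) * F = F) ∧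
      ∀ S : Subgroup G, H ≤ S →
        Module.finrank K (NN (SubAlg K S) F F) = Module.finrank k (NN (SubAlg k S) f f) := by
  obtain ⟨F, hFF, hFH, hFZ, hFf⟩ := exists_lift hZH hHZ hZ hf hfH hfZ
  refine ⟨KK k p, inferInstance, inferInstance, charZero_KK k p,
    MonoidAlgebra.mapRingHom G (toKK k p) F, ?_, ?_, ?_, ?_⟩
  · rw [← map_mul, hFF]
  · intro x hx
    rw [MonoidAlgebra.coeff_mapRingHom] at hx
    exact hFH x fun h => hx (by rw [h, map_zero])
  · intro z hz
    have h1 : MonoidAlgebra.single z (1 : KK k p) =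
        MonoidAlgebra.mapRingHom G (toKK k p) (MonoidAlgebra.single z 1) := by
      rw [MonoidAlgebra.mapRingHom_single, map_one]
    rw [h1, ← map_mul, hFZ z hz]
  · intro S hS
    obtain ⟨r, hr⟩ := exists_rank (H := S) hFF hFF (fun x hx => hS (hFH x hx))
      (fun x hx => hS (hFH x hx))
    rw [hr (KK k p) (toKK k p), ← hr k (WittVector.constantCoeff (p := p) (R := k)), hFf]

end Vale.Agent.P180.R2.H954.Hc
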