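import Vale.Agent.P180.R2.H954.CycCor
import Vale.Agent.P180.R2.H259.Cyc.Final
import Vale.Agent.P180.R2.H47.TermK

/-!
P180: the corner property of the simple factors meeting the defect group in a cyclic group.
-/

set_option linter.all false

namespace Vale.Agent.P180.R2.H954

open Vale.Agent.P180 Vale.Agent.P180.H768.Gd Vale.Agent.P180.R2.H799
  Vale.Agent.P180.R2.H12 Vale.Agent.P180.R2.H47

universe u

/-- A `p`-subgroup normalising `S` lies in `S C_G(S)` if `|N_G(S) : S C_G(S)|` is prime to `p`. -/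
theorem inner_of_outI {p : ℕ} [Fact p.Prime] {G : Type} [Group G] [Finite G] {S R : Subgroup G}
    (hR : IsPGroup p R) (hRS : ∀ x ∈ R, ∀ s ∈ S, x * s * x⁻¹ ∈ S) (ho : ¬ p ∣ outI S) :
    ∀ r ∈ R, ∃ s ∈ S, ∃ c ∈ Subgroup.centralizer (S : Set G), r = s * c := by
  intro r hr
  have hrN : r ∈ Subgroup.normalizer (S : Set G) := by
    rw [Subgroup.mem_normalizer_iff]
    intro s
    refine ⟨fun hs => hRS r hr s hs, fun hs => ?_⟩
    have := hRS r⁻¹ (R.inv_mem hr) _ hs
    simpa [mul_assoc] using this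
  set N := Subgroup.normalizer (S : Set G) with hN
  set M := S ⊔ Subgroup.centralizer (S : Set G) with hM
  have hcn : ∀ g ∈ N, ∀ c ∈ Subgroup.centralizer (S : Set G),
      g * c * g⁻¹ ∈ Subgroup.centralizer (S : Set G) := by
    intro g hg c hc
    rw [Subgroup.mem_centralizer_iff]
    intro s hs
    have h1 : g⁻¹ * s * g ∈ S := by
      have := (Subgroup.mem_normalizer_iff.mp (N.inv_mem hg) s).mp hs
      rwa [inv_inv] at this
    have h2 := Subgroup.mem_centralizer_iff.mp hc _ h1
    calc s * (g * c * g⁻¹) = g * ((g⁻¹ * s * g) * c) * g⁻¹ := by group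
      _ = g * (c * (g⁻¹ * s * g)) * g⁻¹ := by rw [h2]
      _ = g * c * g⁻¹ * s := by group
  have hMn : ∀ g ∈ N, ∀ m ∈ M, g * m * g⁻¹ ∈ M := by
    intro g hg m hm
    have hle : M ≤ M.comap (MulAut.conj g).toMonoidHom := by
      rw [hM]
      refine sup_le (fun s hs => ?_) (fun c hc => ?_)
      · exact Subgroup.mem_sup_left ((Subgroup.mem_normalizer_iff.mp hg s).mp hs)
      · exact Subgroup.mem_sup_right (hcn g hg c hc)
    exact hle hm
  have hMN : (M.subgroupOf N).Normal := by
    constructor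
    intro m hm g
    exact hMn g g.2 m hm
  have h1 : ((⟨r, hrN⟩ : N) : N ⧸ M.subgroupOf N) ^ (M.subgroupOf N).index = 1 := by
    rw [← QuotientGroup.mk_pow, QuotientGroup.eq_one_iff]
    exact Subgroup.pow_index_mem _ _
  obtain ⟨m, hm⟩ := hR ⟨r, hr⟩
  have hm' : r ^ p ^ m = 1 := congrArg Subtype.val hm
  have h2 : ((⟨r, hrN⟩ : N) : N ⧸ M.subgroupOf N) ^ (p ^ m) = 1 := by
    rw [← QuotientGroup.mk_pow, QuotientGroup.eq_one_iff]
    have : ((⟨r, hrN⟩ : N) ^ p ^ m : N) = 1 := Subtype.ext hm'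
    rw [this]
    exact Subgroup.one_mem _
  have hcop : Nat.Coprime (p ^ m) (M.subgroupOf N).index :=
    Nat.Coprime.pow_left _ ((Nat.Prime.coprime_iff_not_dvd Fact.out).mpr ho)
  have h3 : orderOf ((⟨r, hrN⟩ : N) : N ⧸ M.subgroupOf N) = 1 :=
    Nat.eq_one_of_dvd_coprimes hcop (orderOf_dvd_of_pow_eq_one h2) (orderOf_dvd_of_pow_eq_one h1)
  rw [orderOf_eq_one_iff, QuotientGroup.eq_one_iff, Subgroup.mem_subgroupOf] at h3
  obtain ⟨s, hs, c, hc, h⟩ := mem_sup_of_commute
    (fun s hs c hc => Subgroup.mem_centralizer_iff.mp hc s hs) h3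
  exact ⟨s, hs, c, hc, h.symm⟩

/-- **(Cyc)** -/
theorem corCyc {k : Type u} [Field k] [IsAlgClosed k] {p : ℕ} [Fact p.Prime] [CharP k p] (n : ℕ) :
    CorCyc k p n (H259.Cyc.cycB p n) := by
  intro G _ _ S D R b e hD hDn hcyc ho _ hRD hRS hbe heR hbr hz _
  obtain ⟨z, hz, hzF, hez⟩ := hz
  have hR : IsPGroup p R := hD.to_le hRD
  refine cor_of_corner hR (inner_of_outI hR hRS ho) hbe.block hbr hz hzF hez ?_
  have hQ : IsPGroup p (R.subgroupOf S) := hR.comap_of_injective S.subtype S.subtype_injective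
  have hQc : IsCyclic (R.subgroupOf S) := by
    have hle : (R.subgroupOf S).map S.subtype ≤ Pj D S := by
      rw [Subgroup.subgroupOf_map_subtype]
      exact (inf_le_inf_right S hRD).trans (inf_le_Pj D S)
    have h1 : IsCyclic ((R.subgroupOf S).map S.subtype) :=
      isCyclic_of_injective (Subgroup.inclusion hle) (Subgroup.inclusion_injective hle)
    exact isCyclic_of_injective
      ((R.subgroupOf S).equivMapOfInjective S.subtype S.subtype_injective).toMonoidHom
      (MulEquiv.injective _)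
  have hQn : Nat.card (R.subgroupOf S) ≤ n := by
    have h1 : Nat.card (R.subgroupOf S) ≤ Nat.card R :=
      Nat.card_le_card_of_injective (fun x => (⟨x.1.1, x.2⟩ : R))
        fun x y h => by
          have h' : ((x : S) : G) = ((y : S) : G) := congrArg (fun w : R => (w : G)) h
          exact Subtype.ext (Subtype.ext h')
    exact h1.trans ((Nat.card_le_card_of_injective _ (Subgroup.inclusion_injective hRD)).trans hDn)
  intro e' a' i he' ha' hea' hi hei hbri
  exact (H259.Cyc.cyclic_corner hQ hQc he' ha' hea' hi hei hbri).trans (H259.Cyc.cycB_mono hQn)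

end Vale.Agent.P180.R2.H954
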