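import Vale.Agent.P180.R2.H954.Hf3

/-!
P180: the factors of the stabiliser of a selfdual decomposition in the special isometry group, and
the index of the product of the factors and the scalars.
-/

set_option linter.all false

namespace Vale.Agent.P180.R2.H954.Hc

open Module Vale.Agent.P180.R2.H854

variable {K E : Type} [Field K] [AddCommGroup E] [Module K E] [FiniteDimensional K E] [Finite K]

namespace Dec

variable {Q : Subgroup (SpecialLinearGroup K E)} {D : Dec Q}

omit [FiniteDimensional K E] [Finite K] in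
theorem es_mul_e_of_mem {s : Finset (Fin D.r)} {i : Fin D.r} (hi : i ∈ s) :
    D.es s * D.e i = D.e i := by
  rw [es, Finset.sum_mul, Finset.sum_eq_single i]
  · exact D.idem i
  · intro j _ hj
    exact D.orth j i hj
  · intro h; exact absurd hi h

omit [FiniteDimensional K E] [Finite K] in
theorem cp_union {s t : Finset (Fin D.r)} (h : Disjoint s t) {g : SpecialLinearGroup K E}
    (hg : g ∈ D.L) : D.cp (s ∪ t) g = D.cp s g * D.cp t g := by
  classical
  induction s using Finset.induction_on with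
  | empty => rw [Finset.empty_union, cp_empty, one_mul]
  | insert i s hi ih =>
    rw [Finset.disjoint_insert_left] at h
    rw [Finset.insert_union, cp_insert (by rw [Finset.mem_union]; push Not; exact ⟨hi, h.1⟩) hg,
      ih h.2, cp_insert hi hg, mul_assoc]

omit [FiniteDimensional K E] [Finite K] in
theorem cp_mul_e_of_mem {s : Finset (Fin D.r)} {i : Fin D.r} (hi : i ∈ s)
    (g : SpecialLinearGroup K E) : D.cp s g * D.e i = toEnd g * D.e i := by
  rw [cp, add_mul, mul_assoc, es_mul_e_of_mem hi, sub_mul, one_mul, es_mul_e_of_mem hi, sub_self,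
    add_zero]

omit [FiniteDimensional K E] [Finite K] in
theorem cp_mul_e_of_notMem {s : Finset (Fin D.r)} {i : Fin D.r} (hi : i ∉ s)
    (g : SpecialLinearGroup K E) : D.cp s g * D.e i = D.e i := by
  rw [cp, add_mul, mul_assoc, es_mul_e_of_notMem hi, sub_mul, one_mul, es_mul_e_of_notMem hi,
    sub_zero, mul_zero, zero_add]

end Dec

namespace SDec

variable {Φ : HForm K E} {Q : Subgroup (SpecialLinearGroup K E)} {D : SDec Φ Q}

open Dec

theorem adj_cp_mul {g : SpecialLinearGroup K E} (hg : g ∈ D.L) {s : Finset (Fin D.r)}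
    (hs : s.image Fin.rev = s) : Φ.adj (D.cp s g) * D.cp s g = 1 := by
  rw [adj_cp hg, hs, ← cp_mul (D.toDec.L.inv_mem hg.1) hg.1, inv_mul_cancel, cp_one]

theorem mk_mem_L {g : SpecialLinearGroup K E} (hg : g ∈ D.L) {s : Finset (Fin D.r)}
    (hs : s.image Fin.rev = s) (h : LinearMap.det (D.cp s g) = 1) : mkSL (D.cp s g) h ∈ D.L := by
  refine ⟨Dec.mk_mem_L hg.1 h, Φ.mem_Iso_iff.mpr ?_⟩
  rw [toEnd_mkSL]
  exact adj_cp_mul hg hs

theorem pair_image (i : Fin D.r) :
    ({i, Fin.rev i} : Finset (Fin D.r)).image Fin.rev = {i, Fin.rev i} := by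
  ext l
  simp only [Finset.mem_image, Finset.mem_insert, Finset.mem_singleton]
  constructor
  · rintro ⟨x, hx | hx, rfl⟩
    · exact Or.inr (by rw [hx])
    · exact Or.inl (by rw [hx, Fin.rev_rev])
  · rintro (h | h)
    · exact ⟨Fin.rev i, Or.inr rfl, by rw [Fin.rev_rev, h]⟩
    · exact ⟨i, Or.inl rfl, h.symm⟩

theorem mk_mem_A {g : SpecialLinearGroup K E} (hg : g ∈ D.L) {i : Fin D.r}
    (hi : ¬ Fin.rev i < i) (h1 : D.dt {i} g = 1)
    (h : LinearMap.det (D.cp {i, Fin.rev i} g) = 1) :
    mkSL (D.cp {i, Fin.rev i} g) h ∈ D.A i := by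
  refine ⟨mk_mem_L hg (pair_image i) h, fun j hj hj' => ?_, ?_, fun h' => absurd h' hi⟩
  · rw [toEnd_mkSL]
    refine cp_mul_e_of_notMem ?_ g
    rw [Finset.mem_insert, Finset.mem_singleton]
    push Not
    exact ⟨hj, hj'⟩
  · have h2 : D.cp {i} (mkSL (D.cp {i, Fin.rev i} g) h) = D.cp {i} g := by
      conv_lhs => rw [cp, es_singleton, toEnd_mkSL, cp_mul_e_of_mem (Finset.mem_insert_self _ _)]
      rw [cp, es_singleton]
    rw [dt, h2]
    exact h1

/-- An element all of whose components have determinant one and lie in a subgroup is a product of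
elements of the factors lying in this subgroup. -/
theorem mem_iSup_inf {g : SpecialLinearGroup K E} (hg : g ∈ D.L) (h : ∀ i, D.dt {i} g = 1)
    (X : Subgroup (SpecialLinearGroup K E))
    (hX : ∀ i (h' : LinearMap.det (D.cp {i, Fin.rev i} g) = 1),
      mkSL (D.cp {i, Fin.rev i} g) h' ∈ X) : g ∈ ⨆ i, (D.A i ⊓ X) := by
  classical
  have hdt : ∀ s, LinearMap.det (D.cp s g) = 1 := by
    intro s
    have h1 := dt_prod hg.1 s
    rw [Finset.prod_congr rfl fun i _ => h i, Finset.prod_const_one] at h1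
    exact h1
  have key : ∀ n : ℕ, n ≤ D.r → ∃ x ∈ ⨆ i, (D.A i ⊓ X),
      toEnd x = D.cp (Finset.univ.filter fun l : Fin D.r => l.1 < n ∨ (Fin.rev l).1 < n) g := by
    intro n
    induction n with
    | zero =>
      intro _
      refine ⟨1, Subgroup.one_mem _, ?_⟩
      have h1 : (Finset.univ.filter fun l : Fin D.r => l.1 < 0 ∨ (Fin.rev l).1 < 0) = ∅ := by
        ext l
        simp
      rw [h1, cp_empty, toEnd_one]
    | succ n ih =>
      intro hn
      obtain ⟨x, hx, hxs⟩ := ih (by omega)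
      let i : Fin D.r := ⟨n, by omega⟩
      by_cases hi : Fin.rev i < i
      · refine ⟨x, hx, ?_⟩
        rw [hxs]
        congr 1
        ext l
        rw [Finset.mem_filter, Finset.mem_filter]
        refine and_congr_right fun _ => ?_
        have h1 : (Fin.rev i).1 < n := hi
        rw [Fin.val_rev] at h1
        rw [Fin.val_rev]
        have h2 := l.2
        have h3 : i.1 = n := rfl
        omega
      · have h1 : (Finset.univ.filter fun l : Fin D.r => l.1 < n + 1 ∨ (Fin.rev l).1 < n + 1) =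
            {i, Fin.rev i} ∪ Finset.univ.filter fun l : Fin D.r => l.1 < n ∨ (Fin.rev l).1 < n := by
          ext l
          rw [Finset.mem_union, Finset.mem_filter, Finset.mem_filter, Finset.mem_insert,
            Finset.mem_singleton, Fin.ext_iff, Fin.ext_iff]
          have h2 := l.2
          have h3 : i.1 = n := rfl
          simp only [Finset.mem_univ, true_and, Fin.val_rev]
          omega
        have h2 : Disjoint ({i, Fin.rev i} : Finset (Fin D.r))
            (Finset.univ.filter fun l : Fin D.r => l.1 < n ∨ (Fin.rev l).1 < n) := by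
          rw [Finset.disjoint_left]
          intro l hl hl'
          rw [Finset.mem_filter] at hl'
          rw [Finset.mem_insert, Finset.mem_singleton, Fin.ext_iff, Fin.ext_iff] at hl
          have h3 : ¬ (Fin.rev i).1 < n := hi
          have h4 := hl'.2
          have h5 : i.1 = n := rfl
          have h6 := l.2
          rw [Fin.val_rev] at h3 h4 hl
          omega
        refine ⟨mkSL (D.cp {i, Fin.rev i} g) (hdt _) * x, Subgroup.mul_mem _
          (Subgroup.mem_iSup_of_mem i ⟨mk_mem_A hg hi (h i) _, hX i _⟩) hx, ?_⟩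
        rw [toEnd_mul, toEnd_mkSL, hxs, h1, cp_union h2 hg.1]
  obtain ⟨x, hx, hxs⟩ := key D.r le_rfl
  have h1 : (Finset.univ.filter fun l : Fin D.r => l.1 < D.r ∨ (Fin.rev l).1 < D.r) =
      Finset.univ := by
    ext l
    rw [Finset.mem_filter]
    exact ⟨fun h => h.1, fun h => ⟨h, Or.inl l.2⟩⟩
  rw [h1, cp_univ] at hxs
  rwa [← toEnd_injective hxs]

theorem mem_iSup {g : SpecialLinearGroup K E} (hg : g ∈ D.L) (h : ∀ i, D.dt {i} g = 1) :
    g ∈ ⨆ i, D.A i := by
  have h1 := mem_iSup_inf hg h ⊤ fun _ _ => Subgroup.mem_top _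
  simpa only [inf_top_eq] using h1

theorem mkSL_cp_pow {g : SpecialLinearGroup K E} (hg : g ∈ D.L) (s : Finset (Fin D.r))
    (h : LinearMap.det (D.cp s g) = 1) (m : ℕ) : toEnd (mkSL (D.cp s g) h ^ m) = D.cp s (g ^ m) := by
  induction m with
  | zero => rw [pow_zero, pow_zero, cp_one, toEnd_one]
  | succ m ih => rw [pow_succ, toEnd_mul, ih, toEnd_mkSL, pow_succ, cp_mul (D.toDec.L.pow_mem hg.1 m)
      hg.1]

theorem cent_le {g : SpecialLinearGroup K E} (hg : g ∈ Φ.Iso)
    (h : g ∈ Subgroup.centralizer (Q : Set (SpecialLinearGroup K E))) : g ∈ D.L :=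
  ⟨Dec.cent_le h, hg⟩

theorem Q_le (hab : ∀ x ∈ Q, ∀ y ∈ Q, x * y = y * x) : Q ≤ D.L :=
  le_inf (Dec.Q_le hab) D.le

/-- If the order of `Q` is prime to `|K| - 1` then the components of the elements of `Q` have
determinant one. -/
theorem dt_eq_one [Finite Q] (hab : ∀ x ∈ Q, ∀ y ∈ Q, x * y = y * x)
    (hQ : (Nat.card Q).Coprime (Nat.card K - 1)) {g : SpecialLinearGroup K E} (hg : g ∈ Q)
    (i : Fin D.r) : D.dt {i} g = 1 :=
  (dt_of_mem_iSup (Dec.Q_le_iSup hab hQ hg) i).2

theorem Q_le_iSup [Finite Q] (hab : ∀ x ∈ Q, ∀ y ∈ Q, x * y = y * x)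
    (hQ : (Nat.card Q).Coprime (Nat.card K - 1)) : Q ≤ ⨆ i, D.A i := fun g hg =>
  mem_iSup (Q_le hab hg) fun i => dt_eq_one hab hQ hg i

/-- the dimensions of dual summands, seen through powers -/
theorem pow_n_rev (i : Fin D.r) (c : K) : c ^ D.n (Fin.rev i) = c ^ D.n i := by
  have h1 := det_scalar (D := D.toDec) i (Φ.θ c)
  have h2 := det_adj Φ (Φ.θ c • D.e i + (1 - D.e i))
  rw [h1, Φ.adj_add, Φ.adj_smul, Φ.θθ, Φ.adj_sub, Φ.adj_one, D.adj_e,
    det_scalar (D := D.toDec) (Fin.rev i) c, map_pow, Φ.θθ] at h2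
  exact h2

variable (D) in
/-- The scalars which are isometries. -/
noncomputable def Z : Subgroup (SpecialLinearGroup K E) := D.toDec.Z ⊓ Φ.Iso

theorem Z_le : D.Z ≤ D.L := inf_le_inf_right _ Dec.Z_le

theorem Z_comm {z g : SpecialLinearGroup K E} (hz : z ∈ D.Z) (hg : g ∈ D.L) : z * g = g * z :=
  Dec.Z_comm hz.1 hg.1

theorem card_Z_dvd : Nat.card D.Z ∣ (Nat.card K - 1) ^ D.r :=
  (Subgroup.card_dvd_of_le inf_le_left).trans Dec.card_Z_dvd

/-- the units `μ` with `μ θ(μ) = 1` on a selfdual summand -/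
def U (Φ : HForm K E) {r : ℕ} (i : Fin r) : Subgroup Kˣ where
  carrier := {u | Fin.rev i = i → (u : K) * Φ.θ u = 1}
  one_mem' := fun _ => by rw [Units.val_one, map_one, one_mul]
  mul_mem' := by
    intro a b ha hb hi
    rw [Units.val_mul, map_mul, mul_mul_mul_comm, ha hi, hb hi, one_mul]
  inv_mem' := by
    intro a ha hi
    have h1 := ha hi
    have h2 : ((a⁻¹ : Kˣ) : K) * Φ.θ ((a⁻¹ : Kˣ) : K) * ((a : K) * Φ.θ a) = 1 := by
      rw [mul_mul_mul_comm, Units.inv_mul, ← map_mul, Units.inv_mul, map_one, one_mul]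
    rw [h1, mul_one] at h2
    exact h2

theorem index_pow_le (U : Subgroup Kˣ) {n : ℕ} (hn : 0 < n) :
    (powMonoidHom n : U →* U).range.index ≤ n := by
  have hne : NeZero n := ⟨hn.ne'⟩
  have h1 := Subgroup.card_mul_index (powMonoidHom n : U →* U).range
  have h2 := Subgroup.card_mul_index (powMonoidHom n : U →* U).ker
  rw [Subgroup.index_ker, ← h1, mul_comm] at h2
  have h3 : Nat.card (powMonoidHom n : U →* U).ker = (powMonoidHom n : U →* U).range.index :=
    Nat.eq_of_mul_eq_mul_left (Nat.card_pos) h2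
  rw [← h3]
  refine le_trans ?_ (card_rootsOfUnity K n)
  refine Nat.card_le_card_of_injective
    (fun x : (powMonoidHom n : U →* U).ker => (⟨((x : U) : Kˣ), ?_⟩ : rootsOfUnity n K)) ?_
  · have h4 : (x : U) ^ n = 1 := x.2
    have h5 := congrArg Subtype.val h4
    exact h5
  · intro x y hxy
    exact Subtype.ext (Subtype.ext (congrArg (fun z : rootsOfUnity n K => (z : Kˣ)) hxy))

variable (D) in
/-- The determinants of the components. -/
noncomputable def δ (i : Fin D.r) : D.L →* U Φ i where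
  toFun g := ⟨Units.mk0 (D.dt {i} g) (dt_ne_zero g.2.1), fun hi => by
    have h1 := dt_rev g.2 i
    rw [hi] at h1
    exact h1⟩
  map_one' := by
    apply Subtype.ext
    apply Units.ext
    exact dt_one _
  map_mul' := by
    intro g h
    apply Subtype.ext
    apply Units.ext
    exact dt_mul g.2.1 h.2.1

theorem finite_sl : Finite (SpecialLinearGroup K E) := by
  have hfinE : Finite E := Module.finite_of_finite K
  refine Finite.of_injective (fun g : SpecialLinearGroup K E => (fun x : E => g x)) ?_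
  intro g h hgh
  ext x
  exact congrFun hgh x

/-- **The index of the product of the scalars and the factors.** -/
theorem relIndex_le : (D.Z ⊔ ⨆ i, D.A i).relIndex D.L ≤ ∏ i, D.n i := by
  classical
  have hfinG : Finite (SpecialLinearGroup K E) := finite_sl
  let H : Fin D.r → Subgroup D.L := fun i =>
    ((powMonoidHom (D.n i) : U Φ i →* U Φ i).range).comap (D.δ i)
  have hH : ∀ i, (H i).index ≤ D.n i := by
    intro i
    have h1 : (H i).index ∣ (powMonoidHom (D.n i) : U Φ i →* U Φ i).range.index := by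
      change (((powMonoidHom (D.n i) : U Φ i →* U Φ i).range).comap _).index ∣ _
      rw [Subgroup.index_comap]
      exact Subgroup.relIndex_dvd_index_of_normal _ _
    exact (Nat.le_of_dvd (Nat.pos_of_ne_zero Subgroup.index_ne_zero_of_finite) h1).trans
      (index_pow_le _ (n_pos i))
  have hle : (⨅ i, H i) ≤ (D.Z ⊔ ⨆ i, D.A i).subgroupOf D.L := by
    intro g hg
    rw [Subgroup.mem_subgroupOf]
    have h1 : ∀ i, ∃ c : U Φ i, c ^ D.n i = D.δ i g := by
      intro i
      have h2 : g ∈ H i := (Subgroup.mem_iInf.mp hg) i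
      exact h2
    choose c' hc' using h1
    have hc'' : ∀ i, ((c' i : Kˣ) : K) ^ D.n i = D.dt {i} (g : SpecialLinearGroup K E) := by
      intro i
      have h2 := congrArg (fun u : U Φ i => ((u : Kˣ) : K)) (hc' i)
      simp only [Subgroup.coe_pow, Units.val_pow_eq_pow_val] at h2
      exact h2
    -- the scalars
    let c : Fin D.r → Kˣ := fun i =>
      if Fin.rev i < i then (Units.map Φ.θ.toMonoidHom (c' (Fin.rev i) : Kˣ))⁻¹ else c' i
    have hc1 : ∀ i, ¬ Fin.rev i < i → c i = c' i := fun i hi => if_neg hi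
    have hc2 : ∀ i, Fin.rev i < i → c i = (Units.map Φ.θ.toMonoidHom (c' (Fin.rev i) : Kˣ))⁻¹ :=
      fun i hi => if_pos hi
    have hcd : ∀ i, (c i : K) ^ D.n i = D.dt {i} (g : SpecialLinearGroup K E) := by
      intro i
      by_cases hi : Fin.rev i < i
      · rw [hc2 i hi]
        have h2 := dt_rev g.2 (Fin.rev i)
        rw [Fin.rev_rev, ← hc'' (Fin.rev i), map_pow, pow_n_rev] at h2
        have h3 : (((Units.map Φ.θ.toMonoidHom (c' (Fin.rev i) : Kˣ))⁻¹ : Kˣ) : K) ^ D.n i *
            Φ.θ ((c' (Fin.rev i) : Kˣ) : K) ^ D.n i = 1 := by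
          rw [← mul_pow]
          have h4 : (((Units.map Φ.θ.toMonoidHom (c' (Fin.rev i) : Kˣ))⁻¹ : Kˣ) : K) *
              Φ.θ ((c' (Fin.rev i) : Kˣ) : K) = 1 := Units.inv_mul _
          rw [h4, one_pow]
        have h5 : Φ.θ ((c' (Fin.rev i) : Kˣ) : K) ^ D.n i ≠ 0 := by
          intro h6
          rw [h6, mul_zero] at h3
          exact zero_ne_one h3
        exact mul_right_cancel₀ h5 (h3.trans h2.symm)
      · rw [hc1 i hi, hc'']
    have hcr : ∀ i, Φ.θ (c (Fin.rev i) : K) * (c i : K) = 1 := by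
      intro i
      rcases lt_trichotomy (Fin.rev i) i with hi | hi | hi
      · have h2 : ¬ Fin.rev (Fin.rev i) < Fin.rev i := by
          rw [Fin.rev_rev]; exact not_lt_of_gt hi
        rw [hc1 _ h2, hc2 i hi]
        exact Units.mul_inv (Units.map Φ.θ.toMonoidHom (c' (Fin.rev i) : Kˣ))
      · have h2 : ¬ Fin.rev i < i := by rw [hi]; exact lt_irrefl _
        have h3 : c i = c' i := hc1 i h2
        have h4 := (c' i).2 hi
        rw [hi, h3, mul_comm]
        exact h4
      · have h2 : Fin.rev (Fin.rev i) < Fin.rev i := by rw [Fin.rev_rev]; exact hi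
        have h3 := hc2 _ h2
        have h4 := hc1 i (not_lt_of_gt hi)
        have h5 : Φ.θ (c (Fin.rev i) : K) * Φ.θ (Φ.θ ((c' i : Kˣ) : K)) = 1 := by
          rw [← map_mul, h3]
          have h6 : (((Units.map Φ.θ.toMonoidHom (c' (Fin.rev (Fin.rev i)) : Kˣ))⁻¹ : Kˣ) : K) *
              Φ.θ ((c' (Fin.rev (Fin.rev i)) : Kˣ) : K) = 1 := Units.inv_mul _
          have h7 : ((c' (Fin.rev (Fin.rev i)) : Kˣ) : K) = ((c' i : Kˣ) : K) := by
            rw [Fin.rev_rev]
          rw [← h7, h6, map_one]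
        rw [Φ.θθ] at h5
        rw [h4]
        exact h5
    have hker : c ∈ D.scd.ker := by
      rw [MonoidHom.mem_ker]
      change ∏ i, c i ^ D.n i = 1
      apply Units.ext
      rw [Units.coe_prod]
      have h2 : ∏ i, ((c i ^ D.n i : Kˣ) : K) =
          ∏ i, D.dt {i} (g : SpecialLinearGroup K E) :=
        Finset.prod_congr rfl fun i _ => by rw [Units.val_pow_eq_pow_val, hcd]
      have h3 : ∏ i, D.dt {i} (g : SpecialLinearGroup K E) = 1 := by
        rw [← dt_prod g.2.1, dt_univ]
      rw [h2, h3, Units.val_one]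
    set z := D.scH ⟨c, hker⟩ with hz
    have hzE : toEnd z = D.sc Finset.univ fun i => (c i : K) := toEnd_mkSL _ (det_of_mem hker)
    have hzI : z ∈ Φ.Iso := by
      rw [HForm.mem_Iso_iff, hzE]
      have h2 : Φ.adj (D.sc Finset.univ fun i => (c i : K)) =
          D.sc Finset.univ fun i => Φ.θ (c (Fin.rev i) : K) := by
        rw [sc_univ, sc_univ, adj_sum]
        refine Finset.sum_equiv Fin.revPerm (fun i => by simp) fun i _ => ?_
        rw [Φ.adj_smul, D.adj_e, Fin.revPerm_apply, Fin.rev_rev]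
      rw [h2, ← sc_mul]
      have h3 : (fun i => Φ.θ (c (Fin.rev i) : K) * (c i : K)) = fun _ => (1 : K) := by
        funext i
        exact hcr i
      rw [h3, sc_one]
    have hzZ : z ∈ D.Z := ⟨⟨⟨c, hker⟩, rfl⟩, hzI⟩
    have hzL : z ∈ D.L := Z_le hzZ
    have h3 : z⁻¹ * g ∈ ⨆ i, D.A i := by
      refine mem_iSup (D.L.mul_mem (D.L.inv_mem hzL) g.2) fun i => ?_
      have h4 : D.dt {i} z * D.dt {i} (z⁻¹ * g) = D.dt {i} (g : SpecialLinearGroup K E) := by
        rw [← dt_mul hzL.1 (D.L.mul_mem (D.L.inv_mem hzL) g.2).1, mul_inv_cancel_left]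
      have h5 : D.dt {i} z = D.dt {i} (g : SpecialLinearGroup K E) := by
        rw [dt_sc hzE, hcd]
      rw [h5] at h4
      exact mul_left_cancel₀ (dt_ne_zero g.2.1) (h4.trans (mul_one _).symm)
    have h6 : (g : SpecialLinearGroup K E) = z * (z⁻¹ * g) := by rw [mul_inv_cancel_left]
    rw [h6]
    exact Subgroup.mul_mem_sup hzZ h3
  have h7 : (D.Z ⊔ ⨆ i, D.A i).relIndex D.L ≤ (⨅ i, H i).index :=
    Nat.le_of_dvd (Nat.pos_of_ne_zero Subgroup.index_ne_zero_of_finite)
      (Subgroup.index_dvd_of_le hle)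
  refine h7.trans ((Subgroup.index_iInf_le H).trans ?_)
  exact Finset.prod_le_prod' fun i _ => hH i

end SDec

end Vale.Agent.P180.R2.H954.Hc
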