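import Vale.Agent.P180.R2.H954.Hf3

/-!
P180: the flag of a selfdual decomposition is selfdual; the Levi decomposition in the special
isometry group.
-/

set_option linter.all false

namespace Vale.Agent.P180.R2.H954.Hc

open Module Vale.Agent.P180.R2.H854

variable {K E : Type} [Field K] [AddCommGroup E] [Module K E] [FiniteDimensional K E] [Finite K]

namespace SDec

variable {Φ : HForm K E} {Q : Subgroup (SpecialLinearGroup K E)} {D : SDec Φ Q}

open Dec

/-- The flag of a selfdual decomposition is selfdual. -/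
theorem sd_flag : Φ.SD D.flag := by
  classical
  rcases Nat.eq_zero_or_pos D.r with h0 | hpos
  · have hemp : IsEmpty (Fin D.r) := by rw [h0]; infer_instance
    have h1 : (1 : End K E) = 0 := by
      rw [← D.sum, Finset.univ_eq_empty, Finset.sum_empty]
    have h2 : ∀ x : E, x = 0 := fun x => congrArg (fun a : End K E => a x) h1
    have h3 : ∀ W W' : Submodule K E, W = W' := by
      intro W W'
      ext x
      rw [h2 x]
      exact ⟨fun _ => W'.zero_mem, fun _ => W.zero_mem⟩
    exact ⟨1, Nat.one_pos, h3 _ _, fun i _ => h3 _ _⟩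
  · refine ⟨D.r, hpos, ?_, fun i hi => ?_⟩
    · rw [eq_top_iff]
      intro x _
      rw [mem_flag']
      intro l hl
      exact absurd l.2 (by omega)
    · apply le_antisymm
      · intro x hx
        rw [mem_flag']
        intro l hl
        apply Φ.nondeg
        intro y
        rw [Φ.adj_right, D.adj_e]
        refine hx _ ?_
        refine D.flag.mono ?_ (e_mem_flag (D := D.toDec) (Fin.rev l) y)
        rw [Fin.val_rev]
        have := l.2
        omega
      · intro x hx y hy
        rw [mem_flag (D := D.toDec)] at hy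
        rw [mem_flag'] at hx
        rw [← hy, ← Φ.adj_left, adj_es, Dec.es, LinearMap.sum_apply]
        have h1 : ∑ l ∈ (D.below i).image Fin.rev, D.e l x = 0 := by
          refine Finset.sum_eq_zero fun l hl => hx l ?_
          obtain ⟨m, hm, rfl⟩ := Finset.mem_image.mp hl
          rw [mem_below] at hm
          rw [Fin.val_rev]
          omega
        rw [h1, Φ.zero_left]

/-- **Levi decomposition.** -/
theorem exists_levi {g : SpecialLinearGroup K E} (hg : g ∈ PF D.flag) (hgI : g ∈ Φ.Iso) :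
    ∃ l ∈ D.L, ∃ u ∈ VF D.flag, u ∈ Φ.Iso ∧ g = l * u := by
  obtain ⟨l, hl, u, hu, rfl⟩ := Dec.exists_levi hg
  obtain ⟨u', hu', hue⟩ := Φ.exists_adj_VF (sd_flag (D := D)) ((VF D.flag).inv_mem hu)
  -- `adj l * l = adj u⁻¹ * u⁻¹`
  have h1 : Φ.adj (toEnd l) * toEnd l = toEnd (u' * u⁻¹) := by
    have h2 := Φ.mem_Iso_iff.mp hgI
    rw [toEnd_mul, Φ.adj_mul] at h2
    have h3 : toEnd u' * Φ.adj (toEnd u) = 1 := by
      rw [hue, ← Φ.adj_mul, toEnd_mul_inv, Φ.adj_one]
    calc Φ.adj (toEnd l) * toEnd l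
        = (toEnd u' * Φ.adj (toEnd u)) * (Φ.adj (toEnd l) * toEnd l) * (toEnd u * toEnd u⁻¹) := by
          rw [h3, one_mul, toEnd_mul_inv, mul_one]
      _ = toEnd u' * (Φ.adj (toEnd u) * Φ.adj (toEnd l) * (toEnd l * toEnd u)) * toEnd u⁻¹ := by
          simp only [mul_assoc]
      _ = toEnd (u' * u⁻¹) := by rw [h2, mul_one, toEnd_mul]
  have h2 : u' * u⁻¹ ∈ D.toDec.L := by
    intro i
    rw [← h1]
    have h3 : Φ.adj (toEnd l) * D.e i = D.e i * Φ.adj (toEnd l) := by
      have h4 := congrArg Φ.adj (hl (Fin.rev i))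
      rw [Φ.adj_mul, Φ.adj_mul, D.adj_e, Fin.rev_rev] at h4
      exact h4.symm
    rw [mul_assoc, hl i, ← mul_assoc, h3, mul_assoc]
  have h3 : u' * u⁻¹ ∈ VF D.flag ⊓ D.toDec.L := ⟨(VF D.flag).mul_mem hu' ((VF D.flag).inv_mem hu), h2⟩
  rw [VF_inf_L, Subgroup.mem_bot] at h3
  have hlI : l ∈ Φ.Iso := by
    rw [HForm.mem_Iso_iff, h1, h3, toEnd_one]
  refine ⟨l, ⟨hl, hlI⟩, u, hu, ?_, rfl⟩
  have h4 := Φ.Iso.mul_mem (Φ.Iso.inv_mem hlI) hgI
  rwa [inv_mul_cancel_left] at h4

theorem L_le_PF : D.L ≤ PF D.flag := inf_le_left.trans Dec.L_le_PF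

end SDec

end Vale.Agent.P180.R2.H954.Hc
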