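import Vale.Agent.P180.R2.H954.Hf4
import Vale.Agent.P180.R2.H954.Hf5

/-!
P180: the Levi subgroup of a commutative `p`-subgroup of a subgroup of index at most two in a special
isometry group.
-/

set_option linter.all false

namespace Vale.Agent.P180.R2.H954.Hc

open Module Vale.Agent.P180.R2.H854

section Gen

variable {G : Type*} [Group G]

theorem mem_of_relIndex_two {X I : Subgroup G} (hX : X.relIndex I ∣ 2) {g : G} (hg : g ∈ I)
    {m : ℕ} (hm : Odd m) (h : g ^ m = 1) : g ∈ X := by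
  have h2 : g ^ 2 ∈ X := by
    have h1 : (X.subgroupOf I).index ∣ 2 := hX
    rcases (Nat.dvd_prime Nat.prime_two).mp h1 with h1 | h1
    · rw [Subgroup.index_eq_one] at h1
      have h3 : (⟨g, hg⟩ : I) ∈ X.subgroupOf I := by rw [h1]; trivial
      exact X.pow_mem h3 2
    · exact Subgroup.sq_mem_of_index_two h1 (⟨g, hg⟩ : I)
  obtain ⟨k, rfl⟩ := hm
  rw [pow_succ, pow_mul] at h
  rw [eq_inv_of_mul_eq_one_right h]
  exact X.inv_mem (X.pow_mem h2 k)

theorem relIndex_le_two {X I B : Subgroup G} (hX : X.relIndex I ∣ 2) (hB : B ≤ I) :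
    (B ⊓ X).relIndex B ≤ 2 := by
  have h1 : (B ⊓ X).relIndex B = X.relIndex B := by rw [inf_comm, Subgroup.inf_relIndex_right]
  rw [h1]
  have h2 : X.relIndex I ≠ 0 := fun h => by rw [h] at hX; exact two_ne_zero (zero_dvd_iff.mp hX)
  exact (Subgroup.relIndex_le_of_le_right hB h2).trans (Nat.le_of_dvd two_pos hX)

/-- The index of a product of subgroups of index at most two. -/
theorem relIndex_iSup_inf_le [Finite G] {ι : Type*} [Fintype ι] {B : ι → Subgroup G}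
    {X I : Subgroup G} (hcomm : ∀ i j, i ≠ j → ∀ g ∈ B i, ∀ h ∈ B j, g * h = h * g)
    (hB : ∀ i, B i ≤ I) (hX : X.relIndex I ∣ 2) :
    (⨆ i, (B i ⊓ X)).relIndex (⨆ i, B i) ≤ 2 ^ Fintype.card ι := by
  classical
  have hc : Pairwise fun i j => ∀ x y : G, x ∈ B i → y ∈ B j → Commute x y :=
    fun i j hij x y hx hy => hcomm i j hij x hx y hy
  have h1 : (⨆ i, (B i ⊓ X)).relIndex (⨆ i, B i) =
      ((⨆ i, (B i ⊓ X)).comap (Subgroup.noncommPiCoprod hc)).index := by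
    rw [Subgroup.index_comap, Subgroup.noncommPiCoprod_range]
  let H : ι → Subgroup (∀ i, B i) := fun i =>
    (B i ⊓ X).comap ((B i).subtype.comp (Pi.evalMonoidHom (fun i => B i) i))
  have hH : ∀ i, (H i).index ≤ 2 := by
    intro i
    change ((B i ⊓ X).comap _).index ≤ 2
    rw [Subgroup.index_comap]
    have h2 : ((B i).subtype.comp (Pi.evalMonoidHom (fun i => B i) i)).range = B i := by
      ext x
      constructor
      · rintro ⟨y, rfl⟩
        exact (y i).2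
      · intro hx
        exact ⟨Pi.mulSingle i ⟨x, hx⟩, by simp⟩
    rw [h2]
    exact relIndex_le_two hX (hB i)
  have hle : (⨅ i, H i) ≤ (⨆ i, (B i ⊓ X)).comap (Subgroup.noncommPiCoprod hc) := by
    intro x hx
    rw [Subgroup.mem_comap]
    have h3 : ∀ i, (x i : G) ∈ B i ⊓ X := fun i => (Subgroup.mem_iInf.mp hx) i
    rw [Subgroup.noncommPiCoprod_apply]
    refine Subgroup.noncommProd_mem _ _ fun i _ => ?_
    exact Subgroup.mem_iSup_of_mem i (h3 i)
  rw [h1]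
  refine (Nat.le_of_dvd (Nat.pos_of_ne_zero Subgroup.index_ne_zero_of_finite)
    (Subgroup.index_dvd_of_le hle)).trans ((Subgroup.index_iInf_le H).trans ?_)
  refine (Finset.prod_le_prod' fun i _ => hH i).trans ?_
  rw [Finset.prod_const, Finset.card_univ]

theorem relIndex_sup_inf_le [Finite G] {r : ℕ} {Z : Subgroup G} {A : Fin r → Subgroup G}
    {X I : Subgroup G} (hZ : ∀ z ∈ Z, ∀ i, ∀ g ∈ A i, z * g = g * z)
    (hcomm : ∀ i j, i ≠ j → ∀ g ∈ A i, ∀ h ∈ A j, g * h = h * g)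
    (hZI : Z ≤ I) (hA : ∀ i, A i ≤ I) (hX : X.relIndex I ∣ 2) :
    ((Z ⊓ X) ⊔ ⨆ i, (A i ⊓ X)).relIndex (Z ⊔ ⨆ i, A i) ≤ 2 ^ (r + 1) := by
  let B : Option (Fin r) → Subgroup G := fun o => o.elim Z A
  have h1 := relIndex_iSup_inf_le (B := B) (X := X) (I := I) ?_ ?_ hX
  · rw [iSup_option, iSup_option, Fintype.card_option, Fintype.card_fin] at h1
    exact h1
  · rintro (_ | i) (_ | j) hij g hg h hh
    · exact absurd rfl hij
    · exact hZ g hg j h hh
    · exact (hZ h hh i g hg).symm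
    · exact hcomm i j (fun e => hij (by rw [e])) g hg h hh
  · rintro (_ | i)
    · exact hZI
    · exact hA i

theorem map_subgroupOf' (H X : Subgroup G) : (H.subgroupOf X).map X.subtype = H ⊓ X := by
  rw [Subgroup.subgroupOf_map_subtype]

theorem map_iSup_subgroupOf {ι : Type*} (A : ι → Subgroup G) (X : Subgroup G) :
    (⨆ i, (A i).subgroupOf X).map X.subtype = ⨆ i, (A i ⊓ X) := by
  rw [Subgroup.map_iSup]
  exact iSup_congr fun i => map_subgroupOf' _ _

end Gen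

variable {K E : Type} [Field K] [AddCommGroup E] [Module K E] [FiniteDimensional K E] [Finite K]

/-- The Levi subgroup of a commutative `p`-subgroup of `X`, and its factors. -/
structure LeviD (Φ : HForm K E) (X : Subgroup (SpecialLinearGroup K E)) (p : ℕ)
    (Q : Subgroup X) where
  F : Flag K E
  r : ℕ
  L : Subgroup X
  Z : Subgroup X
  A : Fin r → Subgroup X
  sd : Φ.SD F
  r_le : r ≤ finrank K E
  Q_le : Q ≤ L
  Q_le_iSup : Q ≤ ⨆ j, A j
  cent_le : Subgroup.centralizer (Q : Set X) ≤ L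
  A_le : ∀ j, A j ≤ L
  A_conj : ∀ j, ∀ g ∈ L, ∀ h ∈ A j, g * h * g⁻¹ ∈ A j
  A_comm : ∀ i j, i ≠ j → ∀ g ∈ A i, ∀ h ∈ A j, g * h = h * g
  A_inf : ∀ i j, i ≠ j → ∀ g ∈ A i, g ∈ A j → g = 1
  cyclic : ∀ j, IsCyclic (Q ⊓ A j : Subgroup X)
  Z_le : Z ≤ L
  Z_comm : ∀ z ∈ Z, ∀ g ∈ L, z * g = g * z
  Z_card : ¬ p ∣ Nat.card Z
  index : (Z ⊔ ⨆ j, A j).relIndex L ≤ 2 ^ (finrank K E + 1) * finrank K E ^ finrank K E
  le_PF : L ≤ (PF F).subgroupOf X
  sup_eq : (VF F).subgroupOf X ⊔ L = (PF F).subgroupOf X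
  inf_eq : (VF F).subgroupOf X ⊓ Subgroup.centralizer (Q : Set X) = ⊥

/-- **The Levi subgroup**: `p` odd does not divide `|K| (|K| - 1)` and is linear for the form. -/
theorem exists_leviD {p : ℕ} (hp : p.Prime) (Φ : HForm K E)
    {X : Subgroup (SpecialLinearGroup K E)} (hXI : X ≤ Φ.Iso) (hX2 : X.relIndex Φ.Iso ∣ 2)
    (hV : ∀ F : Flag K E, Φ.SD F → VF F ⊓ Φ.Iso ≤ X)
    (hK : ¬ p ∣ Nat.card K) (hK1 : ¬ p ∣ Nat.card K - 1)
    (hlin : ∀ j : ℕ, (∀ c, Φ.θ c = c ^ (ringChar K ^ j)) → ¬ p ∣ ringChar K ^ j + 1)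
    {Q : Subgroup X} (hQ : IsPGroup p Q) (hab : ∀ x ∈ Q, ∀ y ∈ Q, x * y = y * x) :
    Nonempty (LeviD Φ X p Q) := by
  classical
  have hfinG : Finite (SpecialLinearGroup K E) := SDec.finite_sl
  have hpF : Fact p.Prime := ⟨hp⟩
  have hpo : Odd p := by
    rcases hp.eq_two_or_odd' with h | h
    · exfalso
      subst h
      have h0 : 0 < Nat.card K := Nat.card_pos
      omega
    · exact h
  -- the subgroup of the special linear group
  set Q' : Subgroup (SpecialLinearGroup K E) := Q.map X.subtype with hQ'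
  have hQ'p : IsPGroup p Q' := hQ.map _
  have hQ'X : Q' ≤ X := by
    rintro _ ⟨x, -, rfl⟩
    exact x.2
  have hab' : ∀ x ∈ Q', ∀ y ∈ Q', x * y = y * x := by
    rintro _ ⟨x, hx, rfl⟩ _ ⟨y, hy, rfl⟩
    exact congrArg Subtype.val (hab x hx y hy)
  obtain ⟨l, hl⟩ := IsPGroup.iff_card.mp hQ'p
  have hcop : (Nat.card K).Coprime (Nat.card Q') := by
    rw [hl]
    exact (Nat.Coprime.pow_left l ((Nat.Prime.coprime_iff_not_dvd hp).mpr hK)).symm
  have hcop1 : (Nat.card Q').Coprime (Nat.card K - 1) := by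
    rw [hl]
    exact Nat.Coprime.pow_left l ((Nat.Prime.coprime_iff_not_dvd hp).mpr hK1)
  obtain ⟨D₀, hD1, hD2⟩ := exists_sdec Φ hp hQ'p hcop (hQ'X.trans hXI) hab' hlin
  let D : SDec Φ Q' := { D₀ with adj_e := hD1, triv := hD2, le := hQ'X.trans hXI }
  have hr : D.r ≤ finrank K E := Dec.r_le
  -- the components of the elements of `Q'` lie in `X`
  have hcpX : ∀ g ∈ Q', ∀ i (h' : LinearMap.det (D.cp {i, Fin.rev i} g) = 1),
      mkSL (D.cp {i, Fin.rev i} g) h' ∈ X := by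
    intro g hg i h'
    obtain ⟨m, hm⟩ := hQ'p ⟨g, hg⟩
    have hm' : g ^ p ^ m = 1 := congrArg Subtype.val hm
    have hgL : g ∈ D.L := SDec.Q_le hab' hg
    refine mem_of_relIndex_two hX2 (SDec.mk_mem_L hgL (SDec.pair_image i) h').2 (hpo.pow (n := m)) ?_
    apply toEnd_injective
    rw [SDec.mkSL_cp_pow hgL, hm', Dec.cp_one, toEnd_one]
  have hQA : Q' ≤ ⨆ i, (D.A i ⊓ X) := fun g hg =>
    SDec.mem_iSup_inf (SDec.Q_le hab' hg) (fun i => SDec.dt_eq_one hab' hcop1 hg i) X (hcpX g hg)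
  -- the centraliser
  have hcent : ∀ g : X, g ∈ Subgroup.centralizer (Q : Set X) →
      (g : SpecialLinearGroup K E) ∈ Subgroup.centralizer (Q' : Set (SpecialLinearGroup K E)) := by
    intro g hg
    rw [Subgroup.mem_centralizer_iff] at hg ⊢
    rintro _ ⟨x, hx, rfl⟩
    exact congrArg Subtype.val (hg x hx)
  have hinj := X.subtype_injective
  -- the index
  have hidx : ((D.Z ⊓ X) ⊔ ⨆ i, (D.A i ⊓ X)).relIndex (D.L ⊓ X) ≤
      2 ^ (finrank K E + 1) * finrank K E ^ finrank K E := by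
    have h1 : ((D.Z ⊓ X) ⊔ ⨆ i, (D.A i ⊓ X)).relIndex (D.L ⊓ X) ≤
        ((D.Z ⊓ X) ⊔ ⨆ i, (D.A i ⊓ X)).relIndex D.L :=
      Subgroup.relIndex_le_of_le_right inf_le_left Subgroup.index_ne_zero_of_finite
    have h2 : (D.Z ⊓ X) ⊔ ⨆ i, (D.A i ⊓ X) ≤ D.Z ⊔ ⨆ i, D.A i :=
      sup_le_sup inf_le_left (iSup_mono fun i => inf_le_left)
    have h3 : D.Z ⊔ ⨆ i, D.A i ≤ D.L := sup_le SDec.Z_le (iSup_le SDec.A_le_L)
    have h4 := Subgroup.relIndex_mul_relIndex _ _ _ h2 h3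
    have h5 : ((D.Z ⊓ X) ⊔ ⨆ i, (D.A i ⊓ X)).relIndex (D.Z ⊔ ⨆ i, D.A i) ≤ 2 ^ (D.r + 1) :=
      relIndex_sup_inf_le (I := Φ.Iso) (fun z hz i g hg => SDec.Z_comm hz (SDec.A_le_L i hg))
        (fun i j hij g hg h hh => SDec.A_comm hij hg hh) inf_le_right
        (fun i => (SDec.A_le_L i).trans inf_le_right) hX2
    have h6 : (D.Z ⊔ ⨆ i, D.A i).relIndex D.L ≤ finrank K E ^ finrank K E :=
      SDec.relIndex_le.trans Dec.prod_n_le
    refine h1.trans ?_
    rw [← h4]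
    refine Nat.mul_le_mul (h5.trans (Nat.pow_le_pow_right two_pos (by omega))) h6
  have hK10 : Nat.card K - 1 ≠ 0 := fun h => hK1 (by rw [h]; exact dvd_zero p)
  refine ⟨{
    F := D.flag
    r := D.r
    L := D.L.subgroupOf X
    Z := D.Z.subgroupOf X
    A := fun i => (D.A i).subgroupOf X
    sd := SDec.sd_flag
    r_le := hr
    Q_le := fun x hx => SDec.Q_le hab' ⟨x, hx, rfl⟩
    Q_le_iSup := ?_
    cent_le := fun g hg => SDec.cent_le (hXI g.2) (hcent g hg)
    A_le := fun j x hx => SDec.A_le_L j hx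
    A_conj := fun j g hg h hh => SDec.A_conj hg hh
    A_comm := fun i j hij g hg h hh => Subtype.ext (SDec.A_comm hij hg hh)
    A_inf := fun i j hij g hg hg' => Subtype.ext (SDec.A_inf hij hg hg')
    cyclic := ?_
    Z_le := fun x hx => SDec.Z_le hx
    Z_comm := fun z hz g hg => Subtype.ext (SDec.Z_comm hz hg)
    Z_card := ?_
    index := ?_
    le_PF := fun x hx => SDec.L_le_PF hx
    sup_eq := ?_
    inf_eq := ?_ }⟩
  · intro x hx
    have h1 : (x : SpecialLinearGroup K E) ∈ ⨆ i, (D.A i ⊓ X) := hQA ⟨x, hx, rfl⟩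
    rw [← map_iSup_subgroupOf] at h1
    obtain ⟨y, hy, hyx⟩ := h1
    have h2 : y = x := Subtype.ext hyx
    rwa [← h2]
  · intro j
    have h1 := SDec.cyclic_inf (D := D) j
    let ψ : (Q ⊓ (D.A j).subgroupOf X : Subgroup X) →* (Q' ⊓ D.A j : Subgroup _) :=
      { toFun := fun x => ⟨x.1.1, ⟨⟨x.1, x.2.1, rfl⟩, x.2.2⟩⟩
        map_one' := rfl
        map_mul' := fun _ _ => rfl }
    refine isCyclic_of_injective ψ fun x y hxy => ?_
    exact Subtype.ext (Subtype.ext (congrArg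
      (fun z : (Q' ⊓ D.A j : Subgroup (SpecialLinearGroup K E)) =>
        (z : SpecialLinearGroup K E)) hxy))
  · intro h
    have h1 : Nat.card (D.Z.subgroupOf X) ∣ Nat.card D.Z := by
      have h2 : Nat.card (D.Z.subgroupOf X) = Nat.card ((D.Z.subgroupOf X).map X.subtype) :=
        Nat.card_congr (Subgroup.equivMapOfInjective _ _ hinj).toEquiv
      rw [h2, map_subgroupOf']
      exact Subgroup.card_dvd_of_le inf_le_left
    exact hK1 (hp.dvd_of_dvd_pow ((h.trans h1).trans SDec.card_Z_dvd))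
  · have h1 : ((D.Z.subgroupOf X) ⊔ ⨆ i, (D.A i).subgroupOf X).relIndex (D.L.subgroupOf X) =
        ((D.Z ⊓ X) ⊔ ⨆ i, (D.A i ⊓ X)).relIndex (D.L ⊓ X) := by
      rw [← Subgroup.relIndex_map_map_of_injective _ _ hinj, Subgroup.map_sup,
        map_iSup_subgroupOf, map_subgroupOf', map_subgroupOf']
    rw [h1]
    exact hidx
  · apply le_antisymm
    · exact sup_le (fun x hx => VF_le_PF _ hx) fun x hx => SDec.L_le_PF hx
    · intro x hx
      obtain ⟨g, hg, u, hu, huI, hxe⟩ := SDec.exists_levi (D := D) hx (hXI x.2)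
      have huX : u ∈ X := hV _ SDec.sd_flag ⟨hu, huI⟩
      have hgX : g ∈ X := by
        have h1 : g = (x : SpecialLinearGroup K E) * u⁻¹ := by
          change g = X.subtype x * u⁻¹
          rw [hxe, mul_inv_cancel_right]
        rw [h1]
        exact X.mul_mem x.2 (X.inv_mem huX)
      have h2 : x = (⟨g, hgX⟩ : X) * ⟨u, huX⟩ := Subtype.ext hxe
      rw [h2]
      exact Subgroup.mul_mem _ (Subgroup.mem_sup_right hg) (Subgroup.mem_sup_left hu)
  · rw [eq_bot_iff]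
    rintro x ⟨hx, hxc⟩
    rw [Subgroup.mem_bot]
    have h1 : (x : SpecialLinearGroup K E) ∈ VF D.flag ⊓
        Subgroup.centralizer (Q' : Set (SpecialLinearGroup K E)) := ⟨hx, hcent x hxc⟩
    rw [Dec.VF_inf_cent, Subgroup.mem_bot] at h1
    exact Subtype.ext h1

end Vale.Agent.P180.R2.H954.Hc
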