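import Vale.Agent.P180.R2.H954.Hc3b

/-!
P180: the scalars in the stabiliser of a decomposition, and the index of the product of the scalars
and of the special linear groups of the summands.
-/

set_option linter.all false

namespace Vale.Agent.P180.R2.H954.Hc

open Module Vale.Agent.P180.R2.H854

variable {K E : Type} [Field K] [AddCommGroup E] [Module K E] [FiniteDimensional K E]

namespace Dec

variable {Q : Subgroup (SpecialLinearGroup K E)} {D : Dec Q}

/-- the dimension of a summand -/
noncomputable def n (D : Dec Q) (i : Fin D.r) : ℕ := finrank K (LinearMap.range (D.e i))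

theorem n_pos (i : Fin D.r) : 0 < D.n i := by
  rw [n, Nat.pos_iff_ne_zero, Ne, Submodule.finrank_eq_zero, LinearMap.range_eq_bot]
  exact D.ne i

theorem n_le (i : Fin D.r) : D.n i ≤ finrank K E := Submodule.finrank_le _

theorem r_le : D.r ≤ finrank K E := by
  classical
  -- pick a nonzero vector in each summand
  have h1 : ∀ i, ∃ x : E, D.e i x ≠ 0 := by
    intro i
    by_contra h
    push Not at h
    exact D.ne i (LinearMap.ext h)
  choose x hx using h1
  have hli : LinearIndependent K (fun i => D.e i (x i)) := by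
    rw [Fintype.linearIndependent_iff]
    intro c hc i
    have h2 := congrArg (D.e i) hc
    rw [map_sum, map_zero, Finset.sum_eq_single i] at h2
    · rw [map_smul, ← End.mul_apply, D.idem] at h2
      exact (smul_eq_zero.mp h2).resolve_right (hx i)
    · intro j _ hj
      rw [map_smul, ← End.mul_apply, D.orth i j hj.symm, LinearMap.zero_apply, smul_zero]
    · intro h; exact absurd (Finset.mem_univ i) h
  have h3 := hli.fintype_card_le_finrank
  rwa [Fintype.card_fin] at h3

theorem det_scalar (i : Fin D.r) (c : K) :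
    LinearMap.det (c • D.e i + (1 - D.e i)) = c ^ D.n i := by
  set W := LinearMap.range (D.e i) with hW
  set f : End K E := c • D.e i + (1 - D.e i) with hf
  have hfx : ∀ x, f x = x + (c - 1) • D.e i x := by
    intro x
    rw [hf]
    simp only [LinearMap.add_apply, LinearMap.smul_apply, LinearMap.sub_apply, End.one_apply]
    rw [sub_smul, one_smul]
    abel
  have hWx : ∀ x ∈ W, D.e i x = x := by
    rintro _ ⟨y, rfl⟩
    rw [← End.mul_apply, D.idem]
  have he : W ≤ W.comap f := by
    intro x hx
    rw [Submodule.mem_comap, hfx]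
    exact W.add_mem hx (W.smul_mem _ ⟨x, rfl⟩)
  rw [LinearMap.det_eq_det_mul_det W f he]
  have h1 : f.restrict he = c • (1 : End K W) := by
    ext x
    change f x = c • (x : E)
    rw [hfx, hWx x x.2, sub_smul, one_smul]
    abel
  have h2 : W.mapQ W f he = 1 := by
    ext x
    change Submodule.Quotient.mk (f x) = Submodule.Quotient.mk x
    rw [Submodule.Quotient.eq, hfx, add_sub_cancel_left]
    exact W.smul_mem _ ⟨x, rfl⟩
  rw [h1, h2, LinearMap.det_smul, map_one, map_one, mul_one, mul_one]
  rfl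

/-- scalars on each summand -/
noncomputable def sc (D : Dec Q) (s : Finset (Fin D.r)) (c : Fin D.r → K) : End K E :=
  ∑ i ∈ s, c i • D.e i + (1 - D.es s)

theorem sc_univ (c : Fin D.r → K) : D.sc Finset.univ c = ∑ i, c i • D.e i := by
  rw [sc, es_univ, sub_self, add_zero]

theorem det_sc (s : Finset (Fin D.r)) (c : Fin D.r → K) :
    LinearMap.det (D.sc s c) = ∏ i ∈ s, c i ^ D.n i := by
  classical
  induction s using Finset.induction_on with
  | empty =>
    rw [sc, Finset.sum_empty, Finset.prod_empty, es, Finset.sum_empty, zero_add, sub_zero, map_one]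
  | insert i s hi ih =>
    rw [Finset.prod_insert hi, ← ih, ← det_scalar i (c i), ← map_mul]
    congr 1
    have h1 : D.es (insert i s) = D.e i + D.es s := Finset.sum_insert hi
    have h2 : D.e i * D.es s = 0 := e_mul_es_of_notMem hi
    have h3 : D.e i * (∑ j ∈ s, c j • D.e j) = 0 := by
      rw [Finset.mul_sum]
      refine Finset.sum_eq_zero fun j hj => ?_
      rw [mul_smul_comm, D.orth i j, smul_zero]
      rintro rfl
      exact hi hj
    rw [sc, sc, Finset.sum_insert hi, h1]
    have e1 : (c i • D.e i + (1 - D.e i)) * (∑ j ∈ s, c j • D.e j + (1 - D.es s)) =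
        c i • (D.e i * (∑ j ∈ s, c j • D.e j)) + c i • (D.e i - D.e i * D.es s) +
          ((∑ j ∈ s, c j • D.e j) - D.e i * (∑ j ∈ s, c j • D.e j)) +
            ((1 - D.es s) - (D.e i - D.e i * D.es s)) := by
      rw [add_mul, mul_add, mul_add, smul_mul_assoc, smul_mul_assoc, sub_mul, sub_mul, one_mul,
        one_mul, mul_sub, mul_one]
      abel
    rw [e1, h3, h2]
    simp only [smul_zero, sub_zero, zero_add]
    abel

theorem sc_mul (c d : Fin D.r → K) :
    D.sc Finset.univ (fun i => c i * d i) = D.sc Finset.univ c * D.sc Finset.univ d := by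
  rw [sc_univ, sc_univ, sc_univ, Finset.sum_mul]
  refine Finset.sum_congr rfl fun i _ => ?_
  rw [Finset.mul_sum, Finset.sum_eq_single i]
  · rw [smul_mul_smul_comm, D.idem]
  · intro j _ hj
    rw [smul_mul_smul_comm, D.orth i j hj.symm, smul_zero]
  · intro h; exact absurd (Finset.mem_univ i) h

theorem sc_one : D.sc Finset.univ (fun _ => 1) = 1 := by
  rw [sc_univ]
  simp only [one_smul]
  exact D.sum

theorem sc_comm {g : SpecialLinearGroup K E} (hg : g ∈ D.L) (c : Fin D.r → K) :
    toEnd g * D.sc Finset.univ c = D.sc Finset.univ c * toEnd g := by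
  rw [sc_univ, Finset.mul_sum, Finset.sum_mul]
  refine Finset.sum_congr rfl fun i _ => ?_
  rw [mul_smul_comm, smul_mul_assoc, hg i]

theorem sc_mul_e (c : Fin D.r → K) (i : Fin D.r) : D.sc Finset.univ c * D.e i = c i • D.e i := by
  rw [sc_univ, Finset.sum_mul, Finset.sum_eq_single i]
  · rw [smul_mul_assoc, D.idem]
  · intro j _ hj
    rw [smul_mul_assoc, D.orth j i hj, smul_zero]
  · intro h; exact absurd (Finset.mem_univ i) h

theorem e_mul_sc (c : Fin D.r → K) (i : Fin D.r) : D.e i * D.sc Finset.univ c = c i • D.e i := by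
  rw [sc_univ, Finset.mul_sum, Finset.sum_eq_single i]
  · rw [mul_smul_comm, D.idem]
  · intro j _ hj
    rw [mul_smul_comm, D.orth i j hj.symm, smul_zero]
  · intro h; exact absurd (Finset.mem_univ i) h

variable (D) in
/-- The determinant of a tuple of scalars. -/
noncomputable def scd : (Fin D.r → Kˣ) →* Kˣ where
  toFun c := ∏ i, c i ^ D.n i
  map_one' := by simp
  map_mul' c d := by
    rw [← Finset.prod_mul_distrib]
    exact Finset.prod_congr rfl fun i _ => mul_pow _ _ _

theorem det_of_mem {c : Fin D.r → Kˣ} (hc : c ∈ D.scd.ker) :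
    LinearMap.det (D.sc Finset.univ fun i => (c i : K)) = 1 := by
  rw [det_sc]
  have h1 : D.scd c = 1 := hc
  have h2 := congrArg Units.val h1
  rw [Units.val_one] at h2
  rw [← h2]
  change _ = ((∏ i, c i ^ D.n i : Kˣ) : K)
  rw [Units.coe_prod]
  rfl

variable (D) in
/-- The homomorphism from scalars to the special linear group. -/
noncomputable def scH : D.scd.ker →* SpecialLinearGroup K E where
  toFun c := mkSL (D.sc Finset.univ fun i => (c.1 i : K)) (det_of_mem c.2)
  map_one' := by
    apply toEnd_injective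
    rw [toEnd_mkSL, toEnd_one]
    exact sc_one
  map_mul' c d := by
    apply toEnd_injective
    rw [toEnd_mkSL, toEnd_mul, toEnd_mkSL, toEnd_mkSL, ← sc_mul]
    rfl

variable (D) in
/-- The scalars of the stabiliser. -/
noncomputable def Z : Subgroup (SpecialLinearGroup K E) := D.scH.range

theorem mem_Z {z : SpecialLinearGroup K E} (hz : z ∈ D.Z) :
    ∃ c : Fin D.r → Kˣ, toEnd z = D.sc Finset.univ fun i => (c i : K) := by
  obtain ⟨c, rfl⟩ := hz
  exact ⟨c.1, toEnd_mkSL _ (det_of_mem c.2)⟩

theorem Z_le : D.Z ≤ D.L := by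
  intro z hz i
  obtain ⟨c, hc⟩ := mem_Z hz
  rw [hc, sc_mul_e, e_mul_sc]

theorem Z_comm {z g : SpecialLinearGroup K E} (hz : z ∈ D.Z) (hg : g ∈ D.L) : z * g = g * z := by
  obtain ⟨c, hc⟩ := mem_Z hz
  apply toEnd_injective
  rw [toEnd_mul, toEnd_mul, hc, sc_comm hg]

theorem card_Z_dvd [Finite K] : Nat.card D.Z ∣ (Nat.card K - 1) ^ D.r := by
  have h1 : Nat.card D.Z ∣ Nat.card D.scd.ker :=
    Subgroup.card_dvd_of_surjective D.scH.rangeRestrict D.scH.rangeRestrict_surjective
  have h2 : Nat.card (Fin D.r → Kˣ) = (Nat.card K - 1) ^ D.r := by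
    rw [Nat.card_pi, Finset.prod_const, Finset.card_univ, Fintype.card_fin, Nat.card_units]
  rw [← h2]
  exact h1.trans (Subgroup.card_subgroup_dvd_card _)

theorem dt_sc {c : Fin D.r → Kˣ} {z : SpecialLinearGroup K E}
    (hz : toEnd z = D.sc Finset.univ fun i => (c i : K)) (i : Fin D.r) :
    D.dt {i} z = (c i : K) ^ D.n i := by
  rw [dt, cp, es_singleton, hz, sc_mul_e, det_scalar]

/-- the `n`-th powers have index at most `n` -/
theorem index_pow_le [Finite K] {n : ℕ} (hn : 0 < n) : (powMonoidHom n : Kˣ →* Kˣ).range.index ≤ n := by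
  have hne : NeZero n := ⟨hn.ne'⟩
  have h1 := Subgroup.card_mul_index (powMonoidHom n : Kˣ →* Kˣ).range
  have h2 := Subgroup.card_mul_index (powMonoidHom n : Kˣ →* Kˣ).ker
  rw [Subgroup.index_ker, ← h1, mul_comm] at h2
  have h3 : Nat.card (powMonoidHom n : Kˣ →* Kˣ).ker = (powMonoidHom n : Kˣ →* Kˣ).range.index :=
    Nat.eq_of_mul_eq_mul_left (Nat.card_pos) h2
  rw [← h3]
  have h4 : (powMonoidHom n : Kˣ →* Kˣ).ker = rootsOfUnity n K := rfl
  rw [h4]
  exact card_rootsOfUnity K n

/-- **The index of the product of the scalars and the special linear groups.** -/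
theorem relIndex_le [Finite K] : (D.Z ⊔ ⨆ i, D.A i).relIndex D.L ≤ ∏ i, D.n i := by
  classical
  have hfinE : Finite E := Module.finite_of_finite K
  have hfinG : Finite (SpecialLinearGroup K E) := by
    refine Finite.of_injective (fun g : SpecialLinearGroup K E => (fun x : E => g x)) ?_
    intro g h hgh
    ext x
    exact congrFun hgh x
  let H : Fin D.r → Subgroup D.L := fun i =>
    ((powMonoidHom (D.n i) : Kˣ →* Kˣ).range).comap ((Pi.evalMonoidHom _ i).comp D.δ)
  have hH : ∀ i, (H i).index ≤ D.n i := by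
    intro i
    have h1 : (H i).index ∣ (powMonoidHom (D.n i) : Kˣ →* Kˣ).range.index := by
      change (((powMonoidHom (D.n i) : Kˣ →* Kˣ).range).comap _).index ∣ _
      rw [Subgroup.index_comap]
      exact Subgroup.relIndex_dvd_index_of_normal _ _
    exact (Nat.le_of_dvd (Nat.pos_of_ne_zero Subgroup.index_ne_zero_of_finite) h1).trans
      (index_pow_le (n_pos i))
  have hle : (⨅ i, H i) ≤ (D.Z ⊔ ⨆ i, D.A i).subgroupOf D.L := by
    intro g hg
    rw [Subgroup.mem_subgroupOf]
    have h1 : ∀ i, ∃ c : Kˣ, c ^ D.n i = D.δ g i := by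
      intro i
      have h2 : g ∈ H i := (Subgroup.mem_iInf.mp hg) i
      exact h2
    choose c hc using h1
    have hcd : c ∈ D.scd.ker := by
      rw [MonoidHom.mem_ker]
      change ∏ i, c i ^ D.n i = 1
      apply Units.ext
      rw [Units.coe_prod, Finset.prod_congr rfl fun i _ => congrArg Units.val (hc i)]
      change ∏ i, D.dt {i} (g : SpecialLinearGroup K E) = 1
      rw [← dt_prod g.2, dt_univ]
    set z := D.scH ⟨c, hcd⟩ with hz
    have hzZ : z ∈ D.Z := ⟨⟨c, hcd⟩, rfl⟩
    have hzE : toEnd z = D.sc Finset.univ fun i => (c i : K) := toEnd_mkSL _ (det_of_mem hcd)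
    have hzL : z ∈ D.L := Z_le hzZ
    have h3 : z⁻¹ * g ∈ ⨆ i, D.A i := by
      refine mem_iSup (D.L.mul_mem (D.L.inv_mem hzL) g.2) fun i => ?_
      have h4 : D.dt {i} z * D.dt {i} (z⁻¹ * g) = D.dt {i} (g : SpecialLinearGroup K E) := by
        rw [← dt_mul hzL (D.L.mul_mem (D.L.inv_mem hzL) g.2), mul_inv_cancel_left]
      have h5 : D.dt {i} z = D.dt {i} (g : SpecialLinearGroup K E) := by
        rw [dt_sc hzE]
        have := congrArg Units.val (hc i)
        rw [Units.val_pow_eq_pow_val] at this
        exact this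
      rw [h5] at h4
      exact mul_left_cancel₀ (dt_ne_zero g.2) (h4.trans (mul_one _).symm)
    have h6 : (g : SpecialLinearGroup K E) = z * (z⁻¹ * g) := by rw [mul_inv_cancel_left]
    rw [h6]
    exact Subgroup.mul_mem_sup hzZ h3
  have h7 : (D.Z ⊔ ⨆ i, D.A i).relIndex D.L ≤ (⨅ i, H i).index :=
    Nat.le_of_dvd (Nat.pos_of_ne_zero Subgroup.index_ne_zero_of_finite)
      (Subgroup.index_dvd_of_le hle)
  refine h7.trans ((Subgroup.index_iInf_le H).trans ?_)
  exact Finset.prod_le_prod' fun i _ => hH i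

theorem prod_n_le : ∏ i, D.n i ≤ finrank K E ^ finrank K E := by
  rcases Nat.eq_zero_or_pos (finrank K E) with h0 | hpos
  · have hr : D.r = 0 := Nat.le_zero.mp (h0 ▸ r_le (D := D))
    have : IsEmpty (Fin D.r) := by rw [hr]; infer_instance
    rw [Finset.univ_eq_empty, Finset.prod_empty, h0, pow_zero]
  · calc ∏ i, D.n i ≤ ∏ _i : Fin D.r, finrank K E := Finset.prod_le_prod' fun i _ => n_le i
      _ = finrank K E ^ D.r := by rw [Finset.prod_const, Finset.card_univ, Fintype.card_fin]
      _ ≤ _ := Nat.pow_le_pow_right hpos r_le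

end Dec

end Vale.Agent.P180.R2.H954.Hc
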