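import Vale.Agent.P180.R2.H954.Hc3b

/-!
P180: the flag of a decomposition; the Levi decomposition of its stabiliser.
-/

set_option linter.all false

namespace Vale.Agent.P180.R2.H954.Hc

open Module Vale.Agent.P180.R2.H854

variable {K E : Type} [Field K] [AddCommGroup E] [Module K E]

namespace Dec

variable {Q : Subgroup (SpecialLinearGroup K E)} {D : Dec Q}

/-- the indices below `i` -/
def below (D : Dec Q) (i : ℕ) : Finset (Fin D.r) := Finset.univ.filter fun l => l.1 < i

theorem mem_below {i : ℕ} {l : Fin D.r} : l ∈ D.below i ↔ l.1 < i := by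
  rw [below, Finset.mem_filter]
  exact ⟨fun h => h.2, fun h => ⟨Finset.mem_univ _, h⟩⟩

theorem es_mul_es_of_subset {s t : Finset (Fin D.r)} (h : s ⊆ t) : D.es t * D.es s = D.es s := by
  conv_lhs => rw [es, Finset.sum_mul]
  conv_rhs => rw [es]
  symm
  rw [← Finset.sum_subset h]
  · exact Finset.sum_congr rfl fun i hi => (e_mul_es_of_mem hi).symm
  · intro i _ hi
    exact e_mul_es_of_notMem hi

theorem mem_range_es {s : Finset (Fin D.r)} {x : E} :
    x ∈ LinearMap.range (D.es s) ↔ D.es s x = x := by
  constructor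
  · rintro ⟨y, rfl⟩
    rw [← End.mul_apply, es_idem]
  · intro h
    exact ⟨x, h⟩

variable (D) in
/-- The flag of the decomposition. -/
noncomputable def flag : Flag K E where
  car i := LinearMap.range (D.es (D.below i))
  mono := by
    intro i j hij
    change LinearMap.range (D.es (D.below i)) ≤ LinearMap.range (D.es (D.below j))
    intro x hx
    rw [mem_range_es] at hx ⊢
    rw [← hx, ← End.mul_apply, es_mul_es_of_subset]
    intro l hl
    rw [mem_below] at hl ⊢
    omega
  zero := by
    have : D.below 0 = ∅ := by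
      ext l
      rw [mem_below]
      simp
    rw [this, es, Finset.sum_empty, LinearMap.range_zero]
  top := by
    refine ⟨D.r, ?_⟩
    have : D.below D.r = Finset.univ := by
      ext l
      rw [mem_below]
      simp
    rw [this, es_univ]
    exact LinearMap.range_id

theorem mem_flag {i : ℕ} {x : E} : x ∈ D.flag i ↔ D.es (D.below i) x = x := mem_range_es

theorem mem_flag' {i : ℕ} {x : E} : x ∈ D.flag i ↔ ∀ l : Fin D.r, i ≤ l.1 → D.e l x = 0 := by
  rw [mem_flag]
  constructor
  · intro h l hl
    rw [← h, ← End.mul_apply, e_mul_es_of_notMem, LinearMap.zero_apply]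
    rw [mem_below]
    omega
  · intro h
    have h1 : x = ∑ l, D.e l x := by
      have := congrArg (fun a : End K E => a x) D.sum
      simp only [LinearMap.sum_apply, End.one_apply] at this
      exact this.symm
    conv_rhs => rw [h1]
    rw [es, LinearMap.sum_apply]
    refine Finset.sum_subset (Finset.subset_univ _) fun l _ hl => ?_
    rw [mem_below] at hl
    exact h l (by omega)

theorem e_mem_flag (l : Fin D.r) (x : E) : D.e l x ∈ D.flag (l.1 + 1) := by
  rw [mem_flag']
  intro m hm
  rw [← End.mul_apply, D.orth m l, LinearMap.zero_apply]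
  intro h
  rw [h] at hm
  omega

/-- An endomorphism stabilises the flag if and only if it is block triangular. -/
theorem mem_Pa_iff {a : End K E} :
    a ∈ Pa D.flag ↔ ∀ i j : Fin D.r, i.1 < j.1 → D.e j * a * D.e i = 0 := by
  constructor
  · intro h i j hij
    ext x
    rw [End.mul_apply, End.mul_apply, LinearMap.zero_apply]
    exact mem_flag'.mp (h (i.1 + 1) _ (e_mem_flag i x)) j (by omega)
  · intro h i x hx
    rw [mem_flag']
    intro j hj
    have h1 : x = ∑ l, D.e l x := by
      have := congrArg (fun a : End K E => a x) D.sum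
      simp only [LinearMap.sum_apply, End.one_apply] at this
      exact this.symm
    rw [h1, map_sum, map_sum]
    refine Finset.sum_eq_zero fun l _ => ?_
    by_cases hl : l.1 < i
    · have := congrArg (fun a : End K E => a x) (h l j (by omega))
      exact this
    · rw [mem_flag'.mp hx l (by omega), map_zero, map_zero]

theorem mem_Jr_iff {a : End K E} :
    a ∈ Jr D.flag ↔ ∀ i j : Fin D.r, i.1 ≤ j.1 → D.e j * a * D.e i = 0 := by
  constructor
  · intro h i j hij
    ext x
    rw [End.mul_apply, End.mul_apply, LinearMap.zero_apply]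
    exact mem_flag'.mp (h i.1 _ (e_mem_flag i x)) j hij
  · intro h i x hx
    rw [mem_flag']
    intro j hj
    have h1 : x = ∑ l, D.e l x := by
      have := congrArg (fun a : End K E => a x) D.sum
      simp only [LinearMap.sum_apply, End.one_apply] at this
      exact this.symm
    rw [h1, map_sum, map_sum]
    refine Finset.sum_eq_zero fun l _ => ?_
    by_cases hl : l.1 ≤ i
    · have := congrArg (fun a : End K E => a x) (h l j (by omega))
      exact this
    · rw [mem_flag'.mp hx l (by omega), map_zero, map_zero]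

variable [FiniteDimensional K E]

theorem mem_PF_iff {g : SpecialLinearGroup K E} : g ∈ PF D.flag ↔ toEnd g ∈ Pa D.flag := Iff.rfl

theorem mem_VF_iff {g : SpecialLinearGroup K E} : g ∈ VF D.flag ↔ toEnd g - 1 ∈ Jr D.flag :=
  Iff.rfl

theorem L_le_PF : D.L ≤ PF D.flag := by
  intro g hg
  rw [mem_PF_iff, mem_Pa_iff]
  intro i j hij
  rw [mul_assoc, hg i, ← mul_assoc, D.orth j i, zero_mul]
  intro h
  rw [h] at hij
  omega

/-- The unipotent radical meets the stabiliser of the decomposition trivially. -/
theorem VF_inf_L : VF D.flag ⊓ D.L = ⊥ := by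
  rw [eq_bot_iff]
  rintro g ⟨hg, hgL⟩
  rw [Subgroup.mem_bot]
  apply toEnd_injective
  rw [toEnd_one]
  apply ext_e (D := D)
  intro i
  have h1 := (mem_Jr_iff.mp (mem_VF_iff.mp hg)) i i le_rfl
  rw [mul_sub, mul_one, sub_mul, ← hgL i, mul_assoc, D.idem, sub_eq_zero] at h1
  rw [h1, one_mul]

/-- **Levi decomposition.** -/
theorem exists_levi {g : SpecialLinearGroup K E} (hg : g ∈ PF D.flag) :
    ∃ l ∈ D.L, ∃ u ∈ VF D.flag, g = l * u := by
  classical
  have hP := mem_Pa_iff.mp (mem_PF_iff.mp hg)
  have hP' := mem_Pa_iff.mp (mem_PF_iff.mp ((PF D.flag).inv_mem hg))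
  -- the block diagonal parts
  set a : End K E := ∑ i, D.e i * toEnd g * D.e i with ha
  set b : End K E := ∑ i, D.e i * toEnd g⁻¹ * D.e i with hb
  have hae : ∀ i, a * D.e i = D.e i * toEnd g * D.e i := by
    intro i
    rw [ha, Finset.sum_mul, Finset.sum_eq_single i]
    · rw [mul_assoc, D.idem]
    · intro j _ hj
      rw [mul_assoc, D.orth j i hj, mul_zero]
    · intro h; exact absurd (Finset.mem_univ i) h
  have hea : ∀ i, D.e i * a = D.e i * toEnd g * D.e i := by
    intro i
    rw [ha, Finset.mul_sum, Finset.sum_eq_single i]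
    · rw [← mul_assoc, ← mul_assoc, D.idem]
    · intro j _ hj
      rw [← mul_assoc, ← mul_assoc, D.orth i j hj.symm, zero_mul, zero_mul]
    · intro h; exact absurd (Finset.mem_univ i) h
  have hbe : ∀ i, b * D.e i = D.e i * toEnd g⁻¹ * D.e i := by
    intro i
    rw [hb, Finset.sum_mul, Finset.sum_eq_single i]
    · rw [mul_assoc, D.idem]
    · intro j _ hj
      rw [mul_assoc, D.orth j i hj, mul_zero]
    · intro h; exact absurd (Finset.mem_univ i) h
  have heb : ∀ i, D.e i * b = D.e i * toEnd g⁻¹ * D.e i := by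
    intro i
    rw [hb, Finset.mul_sum, Finset.sum_eq_single i]
    · rw [← mul_assoc, ← mul_assoc, D.idem]
    · intro j _ hj
      rw [← mul_assoc, ← mul_assoc, D.orth i j hj.symm, zero_mul, zero_mul]
    · intro h; exact absurd (Finset.mem_univ i) h
  -- block triangular multiplication on the diagonal
  have hdiag : ∀ (x y : End K E), (∀ i j : Fin D.r, i.1 < j.1 → D.e j * x * D.e i = 0) →
      (∀ i j : Fin D.r, i.1 < j.1 → D.e j * y * D.e i = 0) → ∀ i,
      D.e i * (x * y) * D.e i = D.e i * x * D.e i * y * D.e i := by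
    intro x y hx hy i
    have h1 : D.e i * (x * y) * D.e i = ∑ j, D.e i * x * D.e j * y * D.e i := by
      have h2 : D.e i * (x * y) * D.e i = D.e i * x * (∑ j, D.e j) * y * D.e i := by
        rw [D.sum, mul_one]; simp only [mul_assoc]
      rw [h2, Finset.mul_sum, Finset.sum_mul, Finset.sum_mul]
    rw [h1, Finset.sum_eq_single i]
    · intro j _ hj
      rcases lt_trichotomy i.1 j.1 with h | h | h
      · -- `e_j y e_i = 0`
        have := hy i j h
        calc D.e i * x * D.e j * y * D.e i = D.e i * x * (D.e j * y * D.e i) := by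
              simp only [mul_assoc]
          _ = 0 := by rw [this, mul_zero]
      · exact absurd (Fin.ext h.symm) hj
      · have := hx j i h
        rw [this, zero_mul, zero_mul]
    · intro h; exact absurd (Finset.mem_univ i) h
  have hab : a * b = 1 := by
    apply ext_e (D := D)
    intro i
    rw [mul_assoc, hbe, one_mul, ← mul_assoc, ← mul_assoc, hae,
      ← hdiag _ _ hP hP' i, toEnd_mul_inv, mul_one, D.idem]
  have hba : b * a = 1 := by
    apply ext_e (D := D)
    intro i
    rw [mul_assoc, hae, one_mul, ← mul_assoc, ← mul_assoc, hbe,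
      ← hdiag _ _ hP' hP i, toEnd_inv_mul, mul_one, D.idem]
  -- `b g - 1` is strictly block triangular
  have hJ : b * toEnd g - 1 ∈ Jr D.flag := by
    rw [mem_Jr_iff]
    intro i j hij
    have h1 : D.e j * (b * toEnd g - 1) * D.e i =
        D.e j * toEnd g⁻¹ * D.e j * toEnd g * D.e i - D.e j * D.e i := by
      rw [mul_sub, mul_one, sub_mul, ← mul_assoc, heb]
    rw [h1]
    rcases lt_or_eq_of_le hij with h | h
    · have h2 : D.e j * toEnd g * D.e i = 0 := hP i j h
      have h3 : D.e j * toEnd g⁻¹ * D.e j * toEnd g * D.e i =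
          D.e j * toEnd g⁻¹ * (D.e j * toEnd g * D.e i) := by simp only [mul_assoc]
      rw [h3, h2, mul_zero, D.orth j i, sub_zero]
      intro hh
      rw [hh] at h
      omega
    · have hh : i = j := Fin.ext h
      subst hh
      rw [← hdiag _ _ hP' hP i, toEnd_inv_mul, mul_one, D.idem, sub_self]
  have hdet : LinearMap.det (b * toEnd g) = 1 := by
    have h1 : b * toEnd g = 1 + (b * toEnd g - 1) := by abel
    rw [h1]
    exact det_one_add (Jr_nilpotent hJ)
  have hdetg : LinearMap.det (toEnd g) = 1 := by
    have := g.det_eq_one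
    exact this
  have hdetb : LinearMap.det b = 1 := by
    rw [map_mul, hdetg, mul_one] at hdet
    exact hdet
  have hdeta : LinearMap.det a = 1 := by
    have h1 := congrArg LinearMap.det hab
    rw [map_mul, hdetb, mul_one, map_one] at h1
    exact h1
  refine ⟨mkSL a hdeta, ?_, mkSL (b * toEnd g) hdet, ?_, ?_⟩
  · intro i
    rw [toEnd_mkSL, hae, hea]
  · rw [mem_VF_iff, toEnd_mkSL]
    exact hJ
  · apply toEnd_injective
    rw [toEnd_mul, toEnd_mkSL, toEnd_mkSL, ← mul_assoc, hab, one_mul]

theorem VF_sup_L : VF D.flag ⊔ D.L = PF D.flag := by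
  refine le_antisymm (sup_le (VF_le_PF _) L_le_PF) fun g hg => ?_
  obtain ⟨l, hl, u, hu, rfl⟩ := exists_levi hg
  exact Subgroup.mul_mem _ (Subgroup.mem_sup_right hl) (Subgroup.mem_sup_left hu)

/-- The centraliser of `Q` meets the unipotent radical trivially. -/
theorem VF_inf_cent : VF D.flag ⊓ Subgroup.centralizer (Q : Set (SpecialLinearGroup K E)) = ⊥ := by
  rw [eq_bot_iff]
  intro g hg
  have h1 : g ∈ D.L := by
    intro i
    refine D.comm _ (fun q hq => ?_) i
    rw [← toEnd_mul, ← toEnd_mul, (Subgroup.mem_centralizer_iff.mp hg.2 q hq)]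
  have h2 : g ∈ VF D.flag ⊓ D.L := ⟨hg.1, h1⟩
  rw [VF_inf_L] at h2
  exact h2

end Dec

end Vale.Agent.P180.R2.H954.Hc
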