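import Vale.Agent.P180.R2.H954.CycCor
import Vale.Agent.P180.R2.H799.Chain

/-!
P180: blocks of a subgroup containing the centraliser of a defect group.
-/

set_option linter.all false

namespace Vale.Agent.P180.R2.H954.Hc

open Vale.Agent.P180 Vale.Agent.P180.H768.Gd Vale.Agent.P180.R2.H365 Vale.Agent.P180.R2.H799
open Vale.Agent.P180.R2.H259.Cyc (PrimIn)

section Pj

variable {k : Type*} [Field k] {G : Type*} [Group G]

open Classical in
/-- The projection to the group algebra of a subgroup. -/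
noncomputable def pj (L : Subgroup G) (a : MonoidAlgebra k G) : MonoidAlgebra k G :=
  MonoidAlgebra.ofCoeff (a.coeff.filter fun x => x ∈ L)

open Classical in
theorem pj_coeff (L : Subgroup G) (a : MonoidAlgebra k G) (x : G) :
    (pj L a).coeff x = if x ∈ L then a.coeff x else 0 := by
  change (a.coeff.filter fun x => x ∈ L) x = _
  rw [Finsupp.filter_apply]

theorem pj_mem (L : Subgroup G) (a : MonoidAlgebra k G) : pj L a ∈ SubAlg k L := by
  classical
  intro x hx
  rw [pj_coeff] at hx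
  by_contra h
  exact hx (if_neg h)

theorem pj_add (L : Subgroup G) (a b : MonoidAlgebra k G) : pj L (a + b) = pj L a + pj L b := by
  classical
  apply MonoidAlgebra.coeff_injective
  ext x
  rw [pj_coeff, MonoidAlgebra.coeff_add, MonoidAlgebra.coeff_add, Finsupp.add_apply,
    Finsupp.add_apply, pj_coeff, pj_coeff]
  split_ifs <;> simp

theorem pj_zero (L : Subgroup G) : pj L (0 : MonoidAlgebra k G) = 0 := by
  classical
  apply MonoidAlgebra.coeff_injective
  ext x
  rw [pj_coeff]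
  simp

theorem pj_smul (L : Subgroup G) (c : k) (a : MonoidAlgebra k G) : pj L (c • a) = c • pj L a := by
  classical
  apply MonoidAlgebra.coeff_injective
  ext x
  rw [pj_coeff, MonoidAlgebra.coeff_smul, MonoidAlgebra.coeff_smul, Finsupp.smul_apply,
    Finsupp.smul_apply, pj_coeff]
  split_ifs <;> simp

theorem pj_sum {ι : Type*} (L : Subgroup G) (s : Finset ι) (f : ι → MonoidAlgebra k G) :
    pj L (∑ i ∈ s, f i) = ∑ i ∈ s, pj L (f i) := by
  classical
  induction s using Finset.induction_on with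
  | empty => rw [Finset.sum_empty, Finset.sum_empty, pj_zero]
  | insert i s hi ih => rw [Finset.sum_insert hi, Finset.sum_insert hi, pj_add, ih]

theorem pj_mul {L : Subgroup G} {u : MonoidAlgebra k G} (hu : u ∈ SubAlg k L)
    (a : MonoidAlgebra k G) : pj L (u * a) = u * pj L a := by
  classical
  refine SuppIn.induction (P := fun u => pj L (u * a) = u * pj L a) hu
    (by rw [zero_mul, zero_mul, pj_zero]) ?_ ?_
  · intro x y hx hy; rw [add_mul, add_mul, pj_add, hx, hy]
  · intro x hx c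
    rw [smul_mul_assoc, smul_mul_assoc, pj_smul]
    congr 1
    apply MonoidAlgebra.coeff_injective
    ext y
    rw [pj_coeff, MonoidAlgebra.coeff_single_mul_apply, MonoidAlgebra.coeff_single_mul_apply,
      pj_coeff, one_mul, one_mul]
    have h1 : x⁻¹ * y ∈ L ↔ y ∈ L := L.mul_mem_cancel_left (L.inv_mem hx)
    by_cases h : y ∈ L
    · rw [if_pos h, if_pos (h1.mpr h)]
    · rw [if_neg h, if_neg (fun h' => h (h1.mp h'))]

theorem pj_cj {L : Subgroup G} {l : G} (hl : l ∈ L) (a : MonoidAlgebra k G) :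
    pj L (cj k G l a) = cj k G l (pj L a) := by
  classical
  apply MonoidAlgebra.coeff_injective
  ext y
  rw [pj_coeff, cj_coeff, cj_coeff, pj_coeff]
  have h1 : l⁻¹ * y * l ∈ L ↔ y ∈ L := by
    rw [L.mul_mem_cancel_right hl, L.mul_mem_cancel_left (L.inv_mem hl)]
  by_cases h : y ∈ L
  · rw [if_pos h, if_pos (h1.mpr h)]
  · rw [if_neg h, if_neg (fun h' => h (h1.mp h'))]

theorem pj_tr [Finite G] {L S : Subgroup G} (a : MonoidAlgebra k G) :
    pj L (tr (cj k G) S L a) = tr (cj k G) S L (pj L a) := by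
  have _ := Fintype.ofFinite (L ⧸ S.subgroupOf L)
  rw [tr_def, tr_def, pj_sum]
  exact Finset.sum_congr rfl fun q _ => pj_cj (q.out : L).2 a

theorem pj_fix {L S : Subgroup G} (hS : S ≤ L) {a : MonoidAlgebra k G}
    (ha : a ∈ Fix (cj k G) S) : pj L a ∈ Fix (cj k G) S := by
  intro s hs
  rw [← pj_cj (hS hs), ha s hs]

theorem br_pj {L Q : Subgroup G} (hC : Subgroup.centralizer (Q : Set G) ≤ L)
    (a : MonoidAlgebra k G) : br Q (pj L a) = br Q a := by
  classical
  apply MonoidAlgebra.coeff_injective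
  ext y
  rw [br_coeff, br_coeff, pj_coeff]
  by_cases h : y ∈ Subgroup.centralizer (Q : Set G)
  · rw [if_pos h, if_pos h, if_pos (hC h)]
  · rw [if_neg h, if_neg h]

end Pj

section Sub

variable {k : Type*} [Field k] {p : ℕ} [Fact p.Prime] [CharP k p] {G : Type} [Group G] [Finite G]

omit [Fact p.Prime] [CharP k p] in
/-- The blocks of a subgroup. -/
theorem exists_blocks (L : Subgroup G) : ∃ (m : ℕ) (f : Fin m → MonoidAlgebra k G),
    (∀ l, IsBlockOf L (f l)) ∧ (1 : MonoidAlgebra k G) = ∑ l, f l := by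
  have : FiniteDimensional k (MonoidAlgebra k G) :=
    Module.Finite.equiv (MonoidAlgebra.coeffLinearEquiv k (M := G) (S := k)).symm
  obtain ⟨m, f, hf, hs⟩ := exists_prim_decomp (ZAlg k L) _ (1 : MonoidAlgebra k G)
    (Subalgebra.one_mem _) (one_mul 1) le_rfl
  refine ⟨m, f, fun l => ?_, hs⟩
  obtain ⟨h1, h2, h3, h4⟩ := (hf l).1
  exact ⟨h1, h2, h3, fun c hc hcc hce => h4 c hc hcc hce (by
    rw [ZAlg_comm _ h1 _ hc, hce])⟩

/-- Given an element not killed by the Brauer map, there is a block of the subgroup. -/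
theorem exists_br_block {L Q : Subgroup G} {y : MonoidAlgebra k G} (hy : y ≠ 0) :
    ∃ f, IsBlockOf L f ∧ br Q f * y ≠ 0 := by
  obtain ⟨m, f, hf, hs⟩ := exists_blocks (k := k) L
  by_contra hcon
  push Not at hcon
  apply hy
  have h1 : br Q (1 : MonoidAlgebra k G) = 1 := br_self (Subalgebra.one_mem _)
  have h2 : (1 : MonoidAlgebra k G) = ∑ l, br Q (f l) := by
    rw [← br_linear_sum, ← hs, h1]
  rw [← one_mul y, h2, Finset.sum_mul]
  exact Finset.sum_eq_zero fun l _ => hcon _ (hf l)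

/-- **Blocks of a subgroup containing the centraliser of a defect group.** -/
theorem block_of_sub {Q L : Subgroup G} (hQ : IsPGroup p Q) (hQL : Q ≤ L)
    (hC : Subgroup.centralizer (Q : Set G) ≤ L) {e a : MonoidAlgebra k G} (hee : e * e = e)
    (ha : a ∈ Fix (cj k G) Q) (hea : e = tr (cj k G) Q ⊤ a) {f : MonoidAlgebra k G}
    (hf : IsBlockOf L f) (hfe : br Q f * br Q e ≠ 0) :
    ∃ z ∈ SubAlg k L, z ∈ Fix (cj k G) Q ∧ f = tr (cj k G) Q L z := by
  classical
  have heT : e ∈ Fix (cj k G) ⊤ := by rw [hea]; exact tr_mem_Fix ha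
  have heF : ∀ S : Subgroup G, e ∈ Fix (cj k G) S := fun S => Fix_mono _ le_top heT
  have hfF : ∀ S : Subgroup G, S ≤ L → f ∈ Fix (cj k G) S := fun S hS => Fix_mono _ hS hf.mem.2
  obtain ⟨m, x, hx⟩ := mackey L ha
  rw [← hea] at hx
  set y : Fin m → MonoidAlgebra k G := fun l => f * pj L (cj k G (x l) a) with hy
  have hyF : ∀ l, y l ∈ Fix (cj k G) (L ⊓ conjS (x l) Q) := by
    intro l
    refine Subalgebra.mul_mem _ (hfF _ inf_le_left) (pj_fix inf_le_left ?_)
    exact conj_mem_Fix ha (x l) fun h hh => mem_conjS.mp hh.2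
  have hyL : ∀ l, y l ∈ SubAlg k L := fun l => Subalgebra.mul_mem _ hf.mem.1 (pj_mem _ _)
  have hsum : f * pj L e = ∑ l, tr (cj k G) (L ⊓ conjS (x l) Q) L (y l) := by
    rw [hx, pj_sum, Finset.mul_sum]
    refine Finset.sum_congr rfl fun l _ => ?_
    rw [pj_tr, mul_tr hf.mem.2]
  -- `f π(e)` is central in `kL` and not nilpotent
  have hpe : pj L e ∈ ZAlg k L := ⟨pj_mem _ _, pj_fix le_rfl (heF L)⟩
  have hfpe : f * pj L e ∈ ZAlg k L := Subalgebra.mul_mem _ hf.mem hpe
  have hbr : br Q (f * pj L e) = br Q f * br Q e := by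
    rw [br_mul hQ (hfF Q hQL) (Fix_mono _ hQL hpe.2), br_pj hC]
  have hcomm : br Q f * br Q e = br Q e * br Q f := by
    rw [← br_mul hQ (hfF Q hQL) (heF Q), ← br_mul hQ (heF Q) (hfF Q hQL),
      commute_of_mem (SubAlg_top f) heT]
  have hidem : (br Q f * br Q e) * (br Q f * br Q e) = br Q f * br Q e := by
    have h1 : br Q f * br Q f = br Q f := by
      rw [← br_mul hQ (hfF Q hQL) (hfF Q hQL), hf.idem.eq]
    have h2 : br Q e * br Q e = br Q e := by rw [← br_mul hQ (heF Q) (heF Q), hee]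
    calc br Q f * br Q e * (br Q f * br Q e) = br Q f * (br Q e * br Q f) * br Q e := by
          simp only [mul_assoc]
      _ = (br Q f * br Q f) * (br Q e * br Q e) := by rw [← hcomm]; simp only [mul_assoc]
      _ = _ := by rw [h1, h2]
  have hnn : ¬ IsNilpotent (f * pj L e) := by
    rintro ⟨n, hn⟩
    apply hfe
    have h1 : (br Q f * br Q e) ^ n = 0 := by
      rw [← hbr, ← br_pow hQ (Fix_mono _ hQL hfpe.2), hn]
      exact br_self (Subalgebra.zero_mem _)
    rcases n with _ | n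
    · rw [pow_zero] at h1
      rw [← one_mul (br Q f * br Q e), h1, zero_mul]
    · have h2 : IsIdempotentElem (br Q f * br Q e) := hidem
      rw [h2.pow_succ_eq] at h1
      exact h1
  have : FiniteDimensional k (MonoidAlgebra k G) :=
    Module.Finite.equiv (MonoidAlgebra.coeffLinearEquiv k (M := G) (S := k)).symm
  have hfpf : f * pj L e * f = f * pj L e := by
    rw [mul_assoc, ZAlg_comm _ hpe _ hf.mem, ← mul_assoc, hf.idem.eq]
  obtain ⟨u, huZ, huf, hfu⟩ : ∃ u ∈ ZAlg k L, u * f = u ∧ f * pj L e * u = f := by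
    rcases IsPrimIn.dichotomy (S := ZAlg k L) (by exact ZAlg_comm) hf hfpe hfpf with h | h
    · exact absurd h hnn
    · exact h
  have hsum2 : ∑ l ∈ (Finset.univ : Finset (Fin m)),
      tr (cj k G) (L ⊓ conjS (x l) Q) L (y l * u) = f := by
    rw [← hfu, hsum, Finset.sum_mul]
    exact Finset.sum_congr rfl fun l _ => (tr_mul huZ.2 _).symm
  have hyuF : ∀ l, y l * u ∈ Fix (cj k G) (L ⊓ conjS (x l) Q) := fun l =>
    Subalgebra.mul_mem _ (hyF l) (Fix_mono _ inf_le_left huZ.2)
  have hyuL : ∀ l, y l * u ∈ SubAlg k L := fun l => Subalgebra.mul_mem _ (hyL l) huZ.1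
  obtain ⟨l, -, w, hwZ, hwf, hlw⟩ := IsPrimIn.exists_unit_of_sum (S := ZAlg k L) (by exact ZAlg_comm) hf
    Finset.univ
    (fun l => tr (cj k G) (L ⊓ conjS (x l) Q) L (y l * u))
    (fun l _ => mem_ZAlg.mpr ⟨tr_mem_SubAlg le_rfl (hyuL l), tr_mem_Fix (hyuF l)⟩)
    (fun l _ => by rw [tr_mul hf.mem.2, mul_assoc, huf]) hsum2
  set S := L ⊓ conjS (x l) Q with hS
  set z := y l * u * w with hz
  have hzF : z ∈ Fix (cj k G) S := Subalgebra.mul_mem _ (hyuF l) (Fix_mono _ inf_le_left hwZ.2)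
  have hzL : z ∈ SubAlg k L := Subalgebra.mul_mem _ (hyuL l) hwZ.1
  have hfz : f = tr (cj k G) S L z := by
    rw [hz, ← tr_mul hwZ.2]
    exact hlw.symm
  have hbrf : br Q f ≠ 0 := by
    intro h0
    exact hfe (by rw [h0, zero_mul])
  obtain ⟨c, hc, hfcc⟩ := exists_coeff_of_br hbrf
  obtain ⟨t, htL, ht⟩ := conj_le_of_coeff (inf_le_left : S ≤ L) hQL hQ hzF hfz hc hfcc
  have hQS : Q = conjS t S := by
    have h1 : Q ≤ conjS t S := fun v hv => mem_conjS.mpr (ht v hv)
    refine Subgroup.eq_of_le_of_card_ge h1 ?_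
    have h2 : Nat.card (conjS t S) = Nat.card S := Nat.card_congr
      (S.equivMapOfInjective _ (MulAut.conj t).injective).toEquiv.symm
    have h3 : Nat.card (conjS (x l) Q) = Nat.card Q := Nat.card_congr
      (Q.equivMapOfInjective _ (MulAut.conj (x l)).injective).toEquiv.symm
    rw [h2, ← h3]
    exact Nat.card_le_card_of_injective _ (Subgroup.inclusion_injective inf_le_right)
  have hLt : conjS t L = L := by
    ext u
    rw [mem_conjS]
    constructor
    · intro h
      have h1 := L.mul_mem (L.mul_mem htL h) (L.inv_mem htL)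
      have e1 : t * (t⁻¹ * u * t) * t⁻¹ = u := by group
      rwa [e1] at h1
    · intro h
      exact L.mul_mem (L.mul_mem (L.inv_mem htL) h) htL
  refine ⟨cj k G t z, ?_, ?_, ?_⟩
  · intro h hh
    rw [cj_coeff] at hh
    have h1 := L.mul_mem (L.mul_mem htL (hzL _ hh)) (L.inv_mem htL)
    have e1 : t * (t⁻¹ * h * t) * t⁻¹ = h := by group
    rwa [e1] at h1
  · rw [hQS]
    exact conj_mem_Fix hzF t fun h hh => mem_conjS.mp hh
  · have h1 := cj_tr (k := k) t (K := L) hzF
    rw [← hfz, hf.mem.2 t htL, hLt, ← hQS] at h1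
    exact h1

end Sub

end Vale.Agent.P180.R2.H954.Hc
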