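import Vale.Agent.P180.R2.H954.Hc4a

/-!
P180: corners in a group `L` of idempotents of the group algebra of a normal subgroup `X`; blocks are
not assumed to be stable.
-/

set_option linter.all false

namespace Vale.Agent.P180.R2.H954.Hc

open Vale.Agent.P180 Vale.Agent.P180.H768.Gd Vale.Agent.P180.R2.H365 Vale.Agent.P180.R2.H799
open Vale.Agent.P180.R2.H259.Cyc (PrimIn)

section Rel

variable {k : Type*} [Field k] {G : Type} [Group G] [Finite G]

theorem cj_mem_of_norm {X : Subgroup G} {t : G} (ht : ∀ x ∈ X, t * x * t⁻¹ ∈ X)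
    {a : MonoidAlgebra k G} (ha : a ∈ SubAlg k X) : cj k G t a ∈ SubAlg k X :=
  SuppIn.conj ha t ht

/-- If `f = tr_S^L z` is not killed by the Brauer map relative to `Q` and `|S| ≤ |Q|` then `f` is a
trace from `Q`. -/
theorem tr_of_card_le {p : ℕ} [Fact p.Prime] [CharP k p] {Q L S : Subgroup G} (hQ : IsPGroup p Q)
    (hQL : Q ≤ L) (hSL : S ≤ L) (hcard : Nat.card S ≤ Nat.card Q) {f z : MonoidAlgebra k G}
    (hfL : f ∈ Fix (cj k G) L) (hzL : z ∈ SubAlg k L) (hzF : z ∈ Fix (cj k G) S)
    (hfz : f = tr (cj k G) S L z) (hbrf : br Q f ≠ 0) :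
    ∃ z' ∈ SubAlg k L, z' ∈ Fix (cj k G) Q ∧ f = tr (cj k G) Q L z' := by
  obtain ⟨c, hc, hfcc⟩ := exists_coeff_of_br hbrf
  obtain ⟨t, htL, ht⟩ := conj_le_of_coeff hSL hQL hQ hzF hfz hc hfcc
  have hQS : Q = conjS t S := by
    have h1 : Q ≤ conjS t S := fun v hv => mem_conjS.mpr (ht v hv)
    refine Subgroup.eq_of_le_of_card_ge h1 ?_
    have h2 : Nat.card (conjS t S) = Nat.card S := Nat.card_congr
      (S.equivMapOfInjective _ (MulAut.conj t).injective).toEquiv.symm
    rw [h2]
    exact hcard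
  have hLt : conjS t L = L := by
    ext u
    rw [mem_conjS]
    constructor
    · intro h
      have h1 := L.mul_mem (L.mul_mem htL h) (L.inv_mem htL)
      have e1 : t * (t⁻¹ * u * t) * t⁻¹ = u := by group
      rwa [e1] at h1
    · intro h
      exact L.mul_mem (L.mul_mem (L.inv_mem htL) h) htL
  refine ⟨cj k G t z, cj_mem_of_norm (fun x hx => L.mul_mem (L.mul_mem htL hx) (L.inv_mem htL)) hzL,
    ?_, ?_⟩
  · rw [hQS]
    exact conj_mem_Fix hzF t fun h hh => mem_conjS.mp hh
  · have h1 := cj_tr (k := k) t (K := L) hzF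
    rw [← hfz, hfL t htL, hLt, ← hQS] at h1
    exact h1

/-- The block of a normal subgroup containing `Q` below a block with defect group `Q`. -/
theorem block_of_normal {p : ℕ} [Fact p.Prime] [CharP k p] {Q L X : Subgroup G}
    (hQ : IsPGroup p Q) (hQX : Q ≤ X) (hXL : X ≤ L) (hnorm : ∀ x ∈ L, ∀ s ∈ X, x * s * x⁻¹ ∈ X)
    {f z g : MonoidAlgebra k G} (hf : IsBlockOf L f) (hz : z ∈ SubAlg k L)
    (hzF : z ∈ Fix (cj k G) Q) (hfz : f = tr (cj k G) Q L z) (hg : IsBlockOf X g)
    (hbr : br Q g * br Q f ≠ 0) :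
    ∃ z' ∈ SubAlg k X, z' ∈ Fix (cj k G) Q ∧ g = tr (cj k G) Q X z' := by
  have hgf : g * f ≠ 0 := by
    intro h
    apply hbr
    rw [← br_mul hQ (Fix_mono _ hQX hg.mem.2) (Fix_mono _ (hQX.trans hXL) hf.mem.2), h]
    exact br_self (Subalgebra.zero_mem _)
  obtain ⟨x, hx, z', hz', hzF', hgz⟩ := covering_rel hXL (hQX.trans hXL) hnorm hg hf.idem hgf hz
    hzF hfz
  refine tr_of_card_le hQ hQX (inf_le_left : X ⊓ conjS x Q ≤ X) ?_ hg.mem.2 hz' hzF' hgz ?_
  · have h3 : Nat.card (conjS x Q) = Nat.card Q := Nat.card_congr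
      (Q.equivMapOfInjective _ (MulAut.conj x).injective).toEquiv.symm
    rw [← h3]
    exact Nat.card_le_card_of_injective _ (Subgroup.inclusion_injective inf_le_right)
  · intro h
    apply hbr
    rw [h, zero_mul]

/-- Central `p'`-elements act on a block by scalars, relative version. -/
theorem central_smul_rel {p : ℕ} [Fact p.Prime] [CharP k p] [IsAlgClosed k] {L : Subgroup G}
    {b : MonoidAlgebra k G} (hb : IsBlockOf L b)
    {Z : Subgroup G} (hZL : Z ≤ L) (hZ : ∀ z ∈ Z, ∀ g ∈ L, z * g = g * z) (hp : ¬ p ∣ Nat.card Z)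
    {z : G} (hz : z ∈ Z) : ∃ c : k, MonoidAlgebra.single z 1 * b = c • b := by
  have _ := Fintype.ofFinite G
  set s : MonoidAlgebra k G := MonoidAlgebra.single z 1 with hs
  have hsZ : s ∈ ZAlg k L := by
    refine ⟨single_mem_SubAlg (hZL hz) 1, fun g hg => ?_⟩
    rw [hs, cj_single, ← hZ z hz g hg, mul_inv_cancel_right]
  have _ : FiniteDimensional k (MonoidAlgebra k G) :=
    Module.Finite.equiv (MonoidAlgebra.coeffLinearEquiv k (M := G) (S := k)).symm
  have _ : CharP (MonoidAlgebra k G) p :=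
    charP_of_injective_algebraMap (algebraMap k (MonoidAlgebra k G)).injective p
  obtain ⟨c, n, hn⟩ := KP.isPrimIn_exists_scalar (S := ZAlg k L) (by exact ZAlg_comm) hb hsZ
  have hcop : Nat.Coprime p (Nat.card Z) := (Nat.Prime.coprime_iff_not_dvd Fact.out).mpr hp
  set N := n * Nat.totient (Nat.card Z) with hN
  have hZpos : 0 < Nat.card Z := Nat.card_pos
  have hpow : z ^ (p ^ N) = z := by
    have h1 : p ^ N ≡ 1 [MOD Nat.card Z] := by
      have h2 := (Nat.ModEq.pow_totient hcop).pow n
      rw [one_pow, ← pow_mul, mul_comm] at h2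
      exact h2
    have h3 : z ^ Nat.card Z = 1 := by
      have h4 : (⟨z, hz⟩ : Z) ^ Nat.card Z = 1 := pow_card_eq_one'
      exact congrArg Subtype.val h4
    have h5 : p ^ N ≡ 1 [MOD orderOf z] := h1.of_dvd (orderOf_dvd_of_pow_eq_one h3)
    have h6 := pow_eq_pow_iff_modEq.mpr h5
    rwa [pow_one] at h6
  have hnN : n ≤ p ^ N := by
    have h1 : n ≤ N := Nat.le_mul_of_pos_right n (Nat.totient_pos.mpr hZpos)
    exact h1.trans (Nat.lt_pow_self (Nat.Prime.one_lt Fact.out)).le
  have hcomm : s * b = b * s := ZAlg_comm _ hsZ _ hb.mem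
  have hbpow : b ^ (p ^ N) = b := by
    have h1 : p ^ N ≠ 0 := pow_ne_zero _ (Nat.Prime.ne_zero Fact.out)
    obtain ⟨q, hq⟩ := Nat.exists_eq_succ_of_ne_zero h1
    rw [hq]
    exact hb.idem.pow_succ_eq q
  have h7 : (s * b - c • b) ^ (p ^ N) = 0 := pow_eq_zero_of_le hnN hn
  rw [sub_pow_char_pow_of_commute _ _ (by
    show s * b * (c • b) = (c • b) * (s * b)
    rw [mul_smul_comm, smul_mul_assoc, hcomm, mul_assoc b s b, hcomm]),
    (show Commute s b from hcomm).mul_pow, smul_pow, hbpow, hs, MonoidAlgebra.single_pow, hpow,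
    one_pow, sub_eq_zero] at h7
  exact ⟨_, h7⟩

/-- conjugation of `NN` by an element normalising `X` -/
theorem finrank_NN_cj_le {X : Subgroup G} {t : G} (ht : ∀ x ∈ X, t * x * t⁻¹ ∈ X)
    (ht' : ∀ x ∈ X, t⁻¹ * x * t ∈ X) (e f : MonoidAlgebra k G) :
    Module.finrank k (NN (SubAlg k X) (cj k G t e) (cj k G t f)) ≤
      Module.finrank k (NN (SubAlg k X) e f) := by
  have hfin : FiniteDimensional k (MonoidAlgebra k G) :=
    Module.Finite.equiv (MonoidAlgebra.coeffLinearEquiv k (M := G) (S := k)).symm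
  have hle : NN (SubAlg k X) (cj k G t e) (cj k G t f) ≤
      (NN (SubAlg k X) e f).map (cj k G t).toLinearMap := by
    rintro x ⟨h1, h2, h3⟩
    refine ⟨cj k G t⁻¹ x, ⟨?_, ?_, ?_⟩, map_act_inv _ _ _⟩
    · refine cj_mem_of_norm (fun y hy => ?_) h1
      rw [inv_inv]
      exact ht' y hy
    · conv_rhs => rw [← h2]
      rw [map_mul, map_inv_act]
    · conv_rhs => rw [← h3]
      rw [map_mul, map_inv_act]
  exact (Submodule.finrank_mono hle).trans (Submodule.finrank_map_le _ _)

/-- **Dimension of the corner** `b f kL b f`, relative version, without stability. -/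
theorem finrank_rel_le {Z X L : Subgroup G} (hXL : X ≤ L)
    (hnorm : ∀ x ∈ L, ∀ s ∈ X, x * s * x⁻¹ ∈ X) (hZL : Z ≤ L)
    (hZc : ∀ z ∈ Z, ∀ g ∈ L, z * g = g * z) {b e f : MonoidAlgebra k G} {β n : ℕ}
    (hb : b * b = b) (hbz : b ∈ ZAlg k L)
    (hZ : ∀ z ∈ Z, ∃ c : k, MonoidAlgebra.single z 1 * b = c • b)
    (hidx : (Z ⊔ X).relIndex L ≤ β)
    (he : IsBlockOf X e) (hf : f * f = f) (hfX : f ∈ SubAlg k X) (hef : e * f = f)
    (hfull : e ∈ Submodule.span k {z | ∃ x ∈ SubAlg k X, ∃ y ∈ SubAlg k X, z = x * f * y})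
    (hn : Module.finrank k (NN (SubAlg k X) f f) ≤ n) :
    Module.finrank k (NN (SubAlg k L) (b * f) (b * f)) ≤ β * (n * n) := by
  classical
  have hfin : FiniteDimensional k (MonoidAlgebra k G) :=
    Module.Finite.equiv (MonoidAlgebra.coeffLinearEquiv k (M := G) (S := k)).symm
  have hnorm' : ∀ x ∈ L, ∀ s ∈ X, x⁻¹ * s * x ∈ X := by
    intro x hx s hs
    have := hnorm x⁻¹ (L.inv_mem hx) s hs
    rwa [inv_inv] at this
  have hiff : ∀ t ∈ L, ∀ n, n ∈ X ↔ t * n * t⁻¹ ∈ X := by
    intro t ht n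
    refine ⟨hnorm t ht n, fun h => ?_⟩
    have h1 := hnorm' t ht _ h
    have e1 : t⁻¹ * (t * n * t⁻¹) * t = n := by group
    rwa [e1] at h1
  have hbc : ∀ a ∈ SubAlg k L, b * a = a * b := fun a ha => (commute_of_mem ha hbz.2).symm
  have hec : ∀ x ∈ SubAlg k X, e * x = x * e := fun x hx => (commute_of_mem hx he.mem.2).symm
  have hcjS : ∀ t ∈ L, cj k G t f ∈ SubAlg k X := fun t ht => cj_mem_of_norm (hnorm t ht) hfX
  have hcji : ∀ t : G, cj k G t f * cj k G t f = cj k G t f := fun t => by rw [← map_mul, hf]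
  -- the components
  have hcomp : ∀ t ∈ L, Module.finrank k (NN (SubAlg k X) f (cj k G t f)) ≤ n * n := by
    intro t ht
    have hcef : cj k G t e * cj k G t f = cj k G t f := by rw [← map_mul, hef]
    rcases block_dich (hiff t ht) he with h | h
    · refine (finrank_NN_le hf (hcji _) hfX (hcjS t ht) ?_).trans (Nat.mul_le_mul hn
        ((finrank_NN_cj_le (hnorm t ht) (hnorm' t ht) f f).trans hn))
      have h1 : ∀ z ∈ Submodule.span k {z | ∃ x ∈ SubAlg k X, ∃ y ∈ SubAlg k X, z = x * f * y},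
          cj k G t f * z ∈
          Submodule.span k {z | ∃ x ∈ SubAlg k X, ∃ y ∈ SubAlg k X, z = x * f * y} := by
        intro z hz
        induction hz using Submodule.span_induction with
        | mem z hz =>
          obtain ⟨x, hx, y, hy, rfl⟩ := hz
          apply Submodule.subset_span
          exact ⟨cj k G t f * x, Subalgebra.mul_mem _ (hcjS t ht) hx, y, hy, by
            simp only [mul_assoc]⟩
        | zero => simp
        | add u v _ _ hu hv => rw [mul_add]; exact Submodule.add_mem _ hu hv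
        | smul c u _ hu => rw [mul_smul_comm]; exact Submodule.smul_mem _ c hu
      have h2 := h1 e hfull
      have h3 : cj k G t f * e = cj k G t f := by
        rw [← hec _ (hcjS t ht)]
        conv_lhs => rw [← hcef, h, ← mul_assoc, he.idem.eq]
        rw [h] at hcef
        exact hcef
      rwa [h3] at h2
    · have h0 : NN (SubAlg k X) f (cj k G t f) = ⊥ := by
        rw [eq_bot_iff]
        rintro x ⟨h1, h2, h3⟩
        rw [Submodule.mem_bot]
        calc x = f * x * cj k G t f := by rw [h2, h3]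
          _ = (e * f) * x * (cj k G t e * cj k G t f) := by rw [hef, hcef]
          _ = e * (f * x) * cj k G t e * cj k G t f := by simp only [mul_assoc]
          _ = f * x * (e * cj k G t e) * cj k G t f := by
              rw [hec _ (Subalgebra.mul_mem _ hfX h1)]; simp only [mul_assoc]
          _ = 0 := by rw [h, mul_zero, zero_mul]
      rw [h0, finrank_bot]
      exact Nat.zero_le _
  set M := (Z ⊔ X).subgroupOf L with hM
  have _ := Fintype.ofFinite (L ⧸ M)
  let ψ : G → MonoidAlgebra k G →ₗ[k] MonoidAlgebra k G := fun t =>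
    (LinearMap.mulRight k (MonoidAlgebra.single t 1)).comp (LinearMap.mulLeft k b)
  have hle : NN (SubAlg k L) (b * f) (b * f) ≤
      ⨆ q : L ⧸ M, (NN (SubAlg k X) f (cj k G ((q.out : L) : G)⁻¹ f)).map
        (ψ ((q.out : L) : G)⁻¹) := by
    intro x hx
    have hx' : x = (b * f) * x * (b * f) := by rw [hx.2.1, hx.2.2]
    have hxL := hx.1
    rw [hx']
    clear hx' hx
    refine SuppIn.induction (P := fun x => (b * f) * x * (b * f) ∈
      ⨆ q : L ⧸ M, (NN (SubAlg k X) f (cj k G ((q.out : L) : G)⁻¹ f)).map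
        (ψ ((q.out : L) : G)⁻¹)) hxL (by rw [mul_zero, zero_mul]; exact Submodule.zero_mem _) ?_ ?_
    · intro x y hx hy; rw [mul_add, add_mul]; exact Submodule.add_mem _ hx hy
    · intro g hg r
      have hg' : g ∈ L := hg
      set q : L ⧸ M := (((⟨g, hg'⟩ : L)⁻¹ : L) : L ⧸ M) with hq
      set t : G := ((q.out : L) : G) with ht
      have htL : t ∈ L := (q.out : L).2
      have h1 : g * t ∈ Z ⊔ X := by
        have h2 : ((⟨g, hg'⟩ : L)⁻¹)⁻¹ * q.out ∈ M := by
          rw [← QuotientGroup.eq, QuotientGroup.out_eq']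
        rw [inv_inv] at h2
        exact Subgroup.mem_subgroupOf.mp h2
      obtain ⟨z, hz, w, hw, hzw⟩ := mem_sup_of_commute (fun s hs c hc => hZc s hs c (hXL hc)) h1
      obtain ⟨c, hc⟩ := hZ z hz
      have htiL : t⁻¹ ∈ L := L.inv_mem htL
      refine (le_iSup (fun q : L ⧸ M => (NN (SubAlg k X) f
        (cj k G ((q.out : L) : G)⁻¹ f)).map (ψ ((q.out : L) : G)⁻¹)) q) ?_
      refine ⟨(r * c) • (f * MonoidAlgebra.single w 1 * cj k G t⁻¹ f), ?_, ?_⟩
      · exact Submodule.smul_mem _ _ (mul_mul_mem_NN hf (hcji _) hfX (hcjS _ htiL)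
          (single_mem_SubAlg hw 1))
      · have hgt : g = z * w * t⁻¹ := by rw [hzw]; group
        have h3 : r • MonoidAlgebra.single g (1 : k) = r • (MonoidAlgebra.single z (1 : k) *
            MonoidAlgebra.single w 1 * MonoidAlgebra.single t⁻¹ 1) := by
          rw [MonoidAlgebra.single_mul_single, MonoidAlgebra.single_mul_single, ← hgt, one_mul,
            one_mul]
        have h4 : cj k G t⁻¹ f * MonoidAlgebra.single t⁻¹ 1 =
            MonoidAlgebra.single t⁻¹ 1 * f := by
          rw [cj_eq, mul_assoc, MonoidAlgebra.single_mul_single, inv_inv, mul_inv_cancel, one_mul,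
            ← MonoidAlgebra.one_def, mul_one]
        have hzL : (MonoidAlgebra.single z (1 : k)) ∈ SubAlg k L := single_mem_SubAlg (hZL hz) 1
        have hwL : (MonoidAlgebra.single w (1 : k)) ∈ SubAlg k L :=
          single_mem_SubAlg (hXL hw) 1
        have htL' : (MonoidAlgebra.single t⁻¹ (1 : k)) ∈ SubAlg k L := single_mem_SubAlg htiL 1
        have hfL : f ∈ SubAlg k L := SubAlg_mono hXL hfX
        rw [h3]
        change (b * ((r * c) • (f * MonoidAlgebra.single w 1 *
          cj k G t⁻¹ f))) * MonoidAlgebra.single t⁻¹ 1 = _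
        have hzf : f * MonoidAlgebra.single z (1 : k) = MonoidAlgebra.single z (1 : k) * f := by
          refine SuppIn.induction (P := fun f => f * MonoidAlgebra.single z (1 : k) =
            MonoidAlgebra.single z (1 : k) * f) hfX (by rw [zero_mul, mul_zero]) ?_ ?_
          · intro x y hx hy; rw [add_mul, mul_add, hx, hy]
          · intro x hx d
            rw [smul_mul_assoc, mul_smul_comm, MonoidAlgebra.single_mul_single,
              MonoidAlgebra.single_mul_single, hZc z hz x (hXL hx)]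
        generalize MonoidAlgebra.single z (1 : k) = z' at hc hzL hzf
        generalize MonoidAlgebra.single w (1 : k) = w' at hwL
        generalize MonoidAlgebra.single t⁻¹ (1 : k) = t' at h4 htL'
        generalize cj k G t⁻¹ f = u' at h4
        rw [mul_smul_comm, smul_mul_assoc, mul_smul_comm, smul_mul_assoc, mul_smul]
        congr 1
        have hzb : b * z' = c • b := by rw [hbc z' hzL, hc]
        calc c • (b * (f * w' * u') * t') = c • (b * f * w' * (u' * t')) := by
              simp only [mul_assoc]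
          _ = c • (b * (f * w' * t' * f)) := by rw [h4]; simp only [mul_assoc]
          _ = (c • b) * (f * w' * t' * f) := by rw [smul_mul_assoc]
          _ = b * z' * (f * w' * t' * f) := by rw [hzb]
          _ = b * (z' * f) * w' * t' * f := by simp only [mul_assoc]
          _ = b * (f * z') * w' * t' * f := by rw [hzf]
          _ = b * b * (f * z' * w' * t') * f := by rw [hb]; simp only [mul_assoc]
          _ = b * (b * (f * z' * w' * t')) * f := by simp only [mul_assoc]
          _ = b * ((f * z' * w' * t') * b) * f := by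
              rw [hbc (f * z' * w' * t') (Subalgebra.mul_mem _ (Subalgebra.mul_mem _
                (Subalgebra.mul_mem _ hfL hzL) hwL) htL')]
          _ = b * f * (z' * w' * t') * (b * f) := by simp only [mul_assoc]
  calc Module.finrank k (NN (SubAlg k L) (b * f) (b * f))
      ≤ Module.finrank k (⨆ q : L ⧸ M, (NN (SubAlg k X) f
        (cj k G ((q.out : L) : G)⁻¹ f)).map (ψ ((q.out : L) : G)⁻¹) :
          Submodule k (MonoidAlgebra k G)) :=
        Submodule.finrank_mono hle
    _ ≤ ∑ q : L ⧸ M, Module.finrank k ((NN (SubAlg k X) f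
        (cj k G ((q.out : L) : G)⁻¹ f)).map (ψ ((q.out : L) : G)⁻¹)) := finrank_iSup_le _
    _ ≤ ∑ q : L ⧸ M, n * n := by
        refine Finset.sum_le_sum fun q _ => ?_
        exact (Submodule.finrank_map_le _ _).trans (hcomp _ (L.inv_mem (q.out : L).2))
    _ = (Z ⊔ X).relIndex L * (n * n) := by
        rw [Finset.sum_const, Finset.card_univ, smul_eq_mul, Subgroup.relIndex, Subgroup.index,
          Nat.card_eq_fintype_card]
    _ ≤ β * (n * n) := Nat.mul_le_mul_right _ hidx

end Rel

end Vale.Agent.P180.R2.H954.Hc
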