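import Vale.Agent.P180.R2.H799.Chain
import Vale.Agent.P180.R2.H954.G1

/-!
P180: the Brauer homomorphism and relative traces to a subgroup; homogeneous units commuting with a
block algebra with central defect group.
-/

set_option linter.all false

namespace Vale.Agent.P180.R2.H954

open Vale.Agent.P180 Vale.Agent.P180.H768.Gd Vale.Agent.P180.R2.H365 Vale.Agent.P180.R2.H799

section BrTr

variable {k : Type*} [Field k] {p : ℕ} [Fact p.Prime] [CharP k p] {G : Type} [Group G] [Finite G]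

omit [Fact p.Prime] [CharP k p] [Finite G] in
theorem norm_cent {P : Subgroup G} {n : G} (hn : n ∈ Subgroup.normalizer (P : Set G)) {c : G}
    (hc : c ∈ Subgroup.centralizer (P : Set G)) :
    n⁻¹ * c * n ∈ Subgroup.centralizer (P : Set G) := by
  rw [mem_cent] at hc ⊢
  intro d hd
  have h1 : n * d * n⁻¹ ∈ P := (Subgroup.mem_normalizer_iff.mp hn d).mp hd
  have h2 := hc _ h1
  calc d * (n⁻¹ * c * n) * d⁻¹
      = n⁻¹ * ((n * d * n⁻¹) * c * (n * d * n⁻¹)⁻¹) * n := by group
    _ = n⁻¹ * c * n := by rw [h2]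

/-- The Brauer homomorphism on a relative trace to a subgroup `X`. -/
theorem br_tr_rel {P X : Subgroup G} (hP : IsPGroup p P) (hPX : P ≤ X) {a : MonoidAlgebra k G}
    (ha : a ∈ Fix (cj k G) P) :
    br P (tr (cj k G) P X a) = tr (cj k G) P (X ⊓ Subgroup.normalizer (P : Set G)) (br P a) := by
  classical
  set N := Subgroup.normalizer (P : Set G) with hN
  set N' := X ⊓ N with hN'
  rw [← br_tr_of_le (S := P) (C := N') (inf_le_right : X ⊓ N ≤ N)]
  have hPN' : P ≤ N' := le_inf hPX Subgroup.le_normalizer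
  have _ := Fintype.ofFinite (X ⧸ P.subgroupOf X)
  have _ := Fintype.ofFinite (N' ⧸ P.subgroupOf N')
  apply MonoidAlgebra.coeff_injective
  ext c
  rw [br_coeff, br_coeff]
  split_ifs with hc
  swap
  · rfl
  rw [tr_def, tr_def, MonoidAlgebra.coeff_sum, Finsupp.finsetSum_apply,
    MonoidAlgebra.coeff_sum, Finsupp.finsetSum_apply]
  have hout : ∀ g : X, cj k G ((((g : X ⧸ P.subgroupOf X).out : X)) : G) a = cj k G (g : G) a :=
    fun g => act_out ha g
  let α : P →* Equiv.Perm (X ⧸ P.subgroupOf X) :=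
    (MulAction.toPermHom X (X ⧸ P.subgroupOf X)).comp (Subgroup.inclusion hPX)
  have hα : ∀ (d : P) (g : X), α d (g : X ⧸ P.subgroupOf X) =
      ((⟨d, hPX d.2⟩ * g : X) : X ⧸ P.subgroupOf X) := fun _ _ => rfl
  have hfix : ∀ g : X, (∀ v : P, α v (g : X ⧸ P.subgroupOf X) = (g : X ⧸ P.subgroupOf X)) ↔
      (g : G) ∈ N := by
    intro g
    rw [hN, ← Subgroup.inv_mem_iff]
    constructor
    · intro h
      refine Subgroup.mem_normalizer_fintype fun d hd => ?_
      have h1 := h ⟨d, hd⟩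
      rw [hα, eq_comm, QuotientGroup.eq, Subgroup.mem_subgroupOf] at h1
      have e : (g : G)⁻¹ * d * ((g : G)⁻¹)⁻¹ = ((g⁻¹ * (⟨d, hPX hd⟩ * g) : X) : G) := by
        rw [inv_inv, mul_assoc]
        rfl
      rw [e]
      exact h1
    · intro h v
      rw [hα, eq_comm, QuotientGroup.eq, Subgroup.mem_subgroupOf]
      have h1 := (Subgroup.mem_normalizer_iff.mp h v).mp v.2
      rw [inv_inv, mul_assoc] at h1
      exact h1
  rw [sum_fixed hP α (fun q : X ⧸ P.subgroupOf X => (cj k G ((q.out : X) : G) a).coeff c) ?_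
    (fun q => ∀ v : P, α v q = q) (fun _ => Iff.rfl)]
  · rw [← Finset.sum_filter]
    symm
    refine Finset.sum_bij (fun q _ => ((⟨((q.out : N') : G), (q.out : N').2.1⟩ : X) :
      X ⧸ P.subgroupOf X)) ?_ ?_ ?_ ?_
    · intro q _
      rw [Finset.mem_filter]
      exact ⟨Finset.mem_univ _, (hfix _).mpr q.out.2.2⟩
    · intro q _ r _ h
      rw [QuotientGroup.eq, Subgroup.mem_subgroupOf] at h
      rw [← QuotientGroup.out_eq' q, ← QuotientGroup.out_eq' r, QuotientGroup.eq,
        Subgroup.mem_subgroupOf]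
      exact h
    · intro q hq
      obtain ⟨g, rfl⟩ := QuotientGroup.mk_surjective q
      have hg : (g : G) ∈ N := (hfix g).mp (Finset.mem_filter.mp hq).2
      refine ⟨((⟨g, g.2, hg⟩ : N') : N' ⧸ P.subgroupOf N'), Finset.mem_univ _, ?_⟩
      rw [QuotientGroup.eq, Subgroup.mem_subgroupOf]
      have h1 : (((⟨g, g.2, hg⟩ : N') : N' ⧸ P.subgroupOf N').out)⁻¹ * (⟨g, g.2, hg⟩ : N') ∈
          P.subgroupOf N' := by
        rw [← QuotientGroup.eq, QuotientGroup.out_eq']
      exact h1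
    · intro q _
      rw [hout]
  · intro d q
    obtain ⟨g, rfl⟩ := QuotientGroup.mk_surjective q
    rw [hα]
    rw [hout, hout, cj_coeff, cj_coeff]
    have h1 := mem_cent.mp hc (d : G)⁻¹ (P.inv_mem d.2)
    rw [inv_inv] at h1
    have e : ((d : G) * g)⁻¹ * c * ((d : G) * g) = (g : G)⁻¹ * ((d : G)⁻¹ * c * d) * g := by group
    change a.coeff (((d : G) * g)⁻¹ * c * ((d : G) * g)) = _
    rw [e, h1]

end BrTr

end Vale.Agent.P180.R2.H954
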