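import Vale.Agent.P180.R2.H954.Hf2
import Vale.Agent.P180.R2.H954.Hc3c
import Vale.Agent.P180.R2.H954.Hc3d

/-!
P180: the stabiliser of a selfdual decomposition in the special isometry group.
-/

set_option linter.all false

namespace Vale.Agent.P180.R2.H954.Hc

open Module Vale.Agent.P180.R2.H854

variable {K E : Type} [Field K] [AddCommGroup E] [Module K E] [FiniteDimensional K E] [Finite K]

section Det

open Matrix

/-- The determinant of the adjoint. -/
theorem det_adj (Φ : HForm K E) (a : End K E) :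
    LinearMap.det (Φ.adj a) = Φ.θ (LinearMap.det a) := by
  classical
  let b := Module.finBasis K E
  set A := LinearMap.toMatrix b b a with hA
  set A' := LinearMap.toMatrix b b (Φ.adj a) with hA'
  let G : Matrix (Fin (finrank K E)) (Fin (finrank K E)) K := Matrix.of fun i j => Φ.B (b i) (b j)
  have hsum : ∀ (s : Finset (Fin (finrank K E))) (f : Fin (finrank K E) → E) (y : E),
      Φ.B (∑ i ∈ s, f i) y = ∑ i ∈ s, Φ.B (f i) y := by
    intro s f y
    induction s using Finset.induction_on with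
    | empty => rw [Finset.sum_empty, Finset.sum_empty, Φ.zero_left]
    | insert i s hi ih => rw [Finset.sum_insert hi, Finset.sum_insert hi, Φ.add_left, ih]
  have hsum' : ∀ (s : Finset (Fin (finrank K E))) (f : Fin (finrank K E) → E) (x : E),
      Φ.B x (∑ i ∈ s, f i) = ∑ i ∈ s, Φ.B x (f i) := by
    intro s f x
    induction s using Finset.induction_on with
    | empty => rw [Finset.sum_empty, Finset.sum_empty, Φ.zero_right]
    | insert i s hi ih => rw [Finset.sum_insert hi, Finset.sum_insert hi, Φ.add_right, ih]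
  have hab : ∀ (c : End K E) (j : Fin (finrank K E)),
      c (b j) = ∑ i, (LinearMap.toMatrix b b c) i j • b i := by
    intro c j
    conv_lhs => rw [← b.sum_repr (c (b j))]
    refine Finset.sum_congr rfl fun i _ => ?_
    rw [LinearMap.toMatrix_apply]
  have key : Aᵀ * G = G * A'.map Φ.θ := by
    ext j l
    rw [Matrix.mul_apply, Matrix.mul_apply]
    have h1 : Φ.B (a (b j)) (b l) = ∑ i, A i j * Φ.B (b i) (b l) := by
      rw [hab a j, hsum]
      exact Finset.sum_congr rfl fun i _ => Φ.smul_left _ _ _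
    have h2 : Φ.B (b j) (Φ.adj a (b l)) = ∑ i, Φ.θ (A' i l) * Φ.B (b j) (b i) := by
      rw [hab (Φ.adj a) l, hsum']
      exact Finset.sum_congr rfl fun i _ => Φ.smul_right _ _ _
    rw [Φ.adj_right, h2] at h1
    simp only [Matrix.transpose_apply, G, Matrix.of_apply, Matrix.map_apply]
    rw [← h1]
    exact Finset.sum_congr rfl fun i _ => mul_comm _ _
  have hG : G.det ≠ 0 := by
    intro h
    obtain ⟨v, hv, hvG⟩ := Matrix.exists_vecMul_eq_zero_iff.mpr h
    apply hv
    have h1 : ∑ i, v i • b i = 0 := by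
      apply Φ.nondeg
      intro y
      rw [← b.sum_repr y, hsum']
      refine Finset.sum_eq_zero fun j _ => ?_
      rw [Φ.smul_right, hsum]
      have h2 : ∑ i, Φ.B (v i • b i) (b j) = 0 := by
        have := congrFun hvG j
        simp only [Matrix.vecMul, dotProduct, G, Matrix.of_apply, Pi.zero_apply] at this
        rw [← this]
        exact Finset.sum_congr rfl fun i _ => Φ.smul_left _ _ _
      rw [h2, mul_zero]
    have h2 := Fintype.linearIndependent_iff.mp b.linearIndependent v h1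
    funext i
    exact h2 i
  have hdet := congrArg Matrix.det key
  rw [Matrix.det_mul, Matrix.det_mul, Matrix.det_transpose, mul_comm] at hdet
  have h3 := mul_left_cancel₀ hG hdet
  have h4 : (A'.map Φ.θ).det = Φ.θ A'.det := (RingHom.map_det Φ.θ A').symm
  rw [h4, hA, hA', LinearMap.det_toMatrix, LinearMap.det_toMatrix] at h3
  rw [h3, Φ.θθ]

end Det

/-- A selfdual decomposition. -/
structure SDec (Φ : HForm K E) (Q : Subgroup (SpecialLinearGroup K E)) extends Dec Q where
  adj_e : ∀ i, Φ.adj (e i) = e (Fin.rev i)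
  triv : ∀ i, Fin.rev i = i → ∀ q ∈ Q, toEnd q * e i = e i
  le : Q ≤ Φ.Iso

namespace SDec

variable {Φ : HForm K E} {Q : Subgroup (SpecialLinearGroup K E)} {D : SDec Φ Q}

open Dec

theorem adj_sum {ι : Type*} (s : Finset ι) (f : ι → End K E) :
    Φ.adj (∑ i ∈ s, f i) = ∑ i ∈ s, Φ.adj (f i) := by
  classical
  induction s using Finset.induction_on with
  | empty => rw [Finset.sum_empty, Finset.sum_empty, Φ.adj_zero]
  | insert i s hi ih => rw [Finset.sum_insert hi, Finset.sum_insert hi, Φ.adj_add, ih]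

theorem adj_es (s : Finset (Fin D.r)) : Φ.adj (D.es s) = D.es (s.image Fin.rev) := by
  rw [Dec.es, Dec.es, adj_sum, Finset.sum_image fun i _ j _ h => Fin.rev_injective h]
  exact Finset.sum_congr rfl fun i _ => D.adj_e i

variable (D) in
/-- The stabiliser of the decomposition in the special isometry group. -/
def L : Subgroup (SpecialLinearGroup K E) := D.toDec.L ⊓ Φ.Iso

theorem adj_cp {g : SpecialLinearGroup K E} (hg : g ∈ D.L) (s : Finset (Fin D.r)) :
    Φ.adj (D.cp s g) = D.cp (s.image Fin.rev) g⁻¹ := by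
  rw [Dec.cp, Dec.cp, Φ.adj_add, Φ.adj_mul, Φ.adj_sub, Φ.adj_one, adj_es,
    ← Φ.toEnd_inv_of_mem hg.2, ← comm_es (D.toDec.L.inv_mem hg.1)]

/-- The determinant on the dual summand. -/
theorem dt_rev {g : SpecialLinearGroup K E} (hg : g ∈ D.L) (i : Fin D.r) :
    D.dt {Fin.rev i} g * Φ.θ (D.dt {i} g) = 1 := by
  have h1 : Φ.θ (D.dt {i} g) = D.dt {Fin.rev i} g⁻¹ := by
    rw [Dec.dt, ← det_adj, adj_cp hg, Finset.image_singleton]
    rfl
  rw [h1, ← dt_mul hg.1 (D.toDec.L.inv_mem hg.1), mul_inv_cancel, dt_one]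

variable (D) in
/-- The factors: the special linear groups of the nonselfdual summands and the special isometry group
of the selfdual summand. -/
def A (i : Fin D.r) : Subgroup (SpecialLinearGroup K E) where
  carrier := {g | g ∈ D.L ∧ (∀ j, j ≠ i → j ≠ Fin.rev i → toEnd g * D.e j = D.e j) ∧
    D.dt {i} g = 1 ∧ (Fin.rev i < i → g = 1)}
  one_mem' := ⟨D.L.one_mem, fun j _ _ => by rw [toEnd_one, one_mul], dt_one _, fun _ => rfl⟩
  mul_mem' := by
    rintro g h ⟨hg, hg1, hg2, hg3⟩ ⟨hh, hh1, hh2, hh3⟩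
    refine ⟨D.L.mul_mem hg hh, fun j hj hj' => ?_, ?_, fun hi => ?_⟩
    · rw [toEnd_mul, mul_assoc, hh1 j hj hj', hg1 j hj hj']
    · rw [dt_mul hg.1 hh.1, hg2, hh2, one_mul]
    · rw [hg3 hi, hh3 hi, one_mul]
  inv_mem' := by
    rintro g ⟨hg, hg1, hg2, hg3⟩
    refine ⟨D.L.inv_mem hg, fun j hj hj' => ?_, ?_, fun hi => ?_⟩
    · conv_lhs => rw [← hg1 j hj hj', ← mul_assoc, toEnd_inv_mul, one_mul]
    · have h1 := dt_mul (s := {i}) hg.1 (D.toDec.L.inv_mem hg.1)
      rw [mul_inv_cancel, dt_one, hg2, one_mul] at h1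
      exact h1.symm
    · rw [hg3 hi, inv_one]

theorem A_le_L (i : Fin D.r) : D.A i ≤ D.L := fun _ h => h.1

theorem A_conj {i : Fin D.r} {g h : SpecialLinearGroup K E} (hg : g ∈ D.L) (hh : h ∈ D.A i) :
    g * h * g⁻¹ ∈ D.A i := by
  obtain ⟨hh0, hh1, hh2, hh3⟩ := hh
  have hgi := D.L.inv_mem hg
  refine ⟨D.L.mul_mem (D.L.mul_mem hg hh0) hgi, fun j hj hj' => ?_, ?_, fun hi => ?_⟩
  · rw [toEnd_mul, toEnd_mul, mul_assoc, hgi.1 j, mul_assoc, ← mul_assoc (toEnd h),
      hh1 j hj hj', ← hgi.1 j, ← mul_assoc, toEnd_mul_inv, one_mul]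
  · rw [dt_mul (D.L.mul_mem hg hh0).1 hgi.1, dt_mul hg.1 hh0.1, hh2, mul_one,
      ← dt_mul hg.1 hgi.1, mul_inv_cancel, dt_one]
  · rw [hh3 hi, mul_one, mul_inv_cancel]

theorem disj {i j : Fin D.r} (hij : i ≠ j) (hi : ¬ Fin.rev i < i) (hj : ¬ Fin.rev j < j)
    {l : Fin D.r} (hl : l = i ∨ l = Fin.rev i) : l ≠ j ∧ l ≠ Fin.rev j := by
  rw [not_lt] at hi hj
  constructor
  · rintro rfl
    rcases hl with h | h
    · exact hij h.symm
    · rw [h, Fin.rev_rev] at hj
      exact hij (le_antisymm (by rw [h]; exact hi) (by rw [h]; exact hj))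
  · rintro rfl
    rcases hl with h | h
    · rw [← h, Fin.rev_rev] at hi
      exact hij (le_antisymm (by rw [← h]; exact hi) (by rw [← h]; exact hj)).symm.symm
    · exact hij (Fin.rev_injective h.symm)

theorem A_comm {i j : Fin D.r} (hij : i ≠ j) {g h : SpecialLinearGroup K E} (hg : g ∈ D.A i)
    (hh : h ∈ D.A j) : g * h = h * g := by
  obtain ⟨hg0, hg1, hg2, hg3⟩ := hg
  obtain ⟨hh0, hh1, hh2, hh3⟩ := hh
  by_cases hi : Fin.rev i < i
  · rw [hg3 hi, one_mul, mul_one]
  by_cases hj : Fin.rev j < j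
  · rw [hh3 hj, one_mul, mul_one]
  apply toEnd_injective
  rw [toEnd_mul, toEnd_mul]
  apply ext_e (D := D.toDec)
  intro l
  by_cases hl : l = i ∨ l = Fin.rev i
  · obtain ⟨h1, h2⟩ := disj hij hi hj hl
    have h3 : toEnd h * D.e l = D.e l := hh1 l h1 h2
    calc toEnd g * toEnd h * D.e l = toEnd g * D.e l := by rw [mul_assoc, h3]
      _ = D.e l * toEnd g := hg0.1 l
      _ = toEnd h * D.e l * toEnd g := by rw [h3]
      _ = _ := by rw [mul_assoc, ← hg0.1 l, mul_assoc]
  · push Not at hl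
    have h1 : toEnd g * D.e l = D.e l := hg1 l hl.1 hl.2
    calc toEnd g * toEnd h * D.e l = toEnd g * (D.e l * toEnd h) := by rw [mul_assoc, hh0.1 l]
      _ = D.e l * toEnd h := by rw [← mul_assoc, h1]
      _ = toEnd h * (toEnd g * D.e l) := by rw [h1, hh0.1 l]
      _ = _ := by rw [mul_assoc]

theorem A_inf {i j : Fin D.r} (hij : i ≠ j) {g : SpecialLinearGroup K E} (hg : g ∈ D.A i)
    (hh : g ∈ D.A j) : g = 1 := by
  obtain ⟨hg0, hg1, hg2, hg3⟩ := hg
  obtain ⟨hh0, hh1, hh2, hh3⟩ := hh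
  by_cases hi : Fin.rev i < i
  · exact hg3 hi
  by_cases hj : Fin.rev j < j
  · exact hh3 hj
  apply toEnd_injective
  rw [toEnd_one]
  apply ext_e (D := D.toDec)
  intro l
  rw [one_mul]
  by_cases hl : l = i ∨ l = Fin.rev i
  · obtain ⟨h1, h2⟩ := disj hij hi hj hl
    exact hh1 l h1 h2
  · push Not at hl
    exact hg1 l hl.1 hl.2

/-- An isometry trivial on a summand is trivial on the dual summand. -/
theorem triv_rev {g : SpecialLinearGroup K E} (hg : g ∈ D.L) {i : Fin D.r}
    (h : toEnd g * D.e i = D.e i) : toEnd g * D.e (Fin.rev i) = D.e (Fin.rev i) := by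
  have h1 := congrArg Φ.adj h
  rw [Φ.adj_mul, D.adj_e, ← Φ.toEnd_inv_of_mem hg.2, ← (D.toDec.L.inv_mem hg.1)] at h1
  conv_lhs => rw [← h1, ← mul_assoc, toEnd_mul_inv, one_mul]

theorem cyclic_inf (i : Fin D.r) : IsCyclic (Q ⊓ D.A i : Subgroup _) := by
  obtain ⟨F, _, _, χ, hχ⟩ := D.cyc i
  let ψ : (Q ⊓ D.A i : Subgroup (SpecialLinearGroup K E)) →* Fˣ :=
    χ.comp (Subgroup.inclusion inf_le_left)
  have hinj : Function.Injective ψ := by
    rw [injective_iff_map_eq_one]
    intro g hg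
    have h1 : toEnd (g : SpecialLinearGroup K E) * D.e i = D.e i := (hχ ⟨g, g.2.1⟩).mp hg
    obtain ⟨hg0, hg1, -, -⟩ := g.2.2
    apply Subtype.ext
    apply toEnd_injective
    change toEnd (g : SpecialLinearGroup K E) = toEnd 1
    rw [toEnd_one]
    apply ext_e (D := D.toDec)
    intro l
    rw [one_mul]
    by_cases hl : l = i
    · rw [hl]; exact h1
    by_cases hl' : l = Fin.rev i
    · rw [hl']; exact triv_rev hg0 h1
    exact hg1 l hl hl'
  exact isCyclic_of_injective ψ hinj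

end SDec

end Vale.Agent.P180.R2.H954.Hc
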