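import Vale.Agent.P180.R2.H954.Hf1
import Vale.Agent.P180.R2.H854.FormDec

/-!
P180: the decomposition of a space with a nondegenerate form under a commutative `p`-group of
isometries without nontrivial selfdual constituents.
-/

set_option linter.all false

namespace Vale.Agent.P180.R2.H954.Hc

open Module Vale.Agent.P180.R2.H854

section Frob

/-- Every ring endomorphism of a finite field is a power of the Frobenius. -/
theorem exists_frob {F : Type*} [Field F] [Finite F] {r : ℕ} [Fact r.Prime] [CharP F r]
    (σ : F →+* F) : ∃ j : ℕ, ∀ x, σ x = x ^ (r ^ j) := by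
  letI : Algebra (ZMod r) F := ZMod.algebra F r
  have := Fintype.ofFinite F
  have hc : ∀ c : ZMod r, σ (algebraMap (ZMod r) F c) = algebraMap (ZMod r) F c := fun c =>
    congrArg (fun φ : ZMod r →+* F => φ c)
      (Subsingleton.elim (σ.comp (algebraMap (ZMod r) F)) (algebraMap (ZMod r) F))
  let σ' : F →ₐ[ZMod r] F := { σ with commutes' := hc }
  obtain ⟨n, hn⟩ := (FiniteField.bijective_frobeniusAlgHom_pow (K := ZMod r) (L := F)).2 σ'
  refine ⟨n.1, fun x => ?_⟩
  have h1 := DFunLike.congr_fun hn x
  change ((FiniteField.frobeniusAlgHom (ZMod r) F) ^ n.1) x = σ x at h1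
  rw [AlgHom.coe_pow, FiniteField.coe_frobeniusAlgHom, pow_iterate, ZMod.card] at h1
  exact h1.symm

end Frob

variable {K E : Type} [Field K] [AddCommGroup E] [Module K E]

/-- The involution of the group algebra. -/
noncomputable def st (θ : K →+* K) (Q : Subgroup (SpecialLinearGroup K E))
    (hab : ∀ x ∈ Q, ∀ y ∈ Q, x * y = y * x) : MonoidAlgebra K Q →+* MonoidAlgebra K Q :=
  MonoidAlgebra.liftNCRingHom (MonoidAlgebra.singleOneRingHom.comp θ)
    { toFun := fun q => MonoidAlgebra.single q⁻¹ 1
      map_one' := by rw [inv_one]; rfl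
      map_mul' := fun x y => by
        rw [MonoidAlgebra.single_mul_single, one_mul, mul_inv_rev]
        congr 1
        apply Subtype.ext
        exact hab _ (Q.inv_mem y.2) _ (Q.inv_mem x.2) }
    (fun c q => by
      change MonoidAlgebra.single 1 (θ c) * MonoidAlgebra.single q⁻¹ 1 =
        MonoidAlgebra.single q⁻¹ 1 * MonoidAlgebra.single 1 (θ c)
      rw [MonoidAlgebra.single_mul_single, MonoidAlgebra.single_mul_single, one_mul, mul_one,
        one_mul, mul_one])

theorem st_single (θ : K →+* K) (Q : Subgroup (SpecialLinearGroup K E))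
    (hab : ∀ x ∈ Q, ∀ y ∈ Q, x * y = y * x) (q : Q) (c : K) :
    st θ Q hab (MonoidAlgebra.single q c) = MonoidAlgebra.single q⁻¹ (θ c) := by
  rw [st, MonoidAlgebra.liftNCRingHom_single]
  change MonoidAlgebra.single 1 (θ c) * MonoidAlgebra.single q⁻¹ 1 = _
  rw [MonoidAlgebra.single_mul_single, one_mul, mul_one]

theorem st_st {θ : K →+* K} (hθ : ∀ c, θ (θ c) = c) {Q : Subgroup (SpecialLinearGroup K E)}
    (hab : ∀ x ∈ Q, ∀ y ∈ Q, x * y = y * x) (x : MonoidAlgebra K Q) :
    st θ Q hab (st θ Q hab x) = x := by
  induction x using MonoidAlgebra.induction_linear with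
  | zero => simp
  | add x y hx hy => rw [map_add, map_add, hx, hy]
  | single q c => rw [st_single, st_single, inv_inv, hθ]

variable [FiniteDimensional K E] [Finite K] (Φ : HForm K E)

theorem adj_act {Q : Subgroup (SpecialLinearGroup K E)} (hQ : Q ≤ Φ.Iso)
    (hab : ∀ x ∈ Q, ∀ y ∈ Q, x * y = y * x) (x : MonoidAlgebra K Q) :
    Φ.adj (act Q x) = act Q (st Φ.θ Q hab x) := by
  induction x using MonoidAlgebra.induction_linear with
  | zero => rw [map_zero, map_zero, map_zero, Φ.adj_zero]
  | add x y hx hy => rw [map_add, map_add, map_add, Φ.adj_add, hx, hy]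
  | single q c =>
    rw [act_single, st_single, act_single, Φ.adj_smul]
    congr 1
    exact (Φ.toEnd_inv_of_mem (hQ q.2)).symm

/-- **Decomposition of a space with a form.** -/
theorem exists_sdec {p : ℕ} (hp : p.Prime)
    {Q : Subgroup (SpecialLinearGroup K E)} [Finite Q] (hQp : IsPGroup p Q)
    (hKQ : (Nat.card K).Coprime (Nat.card Q)) (hQ : Q ≤ Φ.Iso)
    (hab : ∀ x ∈ Q, ∀ y ∈ Q, x * y = y * x)
    (hlin : ∀ j : ℕ, (∀ c : K, Φ.θ c = c ^ (ringChar K ^ j)) → ¬ p ∣ ringChar K ^ j + 1) :
    ∃ D : Dec Q, (∀ i, Φ.adj (D.e i) = D.e (Fin.rev i)) ∧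
      ∀ i, Fin.rev i = i → ∀ q ∈ Q, toEnd q * D.e i = D.e i := by
  classical
  obtain ⟨T, hT, ε, h1, h2, h3, h4, h5, h6⟩ := exists_core Q hKQ hab
  set s := st Φ.θ Q hab with hs
  have hss : ∀ x, s (s x) = x := fun x => st_st Φ.θθ hab x
  have hcomm : ∀ x y : MonoidAlgebra K Q, x * y = y * x := by
    intro x y
    induction x using MonoidAlgebra.induction_linear with
    | zero => simp
    | add x x' hx hx' => rw [add_mul, mul_add, hx, hx']
    | single q c =>
      induction y using MonoidAlgebra.induction_linear with
      | zero => simp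
      | add y y' hy hy' => rw [mul_add, add_mul, hy, hy']
      | single q' c' =>
        rw [MonoidAlgebra.single_mul_single, MonoidAlgebra.single_mul_single, mul_comm c]
        congr 1
        exact Subtype.ext (hab _ q.2 _ q'.2)
  -- primitivity
  have hprim : ∀ t, ∀ c, c * c = c → c * ε t = 0 ∨ c * ε t = ε t := by
    intro t c hc
    obtain ⟨F, _, _, π, hπ, hπ0⟩ := h5 t
    have g1 : π c * (π c - 1) = 0 := by
      rw [mul_sub, mul_one, ← map_mul, hc, sub_self]
    rcases mul_eq_zero.mp g1 with h | h
    · left
      exact (hπ0 c).mp h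
    · right
      have g2 : π (c - 1) = 0 := by rw [map_sub, map_one]; exact h
      rw [hπ0, sub_mul, one_mul, sub_eq_zero] at g2
      exact g2
  -- duality
  have hdual : ∀ t, ∃ t', s (ε t) = ε t' := by
    intro t
    apply h6
    · rw [← map_mul, h1]
    · rw [← adj_act Φ hQ hab]
      intro h
      apply h4 t
      have := Φ.adj_adj (act Q (ε t))
      rw [h, Φ.adj_zero] at this
      exact this.symm
    · intro c hc
      rcases hprim t (s c) (by rw [← map_mul, hc]) with h | h
      · left
        have := congrArg s h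
        rw [map_mul, hss, map_zero] at this
        exact this
      · right
        have := congrArg s h
        rw [map_mul, hss] at this
        exact this
  choose τ hτ using hdual
  have hεinj : Function.Injective ε := by
    intro t t' h
    by_contra hne
    have := h2 t t' hne
    rw [← h, h1] at this
    exact h4 t (by rw [this, map_zero])
  have hττ : ∀ t, τ (τ t) = t := by
    intro t
    apply hεinj
    rw [← hτ, ← hτ, hss]
  -- the fixed points
  have htriv : ∀ t, τ t = t → ∀ q : Q, MonoidAlgebra.single q (1 : K) * ε t = ε t := by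
    intro t ht q
    obtain ⟨F, _, _, π, hπ, hπ0⟩ := h5 t
    have hker : ∀ x, π x = 0 → π (s x) = 0 := by
      intro x hx
      rw [hπ0] at hx ⊢
      have := congrArg s hx
      rw [map_mul, hτ, ht, map_zero] at this
      exact this
    -- the induced automorphism
    let σ : F →+* F := RingHom.liftOfSurjective (f := π) hπ ⟨π.comp s, fun x hx => by
      rw [RingHom.mem_ker] at hx ⊢
      exact hker x hx⟩
    have hσ : ∀ x, σ (π x) = π (s x) := fun x =>
      RingHom.liftOfRightInverse_comp_apply _ _ _ _ _
    have hchar : CharP F (ringChar K) := by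
      have g1 : CharP K (ringChar K) := ringChar.charP K
      exact charP_of_injective_ringHom
        (f := π.comp (MonoidAlgebra.singleOneRingHom (R := K) (M := Q)))
        (RingHom.injective _) (ringChar K)
    have hrp : (ringChar K).Prime := by
      rcases CharP.char_is_prime_or_zero K (ringChar K) with h | h
      · exact h
      · exfalso
        have g1 : CharZero K := by
          have := ringChar.charP K
          rw [h] at this
          exact CharP.charP_to_charZero K
        exact (not_finite K).elim
    have : Fact (ringChar K).Prime := ⟨hrp⟩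
    obtain ⟨j, hj⟩ := exists_frob (r := ringChar K) σ
    -- `u = π q`
    set u : F := π (MonoidAlgebra.single q 1) with hu
    have hu0 : u * π (MonoidAlgebra.single q⁻¹ 1) = 1 := by
      rw [hu, ← map_mul, MonoidAlgebra.single_mul_single, mul_inv_cancel, one_mul,
        ← MonoidAlgebra.one_def, map_one]
    have hσu : σ u * u = 1 := by
      rw [hu, hσ, hs, st_single, map_one, mul_comm]
      exact hu0
    have hθj : ∀ c : K, Φ.θ c = c ^ (ringChar K ^ j) := by
      intro c
      have g1 := hj (π (MonoidAlgebra.single 1 c))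
      rw [hσ, hs, st_single, inv_one, ← map_pow, MonoidAlgebra.single_pow, one_pow] at g1
      have g2 : Function.Injective
          (π.comp (MonoidAlgebra.singleOneRingHom (R := K) (M := Q))) := RingHom.injective _
      exact g2 g1
    have hpj := hlin j hθj
    have hu1 : u ^ (ringChar K ^ j + 1) = 1 := by
      rw [pow_succ, ← hj, hσu]
    obtain ⟨m, hm⟩ := hQp q
    have hu2 : u ^ (p ^ m) = 1 := by
      rw [hu, ← map_pow, MonoidAlgebra.single_pow, hm, one_pow, ← MonoidAlgebra.one_def, map_one]
    have hu3 : u = 1 := by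
      have g1 : orderOf u = 1 := by
        refine Nat.eq_one_of_dvd_coprimes (a := p ^ m) (b := ringChar K ^ j + 1) ?_
          (orderOf_dvd_of_pow_eq_one hu2) (orderOf_dvd_of_pow_eq_one hu1)
        exact Nat.Coprime.pow_left _ ((Nat.Prime.coprime_iff_not_dvd hp).mpr hpj)
      exact orderOf_eq_one_iff.mp g1
    have g3 : π (MonoidAlgebra.single q 1 - 1) = 0 := by
      rw [map_sub, map_one, sub_eq_zero]
      exact hu3
    rw [hπ0, sub_mul, one_mul, sub_eq_zero] at g3
    exact g3
  have hfix : ∀ t t', τ t = t → τ t' = t' → t = t' := by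
    intro t t' ht ht'
    by_contra hne
    -- the augmentation
    let aug : MonoidAlgebra K Q →ₐ[K] K := MonoidAlgebra.lift K K Q 1
    have haug : ∀ t, τ t = t → ∀ x, x * ε t = aug x • ε t := by
      intro t ht x
      induction x using MonoidAlgebra.induction_linear with
      | zero => rw [zero_mul, map_zero, zero_smul]
      | add x y hx hy => rw [add_mul, map_add, add_smul, hx, hy]
      | single q c =>
        have g1 : MonoidAlgebra.single q c = c • MonoidAlgebra.single q (1 : K) := by
          rw [MonoidAlgebra.smul_single, smul_eq_mul, mul_one]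
        have g2 : aug (MonoidAlgebra.single q (1 : K)) = 1 := by
          change MonoidAlgebra.lift K K Q 1 (MonoidAlgebra.single q 1) = 1
          rw [MonoidAlgebra.lift_single, one_smul]
          rfl
        rw [g1, smul_mul_assoc, htriv t ht q, map_smul, g2, smul_eq_mul, mul_one]
    have hεne : ∀ t, ε t ≠ 0 := fun t h => h4 t (by rw [h, map_zero])
    have g1 : aug (ε t) = 0 := by
      have := haug t' ht' (ε t)
      rw [h2 t t' hne] at this
      exact (smul_eq_zero.mp this.symm).resolve_right (hεne t')
    have g2 := haug t ht (ε t)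
    rw [h1, g1, zero_smul] at g2
    exact hεne t g2
  obtain ⟨e, he⟩ := exists_equiv_rev τ hττ hfix
  have key1 : ∀ i : Fin (Fintype.card T), τ (e.symm i) = e.symm (Fin.rev i) := by
    intro i
    rw [Equiv.eq_symm_apply, he, Equiv.apply_symm_apply]
  have key2 : ∀ i : Fin (Fintype.card T), Φ.adj (act Q (ε (e.symm i))) =
      act Q (ε (e.symm (Fin.rev i))) := by
    intro i
    rw [adj_act Φ hQ hab, ← hs, hτ, key1]
  have key3 : ∀ i : Fin (Fintype.card T), Fin.rev i = i → ∀ q ∈ Q,
      toEnd q * act Q (ε (e.symm i)) = act Q (ε (e.symm i)) := by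
    intro i hi q hq
    have g1 := congrArg (act Q) (htriv (e.symm i) (by rw [key1, hi]) ⟨q, hq⟩)
    rw [map_mul, act_single, one_smul] at g1
    exact g1
  exact ⟨decOf ε h1 h2 h3 h4 h5 e, key2, key3⟩

end Vale.Agent.P180.R2.H954.Hc
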