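import Vale.Agent.P180.R2.H954.LocCP
import Vale.Agent.P180.R2.H259.Cyc.Prim

/-!
P180: the corner property of a factor `S` on which `R` acts through inner automorphisms, from a
bound for the corners of the primitive idempotents of `(kS)^Q`, `Q = S ∩ R`.
-/

set_option linter.all false

namespace Vale.Agent.P180.R2.H954

open Vale.Agent.P180 Vale.Agent.P180.H768.Gd Vale.Agent.P180.R2.H799
  Vale.Agent.P180.R2.H12

section Dec

variable {k A : Type*} [Field k] [Ring A] [Algebra k A] [FiniteDimensional k A]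

open Vale.Agent.P180.R2.H259.Cyc (PrimIn)

/-- An idempotent of a subalgebra is a sum of primitive idempotents. -/
theorem exists_prim_decomp (S : Subalgebra k A) (n : ℕ) : ∀ e : A, e ∈ S → e * e = e →
    Module.finrank k (LinearMap.range (LinearMap.mulLeft k e)) ≤ n →
    ∃ (m : ℕ) (f : Fin m → A), (∀ l, PrimIn S (f l) ∧ e * f l = f l ∧ f l * e = f l) ∧
      e = ∑ l, f l := by
  induction n with
  | zero =>
    intro e _ _ hn
    have h1 : LinearMap.range (LinearMap.mulLeft k e) = ⊥ :=
      Submodule.finrank_eq_zero.mp (Nat.le_zero.mp hn)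
    have h2 : e ∈ LinearMap.range (LinearMap.mulLeft k e) := ⟨1, by simp⟩
    rw [h1, Submodule.mem_bot] at h2
    exact ⟨0, Fin.elim0, fun l => l.elim0, by simp [h2]⟩
  | succ n ih =>
    intro e heS hee hn
    by_cases he0 : e = 0
    · exact ⟨0, Fin.elim0, fun l => l.elim0, by simp [he0]⟩
    by_cases hprim : ∀ c ∈ S, c * c = c → c * e = c → e * c = c → c = 0 ∨ c = e
    · exact ⟨1, fun _ => e, fun _ => ⟨⟨heS, hee, he0, hprim⟩, hee, hee⟩, by simp⟩
    push Not at hprim
    obtain ⟨c, hcS, hcc, hce, hec, hc0, hcne⟩ := hprim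
    have key : ∀ d : A, d ∈ S → d * d = d → d * e = d → e * d = d → d ≠ e →
        ∃ (m : ℕ) (f : Fin m → A), (∀ l, PrimIn S (f l) ∧ e * f l = f l ∧ f l * e = f l) ∧
          d = ∑ l, f l := by
      intro d hdS hdd hde hed hdne
      have hlt : Module.finrank k (LinearMap.range (LinearMap.mulLeft k d)) <
          Module.finrank k (LinearMap.range (LinearMap.mulLeft k e)) := by
        apply Submodule.finrank_lt_finrank_of_lt
        refine lt_of_le_of_ne ?_ ?_
        · rintro _ ⟨x, rfl⟩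
          refine ⟨d * x, ?_⟩
          rw [LinearMap.mulLeft_apply, LinearMap.mulLeft_apply, ← mul_assoc, hed]
        · intro h
          have h2 : e ∈ LinearMap.range (LinearMap.mulLeft k e) := ⟨1, by simp⟩
          rw [← h] at h2
          obtain ⟨x, hx⟩ := h2
          rw [LinearMap.mulLeft_apply] at hx
          apply hdne
          rw [← hde, ← hx, ← mul_assoc, hdd]
      obtain ⟨m, f, hf, hd⟩ := ih d hdS hdd (by omega)
      refine ⟨m, f, fun l => ⟨(hf l).1, ?_, ?_⟩, hd⟩
      · rw [← (hf l).2.1, ← mul_assoc, hed]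
      · conv_lhs => rw [← (hf l).2.2]
        rw [mul_assoc, hde, (hf l).2.2]
    obtain ⟨m₁, f₁, hf₁, hd₁⟩ := key c hcS hcc hce hec hcne
    obtain ⟨m₂, f₂, hf₂, hd₂⟩ := key (e - c) (Subalgebra.sub_mem _ heS hcS)
      (by rw [sub_mul, mul_sub, mul_sub, hee, hec, hce, hcc]; abel)
      (by rw [sub_mul, hee, hce]) (by rw [mul_sub, hee, hec])
      (by
        intro h
        exact hc0 (sub_eq_self.mp h))
    refine ⟨m₁ + m₂, Fin.append f₁ f₂, ?_, ?_⟩
    · intro l
      refine Fin.addCases (fun i => ?_) (fun i => ?_) l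
      · rw [Fin.append_left]; exact hf₁ i
      · rw [Fin.append_right]; exact hf₂ i
    · rw [Fin.sum_univ_add]
      simp only [Fin.append_left, Fin.append_right]
      rw [← hd₁, ← hd₂]
      abel

end Dec

section Inner

variable {k : Type*} [Field k] {p : ℕ} [Fact p.Prime] [CharP k p] {G : Type} [Group G] [Finite G]

/-- If `R` acts on `S` through inner automorphisms, and `e = tr_{S ∩ R}^S z` is not killed by the
Brauer homomorphism relative to `R`, then `R` acts as `S ∩ R`. -/
theorem inner_of_coeff {S R : Subgroup G} (hR : IsPGroup p R)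
    (hin : ∀ r ∈ R, ∃ s ∈ S, ∃ c ∈ Subgroup.centralizer (S : Set G), r = s * c)
    {e z : MonoidAlgebra k G} (hzF : z ∈ Fix (cj k G) (S ⊓ R))
    (hez : e = tr (cj k G) (S ⊓ R) S z) {c : G} (hcS : c ∈ S)
    (hc : ∀ r ∈ R, r * c * r⁻¹ = c) (hec : e.coeff c ≠ 0) :
    ∀ r ∈ R, ∃ q ∈ S ⊓ R, ∀ s ∈ S, r * s * r⁻¹ = q * s * q⁻¹ := by
  set C : Subgroup G := Subgroup.centralizer (S : Set G) with hC
  have hCs : ∀ x ∈ C, ∀ s ∈ S, x * s = s * x := fun x hx s hs =>
    (Subgroup.mem_centralizer_iff.mp hx s hs).symm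
  -- the group of the elements of `S` which act as elements of `R`
  let T : Subgroup G :=
    { carrier := {s | s ∈ S ∧ ∃ c ∈ C, s * c ∈ R}
      one_mem' := ⟨S.one_mem, 1, C.one_mem, by simpa using R.one_mem⟩
      mul_mem' := by
        rintro s t ⟨hs, x, hx, hsx⟩ ⟨ht, y, hy, hty⟩
        refine ⟨S.mul_mem hs ht, x * y, C.mul_mem hx hy, ?_⟩
        have h1 : s * t * (x * y) = s * x * (t * y) := by
          calc s * t * (x * y) = s * (t * x) * y := by group
            _ = s * (x * t) * y := by rw [hCs x hx t ht]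
            _ = _ := by group
        rw [h1]
        exact R.mul_mem hsx hty
      inv_mem' := by
        rintro s ⟨hs, x, hx, hsx⟩
        refine ⟨S.inv_mem hs, x⁻¹, C.inv_mem hx, ?_⟩
        have h1 : s⁻¹ * x⁻¹ = (s * x)⁻¹ := by
          rw [← hCs x hx s hs, mul_inv_rev]
        rw [h1]
        exact R.inv_mem hsx }
  have hTS : T ≤ S := fun s hs => hs.1
  have hIT : S ⊓ R ≤ T := fun s hs => ⟨hs.1, 1, C.one_mem, by simpa using hs.2⟩
  have hTc : ∀ t ∈ T, t * c * t⁻¹ = c := by
    rintro t ⟨ht, x, hx, htx⟩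
    have h1 := hc _ htx
    have h2 : t * x * c * (t * x)⁻¹ = t * (x * c) * x⁻¹ * t⁻¹ := by group
    rw [h2, hCs x hx c hcS] at h1
    have h3 : t * (c * x) * x⁻¹ * t⁻¹ = t * c * t⁻¹ := by group
    rwa [h3] at h1
  -- a Sylow subgroup of `T`
  have hIp : IsPGroup p (S ⊓ R : Subgroup G) := hR.to_le inf_le_right
  obtain ⟨P₁, hP₁⟩ := (hIp.comap_of_injective T.subtype T.subtype_injective).exists_le_sylow
  have hP' : (P₁ : Subgroup T).map T.subtype = S ⊓ R := by
    symm
    refine Subgroup.eq_of_le_of_card_ge ?_ ?_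
    · intro x hx
      exact ⟨⟨x, hIT hx⟩, hP₁ hx, rfl⟩
    · refine card_le_of_coeff (N := S) inf_le_left ?_ (P₁.2.map _) hzF hez (c := c) ?_ hec
      · rintro _ ⟨x, -, rfl⟩
        exact hTS x.2
      · rintro _ ⟨x, -, rfl⟩
        exact hTc _ x.2
  let Zt : Subgroup T := C.subgroupOf T
  have hZt : ∀ y ∈ Zt, ∀ t : T, y * t = t * y := by
    intro y hy t
    apply Subtype.ext
    exact hCs _ hy _ (hTS t.2)
  have hZn : Zt.Normal := ⟨fun y hy t => by
    rw [← hZt y hy t, mul_inv_cancel_right]; exact hy⟩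
  have hTZ : IsPGroup p (T ⧸ Zt) := by
    intro q
    obtain ⟨t, rfl⟩ := QuotientGroup.mk_surjective q
    obtain ⟨ht, x, hx, htx⟩ := t.2
    obtain ⟨n, hn⟩ := hR ⟨_, htx⟩
    refine ⟨n, ?_⟩
    have hn' : ((t : G) * x) ^ p ^ n = 1 := congrArg Subtype.val hn
    have hcom : Commute (t : G) x := (hCs x hx _ ht).symm
    rw [hcom.mul_pow] at hn'
    rw [← QuotientGroup.mk_pow, QuotientGroup.eq_one_iff]
    change ((t ^ p ^ n : T) : G) ∈ C
    rw [Subgroup.coe_pow, eq_inv_of_mul_eq_one_left hn']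
    exact C.inv_mem (C.pow_mem hx _)
  have htop : (P₁ : Subgroup T) ⊔ Zt = ⊤ := by
    rw [← Subgroup.index_eq_one]
    have h1 : ((P₁ : Subgroup T) ⊔ Zt).index ∣ (P₁ : Subgroup T).index :=
      Subgroup.index_dvd_of_le le_sup_left
    have h2 : ((P₁ : Subgroup T) ⊔ Zt).index ∣ Zt.index := Subgroup.index_dvd_of_le le_sup_right
    obtain ⟨m, hm⟩ := IsPGroup.iff_card.mp hTZ
    have h3 : Zt.index = p ^ m := by rw [Subgroup.index, hm]
    rw [h3] at h2
    have h4 : Nat.Coprime (p ^ m) (P₁ : Subgroup T).index :=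
      Nat.Coprime.pow_left _ ((Nat.Prime.coprime_iff_not_dvd Fact.out).mpr P₁.not_dvd_index)
    exact Nat.eq_one_of_dvd_coprimes h4 h2 h1
  intro r hr
  obtain ⟨s, hs, c', hc', hr'⟩ := hin r hr
  have hsT : s ∈ T := ⟨hs, c', hc', by rw [← hr']; exact hr⟩
  have h1 : (⟨s, hsT⟩ : T) ∈ (P₁ : Subgroup T) ⊔ Zt := by rw [htop]; trivial
  rw [Subgroup.mem_sup_of_normal_right] at h1
  obtain ⟨q, hq, y, hy, hqy⟩ := h1
  have hq' : (q : G) ∈ S ⊓ R := by rw [← hP']; exact ⟨q, hq, rfl⟩
  have hs' : s = q * y := (congrArg Subtype.val hqy).symm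
  refine ⟨q, hq', fun u hu => ?_⟩
  have e1 : c' * u * c'⁻¹ = u := by rw [hCs c' hc' u hu, mul_inv_cancel_right]
  have e2 : (y : G) * u * (y : G)⁻¹ = u := by rw [hCs y hy u hu, mul_inv_cancel_right]
  calc r * u * r⁻¹ = q * (y * (c' * u * c'⁻¹) * (y : G)⁻¹) * (q : G)⁻¹ := by
        rw [hr', hs']; group
    _ = _ := by rw [e1, e2]

end Inner

section Cor

universe u

variable {k : Type u} [Field k] {p : ℕ} [Fact p.Prime] [CharP k p]

open Vale.Agent.P180.R2.H259.Cyc (PrimIn)

/-- The corner bound for the primitive idempotents of `(kH)^Q` under blocks of `H` which are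
relative traces from `Q`. -/
def CornerBd (k : Type u) [Field k] {H : Type} [Group H] [Finite H] (Q : Subgroup H) (C : ℕ) :
    Prop :=
  ∀ e a i : MonoidAlgebra k H, IsBlockOf (⊤ : Subgroup H) e → a ∈ Fix (cj k H) Q →
    e = tr (cj k H) Q ⊤ a → PrimIn (Fix (cj k H) Q) i → e * i = i → br Q i ≠ 0 →
    Module.finrank k (NN (⊤ : Subalgebra k (MonoidAlgebra k H)) i i) ≤ C

omit [Fact p.Prime] [CharP k p] in
theorem SubAlg_coeff {G : Type} [Group G] {S : Subgroup G} {a : MonoidAlgebra k G}
    (ha : a ∈ SubAlg k S) {x : G} (hx : x ∉ S) : a.coeff x = 0 := by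
  by_contra h
  exact hx (ha x h)

/-- **The corner property** of a factor `S` on which `R` acts through inner automorphisms. -/
theorem cor_of_corner {G : Type} [Group G] [Finite G] {S R : Subgroup G} (hR : IsPGroup p R)
    (hin : ∀ r ∈ R, ∃ s ∈ S, ∃ c ∈ Subgroup.centralizer (S : Set G), r = s * c)
    {e z : MonoidAlgebra k G} (he : IsBlockOf S e) (hbr : br R e ≠ 0) (hz : z ∈ SubAlg k S)
    (hzF : z ∈ Fix (cj k G) (S ⊓ R)) (hez : e = tr (cj k G) (S ⊓ R) S z) {C : ℕ}
    (hCB : CornerBd k (R.subgroupOf S) C) : Cor C S R e := by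
  classical
  obtain ⟨c, hc, hec⟩ := exists_coeff_of_br hbr
  have hcS : c ∈ S := he.mem.1 c hec
  have hinn := inner_of_coeff hR hin hzF hez hcS hc hec
  -- transport to the type `S`
  obtain ⟨e', rfl⟩ := exists_incl S he.mem.1
  obtain ⟨z', rfl⟩ := exists_incl S hz
  set Q : Subgroup S := R.subgroupOf S with hQ
  have hmap : Q.map S.subtype = S ⊓ R := by
    rw [hQ, Subgroup.subgroupOf_map_subtype, inf_comm]
  have hQp : IsPGroup p Q := hR.comap_of_injective S.subtype S.subtype_injective
  have hz'F : z' ∈ Fix (cj k S) Q := by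
    rw [← incl_mem_Fix_iff, hmap]; exact hzF
  have he' : IsBlockOf (⊤ : Subgroup S) e' := by
    unfold IsBlockOf
    rw [ZAlg_top]
    exact (isBlockOf_incl_iff S e').mp he
  have he'z : e' = tr (cj k S) Q ⊤ z' := by
    apply incl_injective (k := k) S
    rw [incl_tr S Q hz'F, hmap]
    exact hez
  have hfinS : FiniteDimensional k (MonoidAlgebra k S) :=
    Module.Finite.equiv (MonoidAlgebra.coeffLinearEquiv k (M := S) (S := k)).symm
  obtain ⟨m, f, hf, hsum⟩ := exists_prim_decomp (Fix (cj k S) Q) _ e'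
    (Fix_mono _ le_top he'.mem.2) he'.idem.eq le_rfl
  -- the elements of `kS` fixed by `Q` are fixed by `R`
  have hfixR : ∀ a : MonoidAlgebra k S, a ∈ Fix (cj k S) Q → incl k S a ∈ Fix (cj k G) R := by
    intro a ha r hr
    obtain ⟨q, hq, hrq⟩ := hinn r hr
    have h1 : cj k G r (incl k S a) = cj k G q (incl k S a) := by
      refine SuppIn.induction (P := fun x => cj k G r x = cj k G q x) (incl_mem S a)
        (by rw [map_zero, map_zero]) ?_ ?_
      · intro x y hx hy; rw [map_add, map_add, hx, hy]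
      · intro x hx c
        rw [map_smul, map_smul, cj_single, cj_single, hrq x hx]
    rw [h1]
    have h2 : incl k S a ∈ Fix (cj k G) (S ⊓ R) := by
      rw [← hmap, incl_mem_Fix_iff]; exact ha
    exact h2 q hq
  -- the Brauer map
  have hbrR : ∀ a : MonoidAlgebra k S, br Q a = 0 → br R (incl k S a) = 0 := by
    intro a ha
    apply MonoidAlgebra.coeff_injective
    ext x
    rw [br_coeff]
    split_ifs with hx
    · by_cases hxS : x ∈ S
      · have h2 : (incl k S a).coeff x = a.coeff ⟨x, hxS⟩ := H799.incl_coeff S a ⟨x, hxS⟩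
        have h3 : (br Q a).coeff ⟨x, hxS⟩ = a.coeff ⟨x, hxS⟩ := by
          rw [br_coeff, if_pos]
          rw [mem_cent]
          intro d hd
          apply Subtype.ext
          exact mem_cent.mp hx d hd
        rw [h2, ← h3, ha]
        rfl
      · rw [SubAlg_coeff (incl_mem S a) hxS]
        rfl
    · rfl
  let g : Fin m → MonoidAlgebra k G := fun l => if br Q (f l) = 0 then 0 else incl k S (f l)
  refine ⟨m, g, fun l => ?_, ?_⟩
  · by_cases h0 : br Q (f l) = 0
    · have hg : g l = 0 := if_pos h0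
      rw [hg]
      refine ⟨Subalgebra.zero_mem _, Subalgebra.zero_mem _, mul_zero _, ?_⟩
      rw [mul_zero]
      have : NN (SubAlg k S) (0 : MonoidAlgebra k G) 0 = ⊥ := by
        rw [eq_bot_iff]
        rintro x ⟨-, hx, -⟩
        rw [zero_mul] at hx
        exact (Submodule.mem_bot k).mpr hx.symm
      rw [this, finrank_bot]
      exact Nat.zero_le _
    · have hg : g l = incl k S (f l) := if_neg h0
      rw [hg]
      refine ⟨incl_mem S _, hfixR _ (hf l).1.mem, by rw [← map_mul, (hf l).1.idem], ?_⟩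
      rw [← map_mul, (hf l).2.1]
      have h1 := finrank_NN_hom (k := k) (φ := S.subtype) S.subtype_injective (f l) (f l)
      rw [Subgroup.range_subtype] at h1
      have h2 : Module.finrank k (NN (SubAlg k S) (incl k S (f l)) (incl k S (f l))) =
        Module.finrank k (NN (⊤ : Subalgebra k (MonoidAlgebra k S)) (f l) (f l)) := h1
      rw [h2]
      exact hCB e' z' (f l) he' hz'F he'z (hf l).1 (hf l).2.1 h0
  · have h1 : br R (incl k S e') = ∑ l, br R (g l) := by
      have h2 : ∀ l, br R (g l) = br R (incl k S (f l)) := by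
        intro l
        by_cases h0 : br Q (f l) = 0
        · have hg : g l = 0 := if_pos h0
          rw [hg, hbrR _ h0]
          apply MonoidAlgebra.coeff_injective
          ext x
          rw [br_coeff]
          split_ifs <;> rfl
        · have hg : g l = incl k S (f l) := if_neg h0
          rw [hg]
      rw [Finset.sum_congr rfl fun l _ => h2 l]
      conv_lhs => rw [hsum, map_sum]
      apply MonoidAlgebra.coeff_injective
      ext x
      rw [br_coeff, MonoidAlgebra.coeff_sum, MonoidAlgebra.coeff_sum, Finsupp.finsetSum_apply,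
        Finsupp.finsetSum_apply]
      split_ifs with hx
      · exact Finset.sum_congr rfl fun l _ => by rw [br_coeff, if_pos hx]
      · symm
        exact Finset.sum_eq_zero fun l _ => by rw [br_coeff, if_neg hx]
    rw [h1]
    refine Submodule.sum_mem _ fun l _ => Submodule.subset_span
      ⟨l, 1, Subalgebra.one_mem _, 1, Subalgebra.one_mem _, by rw [one_mul, mul_one]⟩

end Cor

end Vale.Agent.P180.R2.H954
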