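import Vale.Agent.P180.R2.H854.FormX

/-!
P180: the length of the chains in the parabolic system of a subgroup of a special isometry group.
-/

set_option linter.all false

namespace Vale.Agent.P180.R2.H954.Hc

open Module Vale.Agent.P180.R2.H854

variable {K E : Type} [Field K] [AddCommGroup E] [Module K E] [FiniteDimensional K E]

/-- The number of members of a flag with an adapted basis. -/
theorem ncard_mem {ι : Type*} [Fintype ι] [DecidableEq ι] {b : Basis ι K E} {α : ι → ℕ}
    {F : Flag K E} (h : Adapted b α F) :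
    F.mem.ncard = (Finset.univ.image α).card + 1 := by
  classical
  set A : Finset ℕ := Finset.univ.image α with hA
  have hmemA : ∀ a, a ∈ A ↔ ∃ l, α l = a := by
    intro a
    rw [hA, Finset.mem_image]
    exact ⟨fun ⟨l, _, hl⟩ => ⟨l, hl⟩, fun ⟨l, hl⟩ => ⟨l, Finset.mem_univ _, hl⟩⟩
  have hinj : Set.InjOn (fun a : ℕ => F (a + 1)) (A : Set ℕ) := by
    have key : ∀ a ∈ A, ∀ a' ∈ A, F (a + 1) = F (a' + 1) → a' ≤ a := by
      intro a ha a' ha' hEq
      obtain ⟨l, hl⟩ := (hmemA a').mp ha'
      have h1 : b l ∈ F (a' + 1) := h.self_mem_iff.mpr (by omega)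
      rw [← hEq, h.self_mem_iff] at h1
      omega
    intro a ha a' ha' hEq
    exact le_antisymm (key a' ha' a ha hEq.symm) (key a ha a' ha' hEq)
  have hbot : (⊥ : Submodule K E) ∉ (fun a : ℕ => F (a + 1)) '' (A : Set ℕ) := by
    rintro ⟨a, ha, h0⟩
    obtain ⟨l, hl⟩ := (hmemA a).mp ha
    have h1 : b l ∈ F (a + 1) := h.self_mem_iff.mpr (by omega)
    have h0' : F (a + 1) = ⊥ := h0
    rw [h0', Submodule.mem_bot] at h1
    exact b.ne_zero l h1
  have hset : F.mem = insert ⊥ ((fun a : ℕ => F (a + 1)) '' (A : Set ℕ)) := by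
    ext W
    constructor
    · rintro ⟨i, rfl⟩
      by_cases hi : ∃ l, α l < i
      · right
        -- the largest value below `i`
        have hne : (A.filter (· < i)).Nonempty := by
          obtain ⟨l, hl⟩ := hi
          exact ⟨α l, Finset.mem_filter.mpr ⟨(hmemA _).mpr ⟨l, rfl⟩, hl⟩⟩
        set a := (A.filter (· < i)).max' hne with ha
        have ha1 := Finset.mem_filter.mp ((A.filter (· < i)).max'_mem hne)
        refine ⟨a, ha1.1, ?_⟩
        change F (a + 1) = F i
        rw [h (a + 1), h i]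
        congr 2
        ext l
        constructor
        · intro hl
          have hl' : α l < a + 1 := hl
          have := ha1.2
          exact lt_of_lt_of_le hl' this
        · intro hl
          have hl' : α l < i := hl
          have h1 : α l ≤ a := Finset.le_max' _ _
            (Finset.mem_filter.mpr ⟨(hmemA _).mpr ⟨l, rfl⟩, hl'⟩)
          exact Nat.lt_succ_of_le h1
      · left
        push Not at hi
        change F i = ⊥
        rw [h i, Submodule.span_eq_bot]
        rintro x ⟨l, hl, rfl⟩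
        exact absurd hl (not_lt.mpr (hi l))
    · rintro (h1 | ⟨a, -, rfl⟩)
      · exact ⟨0, by rw [h1]; exact F.zero⟩
      · exact ⟨a + 1, rfl⟩
  rw [hset, Set.ncard_insert_of_notMem hbot, Set.InjOn.ncard_image hinj, Set.ncard_coe_finset]

theorem card_image_lex {ι : Type*} [Fintype ι] [DecidableEq ι] (α β : ι → ℕ) {M : ℕ}
    (hβ : ∀ l, β l < M) : (Finset.univ.image fun l => α l * M + β l).card =
      (Finset.univ.image fun l => (α l, β l)).card := by
  classical
  have h1 : (Finset.univ.image fun l => α l * M + β l) =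
      (Finset.univ.image fun l => (α l, β l)).image fun x => x.1 * M + x.2 := by
    rw [Finset.image_image]
    rfl
  rw [h1]
  apply Finset.card_image_of_injOn
  intro x hx y hy hxy
  obtain ⟨l, -, rfl⟩ := Finset.mem_image.mp (Finset.mem_coe.mp hx)
  obtain ⟨m, -, rfl⟩ := Finset.mem_image.mp (Finset.mem_coe.mp hy)
  have h2 : α l * M + β l = α m * M + β m := hxy
  have h3 := hβ l
  have h4 := hβ m
  have hM : 0 < M := by omega
  have h5 : (α l * M + β l) / M = α l := by
    rw [mul_comm, Nat.mul_add_div hM, Nat.div_eq_of_lt h3, add_zero]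
  have h6 : (α m * M + β m) / M = α m := by
    rw [mul_comm, Nat.mul_add_div hM, Nat.div_eq_of_lt h4, add_zero]
  have h7 : α l = α m := by rw [← h5, ← h6, h2]
  rw [h7] at h2
  exact Prod.ext h7 (by change β l = β m; omega)

/-- The two products of two flags have the same number of members. -/
theorem ncard_starN (F H : Flag K E) {N M : ℕ} (hN : F N = ⊤) (hM : H M = ⊤) (h0 : 0 < N)
    (m0 : 0 < M) : (starN F H M m0).mem.ncard = (starN H F N h0).mem.ncard := by
  classical
  obtain ⟨b, hbF, hbH⟩ := exists_adapted F H hN hM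
  have h1 := adapted_starN hbF hbH M hM m0
  have h2 := adapted_starN hbH hbF N hN h0
  rw [ncard_mem h1, ncard_mem h2, card_image_lex _ _ (fun l => l.1.2.2),
    card_image_lex _ _ (fun l => l.1.1.2)]
  congr 1
  have h3 : (Finset.univ.image fun l : Idx F H N M => ((l.1.2 : ℕ), (l.1.1 : ℕ))) =
      (Finset.univ.image fun l : Idx F H N M => ((l.1.1 : ℕ), (l.1.2 : ℕ))).image Prod.swap := by
    rw [Finset.image_image]
    rfl
  rw [h3, Finset.card_image_of_injective _ Prod.swap_injective]

section rank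

variable (Φ : HForm K E) (X : Subgroup (SpecialLinearGroup K E))

/-- the possible numbers of missing members -/
def rkSet (Y : Subgroup X) : Set ℕ :=
  {k | ∃ F : Flag K E, Φ.SD F ∧ (VF F).subgroupOf X = Y ∧ k = finrank K E + 1 - F.mem.ncard}

/-- The rank of a member of the parabolic system of `X`. -/
noncomputable def rkX (Y : Subgroup X) : ℕ := sInf (rkSet Φ X Y)

variable {Φ X}

theorem rkX_le (Y : Subgroup X) : rkX Φ X Y ≤ finrank K E + 1 := by
  rcases (rkSet Φ X Y).eq_empty_or_nonempty with h | ⟨k, hk⟩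
  · unfold rkX
    rw [h, Nat.sInf_empty]
    exact Nat.zero_le _
  · have h1 : rkX Φ X Y ≤ k := Nat.sInf_le hk
    obtain ⟨F, -, -, hk'⟩ := hk
    omega

/-- The rank is strictly decreasing. -/
theorem rkX_lt [Finite K]
    (hdec : ∀ (F H : Flag K E) (M : ℕ) (m0 : 0 < M), H M = ⊤ → Φ.SD F → Φ.SD H →
      VF (starN F H M m0) ⊓ X ≤ (VF F ⊓ X) ⊔ ((PF F ⊓ VF H) ⊓ X))
    (hnorm : ∀ F : Flag K E, Φ.SD F → Subgroup.normalizer
      ((VF F ⊓ X : Subgroup (SpecialLinearGroup K E)) : Set (SpecialLinearGroup K E)) ⊓ X ≤ PF F)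
    {Z Y : Subgroup X} (hZ : ∃ F : Flag K E, Φ.SD F ∧ (VF F).subgroupOf X = Z)
    (hY : ∃ F : Flag K E, Φ.SD F ∧ (VF F).subgroupOf X = Y) (hlt : Z < Y) :
    rkX Φ X Y < rkX Φ X Z := by
  classical
  have hnZ : (rkSet Φ X Z).Nonempty := by
    obtain ⟨F, h1, h2⟩ := hZ
    exact ⟨_, F, h1, h2, rfl⟩
  have hnY : (rkSet Φ X Y).Nonempty := by
    obtain ⟨F, h1, h2⟩ := hY
    exact ⟨_, F, h1, h2, rfl⟩
  obtain ⟨F, hF, hFZ, hFk⟩ := Nat.sInf_mem hnZ
  obtain ⟨H, hH, hHY, hHk⟩ := Nat.sInf_mem hnY
  change rkX Φ X Z = _ at hFk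
  change rkX Φ X Y = _ at hHk
  have hmaxH : ∀ H' : Flag K E, Φ.SD H' → (VF H').subgroupOf X = Y →
      H'.mem.ncard ≤ H.mem.ncard := by
    intro H' h1 h2
    have h3 : rkX Φ X Y ≤ finrank K E + 1 - H'.mem.ncard := Nat.sInf_le ⟨H', h1, h2, rfl⟩
    rw [hHk] at h3
    have h4 := ncard_mem_le H'
    have h5 := ncard_mem_le H
    omega
  have hmap : ∀ S : Subgroup (SpecialLinearGroup K E), (S.subgroupOf X).map X.subtype = S ⊓ X :=
    fun S => Subgroup.subgroupOf_map_subtype S X
  have hFX : VF F ⊓ X = Z.map X.subtype := by rw [← hFZ, hmap]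
  have hHX : VF H ⊓ X = Y.map X.subtype := by rw [← hHY, hmap]
  have hVW : VF F ⊓ X ≤ VF H ⊓ X := by
    rw [hFX, hHX]
    exact Subgroup.map_mono hlt.le
  have hVWne : VF F ⊓ X ≠ VF H ⊓ X := by
    intro h
    rw [hFX, hHX] at h
    exact hlt.ne (Subgroup.map_injective X.subtype_injective h)
  obtain ⟨N, h0, hN, hFN⟩ := hF
  obtain ⟨M, m0, hM, hHM⟩ := hH
  have hF : Φ.SD F := ⟨N, h0, hN, hFN⟩
  have hH : Φ.SD H := ⟨M, m0, hM, hHM⟩
  -- the product `H F`
  have hT2 : (VF (starN H F N h0)).subgroupOf X = Y := by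
    apply Subgroup.map_injective X.subtype_injective
    rw [hmap, ← hHX]
    apply le_antisymm
    · refine (hdec H F N h0 hN hH hF).trans (sup_le le_rfl ?_)
      rintro g ⟨⟨-, hg⟩, hgX⟩
      exact hVW ⟨hg, hgX⟩
    · exact inf_le_inf_right _ (VF_le_star hN h0)
  have h2 := hmaxH _ (Φ.SD_starN m0 hM hHM h0 hFN) hT2
  -- the number of members
  have h3 := ncard_starN F H hN hM h0 m0
  have h4 : F.mem ⊆ (starN F H M m0).mem := (VF_le_iff _ _).mp (VF_le_star hM m0)
  have h5 : F.mem.ncard ≤ (starN F H M m0).mem.ncard := Set.ncard_le_ncard h4 (mem_finite _)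
  have h6 : F.mem.ncard ≠ H.mem.ncard := by
    intro h
    have h7 : F.mem = (starN F H M m0).mem := by
      apply Set.eq_of_subset_of_ncard_le h4 _ (mem_finite _)
      omega
    have h8 : VF F = VF (starN F H M m0) := (VF_eq_iff _ _).mpr h7
    have h9 : PF F ⊓ VF H ≤ VF F := by
      rw [h8, ← star_VF_aux F H hM m0]
      exact le_sup_right
    -- the normaliser of `V` in `W`
    apply hVWne
    set V : Subgroup (SpecialLinearGroup K E) := VF F ⊓ X with hV
    set W : Subgroup (SpecialLinearGroup K E) := VF H ⊓ X with hW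
    have hNW : Subgroup.normalizer (V : Set (SpecialLinearGroup K E)) ⊓ W ≤ V := by
      rintro g ⟨hg, hgW⟩
      have h10 : g ∈ PF F := hnorm F hF ⟨hg, hgW.2⟩
      exact ⟨h9 ⟨h10, hgW.1⟩, hgW.2⟩
    have hfG : Finite (SpecialLinearGroup K E) := by
      have hfinE : Finite E := Module.finite_of_finite K
      refine Finite.of_injective (fun g : SpecialLinearGroup K E => (fun x : E => g x)) ?_
      intro g h hgh
      ext x
      exact congrFun hgh x
    -- `W` is nilpotent
    have hnil : Group.IsNilpotent W := by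
      have hrp : (ringChar K).Prime := by
        rcases CharP.char_is_prime_or_zero K (ringChar K) with h | h
        · exact h
        · exfalso
          have g1 : CharZero K := by
            have := ringChar.charP K
            rw [h] at this
            exact CharP.charP_to_charZero K
          exact (not_finite K).elim
      have hf : Fact (ringChar K).Prime := ⟨hrp⟩
      have hpg : IsPGroup (ringChar K) W := by
        have := Fintype.ofFinite K
        obtain ⟨n, -, hn⟩ := FiniteField.card K (ringChar K)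
        have h10 : Nat.card W ∣ (ringChar K) ^ ((n : ℕ) * finrank K (Jr H)) := by
          rw [pow_mul, ← hn, ← Nat.card_eq_fintype_card, ← card_VF]
          exact Subgroup.card_dvd_of_le inf_le_left
        obtain ⟨m, -, hm⟩ := (Nat.dvd_prime_pow hrp).mp h10
        exact IsPGroup.of_card hm
      exact hpg.isNilpotent
    by_contra hne
    have hlt' : V.subgroupOf W < ⊤ := by
      rw [lt_top_iff_ne_top, Ne, Subgroup.subgroupOf_eq_top]
      intro hle
      exact hne (le_antisymm hVW hle)
    have h11 := Group.normalizerCondition_of_isNilpotent (G := W) _ hlt'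
    obtain ⟨x, hx, hxV⟩ := SetLike.exists_of_lt h11
    apply hxV
    rw [Subgroup.mem_subgroupOf]
    apply hNW
    refine ⟨Subgroup.mem_normalizer_iff.mpr ?_, x.2⟩
    rw [Subgroup.mem_normalizer_iff] at hx
    intro g
    constructor
    · intro hg
      exact (hx ⟨g, hVW hg⟩).mp hg
    · intro hg
      have h12 : g ∈ W := by
        have h13 := W.mul_mem (W.mul_mem (W.inv_mem x.2) (hVW hg)) x.2
        have h14 : (x : SpecialLinearGroup K E)⁻¹ * (x * g * (x : SpecialLinearGroup K E)⁻¹) * x =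
            g := by group
        rwa [h14] at h13
      exact (hx ⟨g, h12⟩).mpr hg
  rw [hFk, hHk]
  have h7 := ncard_mem_le F
  have h8 := ncard_mem_le H
  omega

/-- **The chain bound** in odd characteristic. -/
theorem rkX_lt_odd [Finite K] (hK : Odd (Nat.card K)) (hXI : X ≤ Φ.Iso)
    (hX2 : X.relIndex Φ.Iso ∣ 2) (hnorm : Φ.NormCond)
    {Z Y : Subgroup X} (hZ : ∃ F : Flag K E, Φ.SD F ∧ (VF F).subgroupOf X = Z)
    (hY : ∃ F : Flag K E, Φ.SD F ∧ (VF F).subgroupOf X = Y) (hlt : Z < Y) :
    rkX Φ X Y < rkX Φ X Z := by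
  refine rkX_lt ?_ ?_ hZ hY hlt
  · intro F H M m0 hM hF hH
    rw [← star_VF_aux F H hM m0]
    exact Φ.exists_dec_X hK hXI hX2 hF inf_le_left fun h hh h' e =>
      ⟨Φ.adj_PF hF hh.1 e, Φ.adj_VF hH hh.2 e⟩
  · intro F hF
    exact (Φ.normalizer_inf_le hK hXI hX2 hnorm hF).trans (by rw [normalizer_VF])

end rank

end Vale.Agent.P180.R2.H954.Hc
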