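import Vale.Agent.P180.R2.H954.Hf8

/-!
P180: the Levi subgroup of a commutative `p`-subgroup of a subgroup of index at most two in a special
isometry group, for all linear primes.
-/

set_option linter.all false

namespace Vale.Agent.P180.R2.H954.Hc

open Module Vale.Agent.P180.R2.H854

variable {K E : Type} [Field K] [AddCommGroup E] [Module K E] [FiniteDimensional K E] [Finite K]

/-- **The Levi subgroup**: `p` does not divide `|K|` and is linear for the form. -/
theorem exists_leviD' {p : ℕ} (hp : p.Prime) (Φ : HForm K E)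
    {X : Subgroup (SpecialLinearGroup K E)} (hXI : X ≤ Φ.Iso) (hX2 : X.relIndex Φ.Iso ∣ 2)
    (hV : ∀ F : Flag K E, Φ.SD F → VF F ⊓ Φ.Iso ≤ X)
    (hK : ¬ p ∣ Nat.card K)
    (hlin : ∀ j : ℕ, (∀ c, Φ.θ c = c ^ (ringChar K ^ j)) → ¬ p ∣ ringChar K ^ j + 1)
    {Q : Subgroup X} (hQ : IsPGroup p Q) (hab : ∀ x ∈ Q, ∀ y ∈ Q, x * y = y * x) :
    Nonempty (LeviD Φ X p Q) := by
  classical
  have hfinG : Finite (SpecialLinearGroup K E) := SDec.finite_sl
  have hpF : Fact p.Prime := ⟨hp⟩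
  have hpo : Odd p := odd_of_lin hp hK Φ.θ hlin
  -- the subgroup of the special linear group
  set Q' : Subgroup (SpecialLinearGroup K E) := Q.map X.subtype with hQ'
  have hQ'p : IsPGroup p Q' := hQ.map _
  have hQ'X : Q' ≤ X := by
    rintro _ ⟨x, -, rfl⟩
    exact x.2
  have hab' : ∀ x ∈ Q', ∀ y ∈ Q', x * y = y * x := by
    rintro _ ⟨x, hx, rfl⟩ _ ⟨y, hy, rfl⟩
    exact congrArg Subtype.val (hab x hx y hy)
  obtain ⟨l, hl⟩ := IsPGroup.iff_card.mp hQ'p
  have hcop : (Nat.card K).Coprime (Nat.card Q') := by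
    rw [hl]
    exact (Nat.Coprime.pow_left l ((Nat.Prime.coprime_iff_not_dvd hp).mpr hK)).symm
  obtain ⟨D₀, hD1, hD2⟩ := exists_sdec Φ hp hQ'p hcop (hQ'X.trans hXI) hab' hlin
  let D : SDec Φ Q' := { D₀ with adj_e := hD1, triv := hD2, le := hQ'X.trans hXI }
  have hr : D.r ≤ finrank K E := Dec.r_le
  -- the components of the `p`-elements lie in `X`
  have hcpX : ∀ g ∈ D.L, ∀ m : ℕ, g ^ p ^ m = 1 → ∀ i
      (h' : LinearMap.det (D.cp {i, Fin.rev i} g) = 1), mkSL (D.cp {i, Fin.rev i} g) h' ∈ X := by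
    intro g hgL m hm i h'
    refine mem_of_relIndex_two hX2 (SDec.mk_mem_L hgL (SDec.pair_image i) h').2 (hpo.pow (n := m)) ?_
    apply toEnd_injective
    rw [SDec.mkSL_cp_pow hgL, hm, Dec.cp_one, toEnd_one]
  have hpB : ∀ g ∈ D.L, ∀ m : ℕ, g ^ p ^ m = 1 → g ∈ ⨆ i, (D.B i ⊓ X) := fun g hg m hm =>
    SDec.mem_iSup_inf_B hg (fun i => SDec.det_pair hp hK hlin hg hm i) X (hcpX g hg m hm)
  have hQB : Q' ≤ ⨆ i, (D.B i ⊓ X) := by
    intro g hg
    obtain ⟨m, hm⟩ := hQ'p ⟨g, hg⟩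
    exact hpB g (SDec.Q_le hab' hg) m (congrArg Subtype.val hm)
  -- the scalars of order prime to `p`
  obtain ⟨Z', hZ'Z, hZ'p, hZ'⟩ := exists_pprime (p := p) hp (Z := D.Z)
    (fun x hx y hy => SDec.Z_comm hx (SDec.Z_le hy))
  have hZ'L : Z' ≤ D.L := hZ'Z.trans SDec.Z_le
  -- the centraliser
  have hcent : ∀ g : X, g ∈ Subgroup.centralizer (Q : Set X) →
      (g : SpecialLinearGroup K E) ∈ Subgroup.centralizer (Q' : Set (SpecialLinearGroup K E)) := by
    intro g hg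
    rw [Subgroup.mem_centralizer_iff] at hg ⊢
    rintro _ ⟨x, hx, rfl⟩
    exact congrArg Subtype.val (hg x hx)
  have hinj := X.subtype_injective
  -- the index
  have hidx : ((Z' ⊓ X) ⊔ ⨆ i, (D.B i ⊓ X)).relIndex (D.L ⊓ X) ≤
      2 ^ (finrank K E + 1) * finrank K E ^ finrank K E := by
    have h1 : ((Z' ⊓ X) ⊔ ⨆ i, (D.B i ⊓ X)).relIndex (D.L ⊓ X) ≤
        ((Z' ⊓ X) ⊔ ⨆ i, (D.B i ⊓ X)).relIndex D.L :=
      Subgroup.relIndex_le_of_le_right inf_le_left Subgroup.index_ne_zero_of_finite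
    have h2 : (Z' ⊓ X) ⊔ ⨆ i, (D.B i ⊓ X) ≤ Z' ⊔ ⨆ i, D.B i :=
      sup_le_sup inf_le_left (iSup_mono fun i => inf_le_left)
    have h3 : Z' ⊔ ⨆ i, D.B i ≤ D.L := sup_le hZ'L (iSup_le SDec.B_le_L)
    have h4 := Subgroup.relIndex_mul_relIndex _ _ _ h2 h3
    have h5 : ((Z' ⊓ X) ⊔ ⨆ i, (D.B i ⊓ X)).relIndex (Z' ⊔ ⨆ i, D.B i) ≤ 2 ^ (D.r + 1) :=
      relIndex_sup_inf_le (I := Φ.Iso)
        (fun z hz i g hg => SDec.Z_comm (hZ'Z hz) (SDec.B_le_L i hg))
        (fun i j hij g hg h hh => SDec.B_comm hij hg hh) (hZ'Z.trans inf_le_right)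
        (fun i => (SDec.B_le_L i).trans inf_le_right) hX2
    have h6 : (Z' ⊔ ⨆ i, D.B i).relIndex D.L ≤ finrank K E ^ finrank K E := by
      have h7 : D.Z ⊔ ⨆ i, D.A i ≤ Z' ⊔ ⨆ i, D.B i := by
        refine sup_le (fun z hz => ?_) (le_sup_of_le_right (iSup_mono fun i => SDec.A_le_B i))
        obtain ⟨x, hx, y, hy, m, hm, rfl⟩ := hZ' z hz
        refine Subgroup.mul_mem_sup hx ?_
        have h8 := hpB y (SDec.Z_le hy) m hm
        exact (iSup_mono fun i => (inf_le_left : D.B i ⊓ X ≤ D.B i)) h8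
      have h9 : (D.Z ⊔ ⨆ i, D.A i).relIndex D.L ≤ finrank K E ^ finrank K E :=
        SDec.relIndex_le.trans Dec.prod_n_le
      exact (Subgroup.relIndex_le_of_le_left h7 Subgroup.index_ne_zero_of_finite).trans h9
    refine h1.trans ?_
    rw [← h4]
    refine Nat.mul_le_mul (h5.trans (Nat.pow_le_pow_right two_pos (by omega))) h6
  refine ⟨{
    F := D.flag
    r := D.r
    L := D.L.subgroupOf X
    Z := Z'.subgroupOf X
    A := fun i => (D.B i).subgroupOf X
    sd := SDec.sd_flag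
    r_le := hr
    Q_le := fun x hx => SDec.Q_le hab' ⟨x, hx, rfl⟩
    Q_le_iSup := ?_
    cent_le := fun g hg => SDec.cent_le (hXI g.2) (hcent g hg)
    A_le := fun j x hx => SDec.B_le_L j hx
    A_conj := fun j g hg h hh => SDec.B_conj hg hh
    A_comm := fun i j hij g hg h hh => Subtype.ext (SDec.B_comm hij hg hh)
    A_inf := fun i j hij g hg hg' => Subtype.ext (SDec.B_inf hij hg hg')
    cyclic := ?_
    Z_le := fun x hx => hZ'L hx
    Z_comm := fun z hz g hg => Subtype.ext (SDec.Z_comm (hZ'Z hz) hg)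
    Z_card := ?_
    index := ?_
    le_PF := fun x hx => SDec.L_le_PF hx
    sup_eq := ?_
    inf_eq := ?_ }⟩
  · intro x hx
    have h1 : (x : SpecialLinearGroup K E) ∈ ⨆ i, (D.B i ⊓ X) := hQB ⟨x, hx, rfl⟩
    rw [← map_iSup_subgroupOf] at h1
    obtain ⟨y, hy, hyx⟩ := h1
    have h2 : y = x := Subtype.ext hyx
    rwa [← h2]
  · intro j
    have h1 := SDec.cyclic_inf_B (D := D) j
    let ψ : (Q ⊓ (D.B j).subgroupOf X : Subgroup X) →* (Q' ⊓ D.B j : Subgroup _) :=
      { toFun := fun x => ⟨x.1.1, ⟨⟨x.1, x.2.1, rfl⟩, x.2.2⟩⟩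
        map_one' := rfl
        map_mul' := fun _ _ => rfl }
    refine isCyclic_of_injective ψ fun x y hxy => ?_
    exact Subtype.ext (Subtype.ext (congrArg
      (fun z : (Q' ⊓ D.B j : Subgroup (SpecialLinearGroup K E)) =>
        (z : SpecialLinearGroup K E)) hxy))
  · intro h
    have h1 : Nat.card (Z'.subgroupOf X) ∣ Nat.card Z' := by
      have h2 : Nat.card (Z'.subgroupOf X) = Nat.card ((Z'.subgroupOf X).map X.subtype) :=
        Nat.card_congr (Subgroup.equivMapOfInjective _ _ hinj).toEquiv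
      rw [h2, map_subgroupOf']
      exact Subgroup.card_dvd_of_le inf_le_left
    exact hZ'p (h.trans h1)
  · have h1 : ((Z'.subgroupOf X) ⊔ ⨆ i, (D.B i).subgroupOf X).relIndex (D.L.subgroupOf X) =
        ((Z' ⊓ X) ⊔ ⨆ i, (D.B i ⊓ X)).relIndex (D.L ⊓ X) := by
      rw [← Subgroup.relIndex_map_map_of_injective _ _ hinj, Subgroup.map_sup,
        map_iSup_subgroupOf, map_subgroupOf', map_subgroupOf']
    rw [h1]
    exact hidx
  · apply le_antisymm
    · exact sup_le (fun x hx => VF_le_PF _ hx) fun x hx => SDec.L_le_PF hx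
    · intro x hx
      obtain ⟨g, hg, u, hu, huI, hxe⟩ := SDec.exists_levi (D := D) hx (hXI x.2)
      have huX : u ∈ X := hV _ SDec.sd_flag ⟨hu, huI⟩
      have hgX : g ∈ X := by
        have h1 : g = (x : SpecialLinearGroup K E) * u⁻¹ := by
          change g = X.subtype x * u⁻¹
          rw [hxe, mul_inv_cancel_right]
        rw [h1]
        exact X.mul_mem x.2 (X.inv_mem huX)
      have h2 : x = (⟨g, hgX⟩ : X) * ⟨u, huX⟩ := Subtype.ext hxe
      rw [h2]
      exact Subgroup.mul_mem _ (Subgroup.mem_sup_right hg) (Subgroup.mem_sup_left hu)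
  · rw [eq_bot_iff]
    rintro x ⟨hx, hxc⟩
    rw [Subgroup.mem_bot]
    have h1 : (x : SpecialLinearGroup K E) ∈ VF D.flag ⊓
        Subgroup.centralizer (Q' : Set (SpecialLinearGroup K E)) := ⟨hx, hcent x hxc⟩
    rw [Dec.VF_inf_cent, Subgroup.mem_bot] at h1
    exact Subtype.ext h1

/-- The scalars which are isometries have order prime to `p`. -/
theorem not_dvd_card_of_le_center {p : ℕ} (hp : p.Prime) {Φ : HForm K E}
    (hK : ¬ p ∣ Nat.card K)
    (hlin : ∀ j : ℕ, (∀ c, Φ.θ c = c ^ (ringChar K ^ j)) → ¬ p ∣ ringChar K ^ j + 1)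
    {Z : Subgroup (SpecialLinearGroup K E)} (hZI : Z ≤ Φ.Iso)
    (hZ : Z ≤ Subgroup.center (SpecialLinearGroup K E)) : ¬ p ∣ Nat.card Z := by
  classical
  have hfinG : Finite (SpecialLinearGroup K E) := SDec.finite_sl
  have hpF : Fact p.Prime := ⟨hp⟩
  intro h
  obtain ⟨z, hz⟩ := exists_prime_orderOf_dvd_card' (G := Z) p h
  have hzp : (z : SpecialLinearGroup K E) ^ p = 1 := by
    have h1 : z ^ p = 1 := by rw [← hz]; exact pow_orderOf_eq_one z
    exact congrArg Subtype.val h1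
  have hzc := hZ z.2
  rw [SpecialLinearGroup.mem_center_iff] at hzc
  obtain ⟨c, -, hc2⟩ := hzc
  have hcx : ∀ x : E, (z : SpecialLinearGroup K E) x = c • x := fun x =>
    congrArg (fun a : End K E => a x) hc2
  have hne : (z : SpecialLinearGroup K E) ≠ 1 := by
    intro h1
    have h2 : z = 1 := Subtype.ext h1
    rw [h2, orderOf_one] at hz
    exact hp.one_lt.ne hz
  have hE : ∃ x : E, x ≠ 0 := by
    by_contra h0
    push Not at h0
    apply hne
    ext x
    exact (h0 _).trans (h0 _).symm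
  obtain ⟨x, hx⟩ := hE
  obtain ⟨y, hy⟩ : ∃ y, Φ.B x y ≠ 0 := by
    by_contra h0
    push Not at h0
    exact hx (Φ.nondeg x h0)
  have hn : c * Φ.θ c = 1 := by
    have h1 : Φ.B ((z : SpecialLinearGroup K E) x) ((z : SpecialLinearGroup K E) y) = Φ.B x y :=
      hZI z.2 x y
    rw [hcx, hcx, Φ.smul_left, Φ.smul_right, ← mul_assoc] at h1
    exact mul_right_cancel₀ hy (h1.trans (one_mul _).symm)
  have hpow : ∀ m : ℕ, ((z : SpecialLinearGroup K E) ^ m) x = c ^ m • x := by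
    intro m
    induction m with
    | zero => rw [pow_zero, pow_zero, one_smul]; rfl
    | succ m ih =>
      have h1 : ((z : SpecialLinearGroup K E) ^ (m + 1)) x =
          (z : SpecialLinearGroup K E) (((z : SpecialLinearGroup K E) ^ m) x) := by
        rw [pow_succ']
        rfl
      rw [h1, ih, hcx, smul_smul, pow_succ']
  have hcp : c ^ p ^ 1 = 1 := by
    have h1 := hpow p
    rw [hzp] at h1
    have h2 : (c ^ p - 1) • x = 0 := by
      rw [sub_smul, one_smul, ← h1, sub_eq_zero]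
      rfl
    rw [pow_one]
    exact sub_eq_zero.mp ((smul_eq_zero.mp h2).resolve_right hx)
  have hc : c = 1 := eq_one_of_norm hp hK Φ.θ Φ.θθ hlin hcp hn
  apply hne
  ext y
  rw [hcx, hc, one_smul]
  rfl

end Vale.Agent.P180.R2.H954.Hc
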