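import Vale.Agent.P180.R2.H954.LocCP

/-!
P180: small corners for blocks of central products, without stability.
-/

set_option linter.all false

namespace Vale.Agent.P180.R2.H954.Hc

open Vale.Agent.P180 Vale.Agent.P180.H768.Gd Vale.Agent.P180.R2.H799
  Vale.Agent.P180.R2.H12 Vale.Agent.P180.R2.H47

section Loc

variable {k : Type*} [Field k] [IsAlgClosed k] {p : ℕ} [Fact p.Prime] [CharP k p]

/-- **Small corners for a block of a central product.** -/
theorem loc_dir {r C : ℕ} {G : Type} [Group G] [Finite G] (F : Fam G r ⊤)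
    (hsup : F.μ.range = ⊤) (hinj : ∀ i j, F.A i ≤ F.A j → i = j)
    {b a : MonoidAlgebra k G} (hb : IsBlockOf (⊤ : Subgroup G) b) {P : Subgroup G}
    (hP : IsPGroup p P) (ha : a ∈ Fix (cj k G) P) (hba : b = tr (cj k G) P ⊤ a)
    (hbr : br P b ≠ 0)
    (hcor : ∀ j, ∀ R ≤ P, (∀ x ∈ R, ∀ s ∈ F.A j, x * s * x⁻¹ ∈ F.A j) →
      ∀ e : MonoidAlgebra k G, IsBlockOf (F.A j) e → e ∈ Fix (cj k G) R → br R e ≠ 0 →
      (∃ z ∈ SubAlg k (F.A j), z ∈ Fix (cj k G) (F.A j ⊓ R) ∧
        e = tr (cj k G) (F.A j ⊓ R) (F.A j) z) → Cor C (F.A j) R e) :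
    ∃ f : MonoidAlgebra k G, f ∈ Fix (cj k G) P ∧ f * f = f ∧ b * f = f ∧ br P f ≠ 0 ∧
      Module.finrank k (NN (SubAlg k (⊤ : Subgroup G)) f f) ≤ C ^ r := by
  have hbc : ∀ z : MonoidAlgebra k G, z * b = b * z := fun z =>
    commute_of_mem (SubAlg_top z) hb.mem.2
  have hbF : ∀ S : Subgroup G, b ∈ Fix (cj k G) S := fun S => Fix_mono _ le_top hb.mem.2
  have hfin : FiniteDimensional k (MonoidAlgebra k G) :=
    Module.Finite.equiv (MonoidAlgebra.coeffLinearEquiv k (M := G) (S := k)).symm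
  have hbb : b * b = b := hb.idem.eq
  have hAX : ∀ j, F.A j ≤ (⊤ : Subgroup G) := fun j => le_top
  have hμ : F.μ.range = ⨆ j, F.A j := Subgroup.noncommPiCoprod_range
  have hXS : ∀ j, ∀ x ∈ (⊤ : Subgroup G), ∃ s ∈ F.A j,
      ∃ c ∈ Subgroup.centralizer (F.A j : Set G), x = s * c := by
    intro j x hx
    have h1 : (⊤ : Subgroup G) ≤ F.A j ⊔ Subgroup.centralizer (F.A j : Set G) := by
      refine hsup.symm.le.trans (hμ.le.trans ?_)
      refine iSup_le fun i => ?_
      by_cases hij : i = j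
      · subst hij; exact le_sup_left
      · refine le_trans (fun y hy => ?_) le_sup_right
        rw [Subgroup.mem_centralizer_iff]
        exact fun s hs => (F.comm i j hij y hy s hs).symm
    obtain ⟨s, hs, c, hc, h⟩ := mem_sup_of_commute
      (fun s hs c hc => Subgroup.mem_centralizer_iff.mp hc s hs) (h1 hx)
    exact ⟨s, hs, c, hc, h.symm⟩
  -- the blocks of the factors
  choose ε hε using fun j => exists_below (hAX j) (hXS j) hb hbb
  have hεE : ∀ (g : G) (j : Fin r), cj k G g (ε j) = ε (F.σ ⟨g, trivial⟩ j) := by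
    intro g j
    have h1 := (hε j).1.conj (hbF ⊤) g
    rw [show conjS g (F.A j) = F.A (F.σ ⟨g, trivial⟩ j) from Fam_conjS F ⟨g, trivial⟩ j] at h1
    exact h1.eq hb.ne_zero (hε _).1
  let F' : Fam G r P := F.res le_top
  have hstP : ∀ j, F'.st j ≤ P := F'.st_le
  have hnst : ∀ j, ∀ x ∈ F'.st j, ∀ s ∈ F.A j, x * s * x⁻¹ ∈ F.A j := by
    rintro j _ ⟨d, hd, rfl⟩ s hs
    have h1 := F'.conj d j s hs
    rw [hd] at h1
    exact h1
  have hAst : ∀ j, F.A j ⊓ P ≤ F'.st j := by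
    rintro j x ⟨hx, hxP⟩
    refine ⟨⟨x, hxP⟩, ?_, rfl⟩
    symm
    apply hinj
    intro s hs
    have h1 := F'.conj ⟨x, hxP⟩ j (x⁻¹ * s * x) ((F.A j).mul_mem ((F.A j).mul_mem
      ((F.A j).inv_mem hx) hs) hx)
    have h2 : x * (x⁻¹ * s * x) * x⁻¹ = s := by group
    change x * (x⁻¹ * s * x) * x⁻¹ ∈ _ at h1
    rwa [h2] at h1
  have hcor' : ∀ j, Cor C (F.A j) (F'.st j) (ε j) := by
    intro j
    obtain ⟨h1, h2, h3, h4⟩ := (hε j).1.exists_tr (hAX j) (hXS j) hP hb ha hba hbr hb hb.mem.2 hbb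
      (hstP j) (hAst j) (hnst j)
    exact hcor j _ (hstP j) (hnst j) _ (hε j).1.block h1 h2 h3
  have hprd : Fam.prd ε * b = b := prd_mul_eq fun j => (hε j).1.mul
  have hεS : ∀ j, ε j ∈ SubAlg k (F'.A j) := fun j => (hε j).1.block.mem.1
  have hεq : F'.Eqv ε := fun d j => hεE d j
  set w : MonoidAlgebra k G := br P b with hw
  obtain ⟨h, hhA, hhE, hhI, hhP, hhne⟩ := Fam.tame (F := F') hP (e := ε) hεS hεq
    (fun j => (hε j).1.block.idem.eq)
    (fun j f => Module.finrank k (NN (SubAlg k (F.A j)) (ε j * f) (ε j * f)) ≤ C)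
    (by
      intro d j f hf
      change Module.finrank k (NN (SubAlg k (F.A (F'.σ d j))) _ _) ≤ C
      have h1 : ε (F'.σ d j) * cj k G (d : G) f = cj k G (d : G) (ε j * f) := by
        rw [map_mul]
        congr 1
        exact (hεq d j).symm
      rw [h1]
      have h2 : F.A (F'.σ d j) = conjS (d : G) (F.A j) := (Fam_conjS F' d j).symm
      rw [h2, finrank_NN_conj]
      exact hf)
    (fun j => by
      obtain ⟨m, f, hf, hfs⟩ := hcor' j
      exact ⟨m, f, fun l => ⟨(hf l).1, (hf l).2.1, (hf l).2.2.1, (hf l).2.2.2⟩, hfs⟩)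
    (w := w)
    (by
      intro x hx
      have hxP : x ∈ SubAlg k (Subgroup.centralizer (P : Set G)) := SubAlg_mono inf_le_right hx
      have hxF : x ∈ Fix (cj k G) P := H365.fix_of_cent hxP
      rw [hw, ← br_of_cent hxP, ← br_mul hP hxF (hbF P), ← br_mul hP (hbF P) hxF, hbc x])
    (by
      rw [hw, ← br_mul hP (hbF P) (F'.prd_fix hεS hεq), ← hbc, hprd]
      exact hbr)
  -- the idempotent
  have hHP : Fam.prd h ∈ Fix (cj k G) P := F'.prd_fix hhA hhE
  have hHH : Fam.prd h * Fam.prd h = Fam.prd h := by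
    rw [F'.prd_mul hhA hhA]
    congr 1
    funext j
    exact hhI j
  set f : MonoidAlgebra k G := Fam.prd h with hf
  have hfb' : br P (f * b) ≠ 0 := by
    rw [hbc, br_mul hP (hbF P) hHP]
    exact hhne
  have hεX : ∀ j, ε j ∈ Fix (cj k G) ⊤ := fun j => (hε j).2.1
  have hE₁X : Fam.prd ε ∈ Fix (cj k G) ⊤ := by
    refine Subalgebra.list_prod_mem _ fun x hx => ?_
    obtain ⟨j, -, rfl⟩ := List.mem_map.mp hx
    exact hεX j
  have hE₁f : Fam.prd ε * f = f * Fam.prd ε := (commute_of_mem (SubAlg_top f) hE₁X).symm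
  have hGA : ∀ j, ε j * h j ∈ SubAlg k (F.A j) := fun j =>
    Subalgebra.mul_mem _ (hεS j) (hhA j)
  have hGI : ∀ j, (ε j * h j) * (ε j * h j) = ε j * h j := by
    intro j
    have h1 : h j * ε j = ε j * h j := commute_of_mem (hhA j) (hε j).1.block.mem.2
    rw [mul_assoc, ← mul_assoc (h j), h1, mul_assoc (ε j) (h j), hhI, ← mul_assoc,
      (hε j).1.block.idem.eq]
  have hG₁ : Fam.prd (fun j => ε j * h j) = Fam.prd ε * Fam.prd h := (F'.prd_mul hεS hhA).symm
  obtain ⟨hl1, hl2, hl3⟩ := finrank_NN_list F.A F.comm (fun j => ε j * h j) hGI hGA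
    (List.finRange r) (List.nodup_finRange r)
  have hsup' : (⨆ i ∈ List.finRange r, F.A i) = ⊤ := by
    refine Eq.trans ?_ (hμ.symm.trans hsup)
    refine le_antisymm (iSup₂_le fun i _ => le_iSup F.A i) (iSup_le fun i => ?_)
    exact le_iSup₂ (f := fun i (_ : i ∈ List.finRange r) => F.A i) i (List.mem_finRange i)
  rw [hsup'] at hl2 hl3
  refine ⟨b * f, Subalgebra.mul_mem _ (hbF P) hHP, ?_, ?_, ?_, ?_⟩
  · rw [mul_assoc, ← mul_assoc f, hbc, mul_assoc b f, hHH, ← mul_assoc, hbb]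
  · rw [← mul_assoc, hbb]
  · rw [← hbc]
    exact hfb'
  · have h3 : NN (SubAlg k (⊤ : Subgroup G)) (b * f) (b * f) ≤ NN (SubAlg k (⊤ : Subgroup G))
        (Fam.prd (fun j => ε j * h j)) (Fam.prd (fun j => ε j * h j)) := by
      rw [hG₁]
      apply NN_le
      · calc Fam.prd ε * f * (b * f) = Fam.prd ε * (f * b) * f := by simp only [mul_assoc]
          _ = (Fam.prd ε * b) * (f * f) := by rw [hbc]; simp only [mul_assoc]
          _ = _ := by rw [hprd, hHH]
      · calc b * f * (Fam.prd ε * f) = b * (f * Fam.prd ε) * f := by simp only [mul_assoc]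
          _ = b * Fam.prd ε * (f * f) := by rw [← hE₁f]; simp only [mul_assoc]
          _ = _ := by rw [← hbc, hprd, hHH]
    refine (Submodule.finrank_mono h3).trans (hl3.trans ?_)
    refine (List.prod_le_pow_card _ C ?_).trans (by simp)
    intro x hx
    obtain ⟨j, -, rfl⟩ := List.mem_map.mp hx
    exact hhP j

end Loc

end Vale.Agent.P180.R2.H954.Hc
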