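import Vale.Agent.P180.R2.H954.Hc4b
import Vale.Agent.P180.R2.H954.Hc4c
import Vale.Agent.P180.R2.H954.U1a
import Vale.Agent.P180.R2.H259.Cyc.Final

/-!
P180: small corners in a subgroup `L` containing `C_G(Q)` which is, up to a bounded index and central
`p'`-elements, a central product of groups with small corners.
-/

set_option linter.all false

namespace Vale.Agent.P180.R2.H954.Hc

open Vale.Agent.P180 Vale.Agent.P180.H768.Gd Vale.Agent.P180.R2.H799
  Vale.Agent.P180.R2.H12 Vale.Agent.P180.R2.H47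

universe u

section

variable {k : Type u} [Field k] [IsAlgClosed k] {p : ℕ} [Fact p.Prime] [CharP k p]

/-- Small corners in the central product. -/
theorem exists_X {G : Type} [Group G] [Finite G] {C r : ℕ} {Q X : Subgroup G}
    {A : Fin r → Subgroup G} (hQ : IsPGroup p Q) (hX : X = ⨆ j, A j) (hQX : Q ≤ X)
    (hAn : ∀ j, ∀ g ∈ X, ∀ h ∈ A j, g * h * g⁻¹ ∈ A j)
    (hcomm : ∀ i j, i ≠ j → ∀ g ∈ A i, ∀ h ∈ A j, g * h = h * g)
    (hinf : ∀ i j, i ≠ j → ∀ g ∈ A i, g ∈ A j → g = 1)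
    (hcb : ∀ (H : Type) [Group H] [Finite H] (R : Subgroup H) (φ : H →* G) (j : Fin r),
      Function.Injective φ → φ.range = A j → R.map φ ≤ Q → CornerBd k R C)
    {g a : MonoidAlgebra k G} (hg : IsBlockOf X g) (haX : a ∈ SubAlg k X)
    (ha : a ∈ Fix (cj k G) Q) (hga : g = tr (cj k G) Q X a) (hbr : br Q g ≠ 0) :
    ∃ f ∈ SubAlg k X, f ∈ Fix (cj k G) Q ∧ f * f = f ∧ g * f = f ∧ br Q f ≠ 0 ∧
      Module.finrank k (NN (SubAlg k X) f f) ≤ (max 1 C) ^ r := by
  classical
  -- transport to the type `X`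
  obtain ⟨g', rfl⟩ := exists_incl X hg.mem.1
  obtain ⟨a', rfl⟩ := exists_incl X haX
  set Q' : Subgroup X := Q.subgroupOf X with hQ'
  have hmap : Q'.map X.subtype = Q := Subgroup.map_subgroupOf_eq_of_le hQX
  have hQ'p : IsPGroup p Q' := hQ.comap_of_injective X.subtype X.subtype_injective
  have ha'F : a' ∈ Fix (cj k X) Q' := by rw [← incl_mem_Fix_iff, hmap]; exact ha
  have hg' : IsBlockOf (⊤ : Subgroup X) g' := by
    unfold IsBlockOf
    rw [ZAlg_top]
    exact (isBlockOf_incl_iff X g').mp hg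
  have hg'a : g' = tr (cj k X) Q' ⊤ a' := by
    apply incl_injective (k := k) X
    rw [incl_tr X Q' ha'F, hmap]
    exact hga
  -- the Brauer map
  have hbrX : ∀ y : MonoidAlgebra k X, br Q' y = 0 ↔ br Q (incl k X y) = 0 := by
    intro y
    constructor
    · intro hy
      apply MonoidAlgebra.coeff_injective
      ext x
      rw [br_coeff]
      split_ifs with hx
      · by_cases hxS : x ∈ X
        · have h2 : (incl k X y).coeff x = y.coeff ⟨x, hxS⟩ := H799.incl_coeff X y ⟨x, hxS⟩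
          have h3 : (br Q' y).coeff ⟨x, hxS⟩ = y.coeff ⟨x, hxS⟩ := by
            rw [br_coeff, if_pos]
            rw [mem_cent]
            intro d hd
            apply Subtype.ext
            exact mem_cent.mp hx d hd
          rw [h2, ← h3, hy]
          rfl
        · rw [SubAlg_coeff (incl_mem X y) hxS]
          rfl
      · rfl
    · intro hy
      apply MonoidAlgebra.coeff_injective
      ext x
      rw [br_coeff]
      split_ifs with hx
      · have h2 : (incl k X y).coeff (x : G) = y.coeff x := H799.incl_coeff X y x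
        have h3 : (br Q (incl k X y)).coeff (x : G) = (incl k X y).coeff (x : G) := by
          rw [br_coeff, if_pos]
          rw [mem_cent]
          intro d hd
          exact congrArg Subtype.val (mem_cent.mp hx ⟨d, hQX hd⟩ hd)
        rw [← h2, ← h3, hy]
        rfl
      · rfl
  have hbr' : br Q' g' ≠ 0 := fun h => hbr ((hbrX g').mp h)
  -- the family
  let T := {j : Fin r // A j ≠ ⊥}
  let eqv := Fintype.equivFin T
  have hTr : Fintype.card T ≤ r := by
    have h1 := Fintype.card_subtype_le (fun j : Fin r => A j ≠ ⊥)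
    rwa [Fintype.card_fin] at h1
  have hAX : ∀ j, A j ≤ X := fun j => hX ▸ le_iSup A j
  let B : Fin (Fintype.card T) → Subgroup X := fun i => (A (eqv.symm i).1).subgroupOf X
  have hBmap : ∀ i, (B i).map X.subtype = A (eqv.symm i).1 := fun i =>
    Subgroup.map_subgroupOf_eq_of_le (hAX _)
  have hidx : ∀ i j, i ≠ j → (eqv.symm i).1 ≠ (eqv.symm j).1 := by
    intro i j hij h
    exact hij (eqv.symm.injective (Subtype.ext h))
  let F : Fam X (Fintype.card T) ⊤ :=
    { A := B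
      σ := 1
      comm := fun i j hij x hx y hy => Subtype.ext (hcomm _ _ (hidx i j hij) x hx y hy)
      conj := fun g j x hx => hAn _ _ (g : X).2 x hx }
  have hFA : ∀ i, F.A i = B i := fun _ => rfl
  have hsupB : (⨆ i, B i) = ⊤ := by
    apply Subgroup.map_injective X.subtype_injective
    rw [Subgroup.map_iSup, ← MonoidHom.range_eq_map, Subgroup.range_subtype]
    rw [iSup_congr hBmap]
    apply le_antisymm (iSup_le fun i => hAX _)
    conv_lhs => rw [hX]
    refine iSup_le fun j => ?_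
    by_cases hj : A j = ⊥
    · rw [hj]; exact bot_le
    · have h1 := le_iSup (fun i => A (eqv.symm i).1) (eqv ⟨j, hj⟩)
      simp only [Equiv.symm_apply_apply] at h1
      exact h1
  have hμ : F.μ.range = ⨆ j, F.A j := Subgroup.noncommPiCoprod_range
  have hsup : F.μ.range = ⊤ := hμ.trans hsupB
  have hinj : ∀ i j, F.A i ≤ F.A j → i = j := by
    intro i j hij
    by_contra hne
    apply (eqv.symm i).2
    rw [Subgroup.eq_bot_iff_forall]
    intro x hx
    refine hinf _ _ (hidx i j hne) x hx ?_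
    exact hij (x := (⟨x, hAX _ hx⟩ : X)) hx
  have hin : ∀ j, ∀ x : X, ∃ s ∈ F.A j, ∃ c ∈ Subgroup.centralizer (F.A j : Set X), x = s * c := by
    intro j x
    have h1 : (⊤ : Subgroup X) ≤ F.A j ⊔ Subgroup.centralizer (F.A j : Set X) := by
      refine hsup.symm.le.trans (hμ.le.trans ?_)
      refine iSup_le fun i => ?_
      by_cases hij : i = j
      · subst hij; exact le_sup_left
      · refine le_trans (fun y hy => ?_) le_sup_right
        rw [Subgroup.mem_centralizer_iff]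
        exact fun s hs => (F.comm i j hij y hy s hs).symm
    obtain ⟨s, hs, c, hc, h⟩ := mem_sup_of_commute
      (fun s hs c hc => Subgroup.mem_centralizer_iff.mp hc s hs) (h1 (Subgroup.mem_top x))
    exact ⟨s, hs, c, hc, h.symm⟩
  obtain ⟨f', hf'F, hf'f', hgf', hbrf', hfr⟩ := loc_dir (C := max 1 C) F hsup hinj hg' hQ'p ha'F
    hg'a hbr' (by
      intro j R hR hRn e he heR hbre hz
      obtain ⟨z, hz, hzF, hez⟩ := hz
      refine cor_of_corner (hQ'p.to_le hR) (fun r _ => hin j r) he hbre hz hzF hez ?_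
      have h1 : CornerBd k (R.subgroupOf (F.A j)) C := by
        refine hcb (F.A j) (R.subgroupOf (F.A j)) (X.subtype.comp (F.A j).subtype)
          (eqv.symm j).1 ?_ ?_ ?_
        · exact X.subtype_injective.comp (F.A j).subtype_injective
        · rw [MonoidHom.range_comp, Subgroup.range_subtype]
          exact hBmap j
        · rintro _ ⟨x, hx, rfl⟩
          have h2 : ((x : F.A j) : X) ∈ Q' := hR (Subgroup.mem_subgroupOf.mp hx)
          exact h2
      intro e' a'' i he' ha' hea' hi hei hbri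
      exact (h1 e' a'' i he' ha' hea' hi hei hbri).trans (le_max_right _ _))
  refine ⟨incl k X f', incl_mem X f', ?_, ?_, ?_, ?_, ?_⟩
  · rw [← hmap]; exact (incl_mem_Fix_iff X Q' f').mpr hf'F
  · rw [← map_mul, hf'f']
  · rw [← map_mul, hgf']
  · exact fun h => hbrf' ((hbrX f').mpr h)
  · have h1 := finrank_NN_hom (k := k) (φ := X.subtype) X.subtype_injective f' f'
    rw [Subgroup.range_subtype] at h1
    have h2 : Module.finrank k (NN (SubAlg k X) (incl k X f') (incl k X f')) =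
      Module.finrank k (NN (⊤ : Subalgebra k (MonoidAlgebra k X)) f' f') := h1
    have h3 : (⊤ : Subalgebra k (MonoidAlgebra k X)) = SubAlg k (⊤ : Subgroup X) := by
      symm
      rw [eq_top_iff]
      intro x _
      exact SubAlg_top x
    rw [h2, h3]
    exact hfr.trans (Nat.pow_le_pow_right (Nat.lt_of_lt_of_le Nat.one_pos (le_max_left 1 C)) hTr)

/-- **(HC4)** -/
theorem exists_j_gen {G : Type} [Group G] [Finite G] {C β r : ℕ} {Q L Z : Subgroup G}
    {A : Fin r → Subgroup G} (hQ : IsPGroup p Q) (hQX : Q ≤ ⨆ j, A j)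
    (hC : Subgroup.centralizer (Q : Set G) ≤ L) (hAL : ∀ j, A j ≤ L)
    (hAn : ∀ j, ∀ g ∈ L, ∀ h ∈ A j, g * h * g⁻¹ ∈ A j)
    (hcomm : ∀ i j, i ≠ j → ∀ g ∈ A i, ∀ h ∈ A j, g * h = h * g)
    (hinf : ∀ i j, i ≠ j → ∀ g ∈ A i, g ∈ A j → g = 1)
    (hcb : ∀ (H : Type) [Group H] [Finite H] (R : Subgroup H) (φ : H →* G) (j : Fin r),
      Function.Injective φ → φ.range = A j → R.map φ ≤ Q → CornerBd k R C)
    (hZL : Z ≤ L) (hZc : ∀ z ∈ Z, ∀ g ∈ L, z * g = g * z) (hZp : ¬ p ∣ Nat.card Z)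
    (hidx : (Z ⊔ ⨆ j, A j).relIndex L ≤ β)
    {e a : MonoidAlgebra k G} (hee : e * e = e) (ha : a ∈ Fix (cj k G) Q)
    (hea : e = tr (cj k G) Q ⊤ a) (hbr : br Q e ≠ 0) :
    ∃ j ∈ SubAlg k L, j ∈ Fix (cj k G) Q ∧ j * j = j ∧ br Q j * br Q e ≠ 0 ∧
      Module.finrank k (NN (SubAlg k L) j j) ≤ β * ((max 1 C) ^ r) ^ 2 := by
  classical
  set X : Subgroup G := ⨆ j, A j with hX
  have hXL : X ≤ L := iSup_le hAL
  have hnorm : ∀ x ∈ L, ∀ s ∈ X, x * s * x⁻¹ ∈ X := by
    intro x hx s hs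
    have h1 : X ≤ X.comap (MulAut.conj x).toMonoidHom := by
      conv_lhs => rw [hX]
      refine iSup_le fun j y hy => ?_
      exact (le_iSup A j) (hAn j x hx y hy)
    exact h1 hs
  have heT : e ∈ Fix (cj k G) ⊤ := by rw [hea]; exact tr_mem_Fix ha
  have heF : ∀ S : Subgroup G, e ∈ Fix (cj k G) S := fun S => Fix_mono _ le_top heT
  have hec : ∀ z : MonoidAlgebra k G, z * e = e * z := fun z =>
    commute_of_mem (SubAlg_top z) heT
  have hcomme : ∀ y ∈ Fix (cj k G) Q, br Q y * br Q e = br Q e * br Q y := by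
    intro y hy
    rw [← br_mul hQ hy (heF Q), ← br_mul hQ (heF Q) hy, hec]
  -- the block of `L`
  obtain ⟨f, hf, hfe⟩ := exists_br_block (L := L) (Q := Q) hbr
  obtain ⟨z, hzL, hzF, hfz⟩ := block_of_sub hQ (hQX.trans hXL) hC hee ha hea hf hfe
  -- the block of `X`
  obtain ⟨g, hg, hgfe⟩ := exists_br_block (L := X) (Q := Q) hfe
  have hgf : br Q g * br Q f ≠ 0 := by
    intro h
    apply hgfe
    rw [← mul_assoc, h, zero_mul]
  obtain ⟨w₀, hw₀X, hw₀F, hgw₀⟩ := block_of_normal hQ hQX hXL hnorm hf hzL hzF hfz hg hgf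
  have hbrg : br Q g ≠ 0 := by
    intro h
    apply hgf
    rw [h, zero_mul]
  have hgF : g ∈ Fix (cj k G) Q := Fix_mono _ hQX hg.mem.2
  have hfF : f ∈ Fix (cj k G) Q := Fix_mono _ (hQX.trans hXL) hf.mem.2
  have hge : br Q g * br Q e ≠ 0 := by
    intro h
    apply hgfe
    rw [hcomme f hfF, ← mul_assoc, h, zero_mul]
  obtain ⟨j, hjX, hjF, hjj, hgj, hbrj, hjn⟩ := exists_X (k := k) hQ hX hQX
    (fun j g hg h hh => hAn j g (hXL hg) h hh) hcomm hinf hcb hg hw₀X hw₀F hgw₀ hbrg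
  -- fullness
  have hjg : j * g = j := by
    rw [commute_of_mem hjX hg.mem.2, hgj]
  obtain ⟨w, hwX, hwF, -, hgw⟩ := gen_sub hQX hQ hg hw₀X hw₀F hgw₀ hjX hjF hjj
    (by rw [hjg]; exact hbrj)
  have hje : br Q j * br Q e ≠ 0 := by
    intro h
    apply hge
    have h1 : br Q g = tr (cj k G) Q (X ⊓ Subgroup.normalizer (Q : Set G)) (br Q j * br Q w) := by
      rw [← br_mul hQ hjF hwF, ← br_tr_rel hQ hQX (Subalgebra.mul_mem _ hjF hwF)]
      exact congrArg (br Q) hgw
    have h2 : br Q e ∈ Fix (cj k G) (X ⊓ Subgroup.normalizer (Q : Set G)) :=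
      Fix_mono _ inf_le_right (br_fix_of_le le_rfl (heF _))
    rw [h1, tr_mul h2, mul_assoc, hcomme w hwF, ← mul_assoc, h, zero_mul]
    have _ := Fintype.ofFinite ((X ⊓ Subgroup.normalizer (Q : Set G) : Subgroup G) ⧸
      Q.subgroupOf (X ⊓ Subgroup.normalizer (Q : Set G)))
    rw [tr_def]
    exact Finset.sum_eq_zero fun q _ => map_zero _
  obtain ⟨f', hf', hf'je⟩ := exists_br_block (L := L) (Q := Q) hje
  have hjL : j ∈ SubAlg k L := SubAlg_mono hXL hjX
  have hf'j : f' * j = j * f' := (commute_of_mem hjL hf'.mem.2).symm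
  have hf'F : f' ∈ Fix (cj k G) Q := Fix_mono _ (hQX.trans hXL) hf'.mem.2
  refine ⟨f' * j, Subalgebra.mul_mem _ hf'.mem.1 hjL, Subalgebra.mul_mem _ hf'F hjF, ?_, ?_, ?_⟩
  · calc f' * j * (f' * j) = f' * (j * f') * j := by simp only [mul_assoc]
      _ = (f' * f') * (j * j) := by rw [← hf'j]; simp only [mul_assoc]
      _ = _ := by rw [hf'.idem.eq, hjj]
  · rw [br_mul hQ hf'F hjF, mul_assoc]
    exact hf'je
  · have h1 := finrank_rel_le (b := f') (e := g) (f := j) hXL hnorm hZL hZc hf'.idem.eq hf'.mem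
      (fun z hz => central_smul_rel hf' hZL hZc hZp hz) hidx hg hjj hjX hgj
      (by rw [hgw]; exact tr_mem_span hwX) hjn
    rwa [← sq] at h1

/-- **(HC4)** for cyclic intersections. -/
theorem exists_j {G : Type} [Group G] [Finite G] {n β r : ℕ} {Q L Z : Subgroup G}
    {A : Fin r → Subgroup G} (hQ : IsPGroup p Q) (hQn : Nat.card Q ≤ n) (hQX : Q ≤ ⨆ j, A j)
    (hC : Subgroup.centralizer (Q : Set G) ≤ L) (hAL : ∀ j, A j ≤ L)
    (hAn : ∀ j, ∀ g ∈ L, ∀ h ∈ A j, g * h * g⁻¹ ∈ A j)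
    (hcomm : ∀ i j, i ≠ j → ∀ g ∈ A i, ∀ h ∈ A j, g * h = h * g)
    (hinf : ∀ i j, i ≠ j → ∀ g ∈ A i, g ∈ A j → g = 1)
    (hcyc : ∀ j, IsCyclic (Q ⊓ A j : Subgroup G))
    (hZL : Z ≤ L) (hZc : ∀ z ∈ Z, ∀ g ∈ L, z * g = g * z) (hZp : ¬ p ∣ Nat.card Z)
    (hidx : (Z ⊔ ⨆ j, A j).relIndex L ≤ β)
    {e a : MonoidAlgebra k G} (hee : e * e = e) (ha : a ∈ Fix (cj k G) Q)
    (hea : e = tr (cj k G) Q ⊤ a) (hbr : br Q e ≠ 0) :
    ∃ j ∈ SubAlg k L, j ∈ Fix (cj k G) Q ∧ j * j = j ∧ br Q j * br Q e ≠ 0 ∧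
      Module.finrank k (NN (SubAlg k L) j j) ≤ β * ((max 1 (H259.Cyc.cycB p n)) ^ r) ^ 2 := by
  refine exists_j_gen hQ hQX hC hAL hAn hcomm hinf ?_ hZL hZc hZp hidx hee ha hea hbr
  intro H _ _ R φ j hφ hφr hRQ
  have hRp : IsPGroup p R := by
    intro x
    obtain ⟨m, hm⟩ := hQ ⟨φ x, hRQ ⟨x, x.2, rfl⟩⟩
    refine ⟨m, ?_⟩
    have h1 : φ ((x : H) ^ p ^ m) = 1 := by
      rw [map_pow]
      exact congrArg Subtype.val hm
    apply Subtype.ext
    exact hφ (h1.trans (map_one φ).symm)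
  have hle : R.map φ ≤ Q ⊓ A j := by
    refine le_inf hRQ ?_
    rw [← hφr]
    rintro _ ⟨x, -, rfl⟩
    exact ⟨x, rfl⟩
  have hcj := hcyc j
  have hRc : IsCyclic R := by
    have h1 : IsCyclic (R.map φ) :=
      isCyclic_of_injective (Subgroup.inclusion hle) (Subgroup.inclusion_injective hle)
    exact isCyclic_of_injective (R.equivMapOfInjective φ hφ).toMonoidHom (MulEquiv.injective _)
  have hRn : Nat.card R ≤ n := by
    rw [Nat.card_congr (R.equivMapOfInjective φ hφ).toEquiv]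
    exact (Nat.card_le_card_of_injective _ (Subgroup.inclusion_injective hRQ)).trans hQn
  intro e' a' i he' ha' hea' hi hei hbri
  exact (H259.Cyc.cyclic_corner hRp hRc he' ha' hea' hi hei hbri).trans
    (H259.Cyc.cycB_mono hRn)

end

end Vale.Agent.P180.R2.H954.Hc
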