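import Vale.Agent.P180.R2.H954.Hf6

/-!
P180: linear primes: the field automorphism of the form fixes the roots of unity of `p`-power order;
the `p`-elements of the stabiliser of a selfdual decomposition lie in the product of the full
factors.
-/

set_option linter.all false

namespace Vale.Agent.P180.R2.H954.Hc

open Module Vale.Agent.P180.R2.H854

section Root

variable {K : Type} [Field K] [Finite K]

theorem ringChar_prime : (ringChar K).Prime := by
  rcases CharP.char_is_prime_or_zero K (ringChar K) with h | h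
  · exact h
  · exfalso
    have g1 : CharZero K := by
      have := ringChar.charP K
      rw [h] at this
      exact CharP.charP_to_charZero K
    exact (not_finite K).elim

theorem ringChar_dvd_card : ringChar K ∣ Nat.card K := by
  have h1 := ringChar.charP K
  refine (CharP.cast_eq_zero_iff K (ringChar K) (Nat.card K)).mp ?_
  have := Fintype.ofFinite K
  rw [Nat.card_eq_fintype_card]
  exact FiniteField.cast_card_eq_zero K

/-- A linear prime fixes the roots of unity of `p`-power order. -/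
theorem theta_fix {p : ℕ} (hp : p.Prime) (θ : K →+* K) (hθ : ∀ c, θ (θ c) = c)
    (hlin : ∀ j : ℕ, (∀ c : K, θ c = c ^ (ringChar K ^ j)) → ¬ p ∣ ringChar K ^ j + 1)
    {c : K} {m : ℕ} (hc : c ^ p ^ m = 1) : θ c = c := by
  have hchar : CharP K (ringChar K) := ringChar.charP K
  have : Fact (ringChar K).Prime := ⟨ringChar_prime⟩
  obtain ⟨j, hj⟩ := exists_frob (r := ringChar K) θ
  have hc0 : c ≠ 0 := by
    rintro rfl
    rw [zero_pow (pow_ne_zero _ hp.ne_zero)] at hc
    exact zero_ne_one hc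
  have hθc0 : θ c ≠ 0 := (map_ne_zero θ).mpr hc0
  set u := θ c * c⁻¹ with hu
  have hu1 : θ u * u = 1 := by
    rw [hu, map_mul, map_inv₀, hθ]
    field_simp
  have hu2 : u ^ (ringChar K ^ j + 1) = 1 := by
    rw [pow_succ, ← hj, hu1]
  have hu3 : u ^ (p ^ m) = 1 := by
    rw [hu, mul_pow, inv_pow, ← map_pow, hc, map_one, inv_one, one_mul]
  have g1 : orderOf u = 1 := by
    refine Nat.eq_one_of_dvd_coprimes (a := p ^ m) (b := ringChar K ^ j + 1) ?_
      (orderOf_dvd_of_pow_eq_one hu3) (orderOf_dvd_of_pow_eq_one hu2)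
    exact Nat.Coprime.pow_left _ ((Nat.Prime.coprime_iff_not_dvd hp).mpr (hlin j hj))
  have g2 : u = 1 := orderOf_eq_one_iff.mp g1
  rw [hu] at g2
  field_simp at g2
  exact g2

/-- A linear prime is odd. -/
theorem odd_of_lin {p : ℕ} (hp : p.Prime) (hK : ¬ p ∣ Nat.card K) (θ : K →+* K)
    (hlin : ∀ j : ℕ, (∀ c : K, θ c = c ^ (ringChar K ^ j)) → ¬ p ∣ ringChar K ^ j + 1) :
    Odd p := by
  rcases hp.eq_two_or_odd' with h | h
  · exfalso
    subst h
    have hchar : CharP K (ringChar K) := ringChar.charP K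
    have : Fact (ringChar K).Prime := ⟨ringChar_prime⟩
    obtain ⟨j, hj⟩ := exists_frob (r := ringChar K) θ
    have h1 : ringChar K ≠ 2 := by
      intro h2
      have h3 := ringChar_dvd_card (K := K)
      rw [h2] at h3
      exact hK h3
    have h2 : Odd (ringChar K) := (ringChar_prime (K := K)).odd_of_ne_two h1
    exact hlin j hj (h2.pow.add_odd odd_one).two_dvd
  · exact h

/-- `c θ(c) = 1` and `c` of `p`-power order imply `c = 1`. -/
theorem eq_one_of_norm {p : ℕ} (hp : p.Prime) (hK : ¬ p ∣ Nat.card K) (θ : K →+* K)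
    (hθ : ∀ c, θ (θ c) = c)
    (hlin : ∀ j : ℕ, (∀ c : K, θ c = c ^ (ringChar K ^ j)) → ¬ p ∣ ringChar K ^ j + 1)
    {c : K} {m : ℕ} (hc : c ^ p ^ m = 1) (hn : c * θ c = 1) : c = 1 := by
  rw [theta_fix hp θ hθ hlin hc, ← sq] at hn
  have hodd : Odd (p ^ m) := (odd_of_lin hp hK θ hlin).pow
  have h1 : orderOf c = 1 := by
    refine Nat.eq_one_of_dvd_coprimes (a := 2) (b := p ^ m) ?_
      (orderOf_dvd_of_pow_eq_one hn) (orderOf_dvd_of_pow_eq_one hc)
    exact (Nat.coprime_two_left).mpr hodd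
  exact orderOf_eq_one_iff.mp h1

end Root

section Gen

variable {G : Type*} [Group G]

/-- The `p'`-part of a commutative subgroup. -/
theorem exists_pprime [Finite G] {p : ℕ} (hp : p.Prime) {Z : Subgroup G}
    (hZ : ∀ x ∈ Z, ∀ y ∈ Z, x * y = y * x) :
    ∃ Z' : Subgroup G, Z' ≤ Z ∧ ¬ p ∣ Nat.card Z' ∧
      ∀ z ∈ Z, ∃ x ∈ Z', ∃ y ∈ Z, ∃ m : ℕ, y ^ p ^ m = 1 ∧ z = x * y := by
  classical
  have hpF : Fact p.Prime := ⟨hp⟩
  set N := Nat.card Z with hN
  have hN0 : N ≠ 0 := Nat.card_pos.ne'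
  set a := N.factorization p with ha
  set m' := N / p ^ a with hm'
  have hmul : p ^ a * m' = N := Nat.ordProj_mul_ordCompl_eq_self N p
  have hcop : ¬ p ∣ m' := Nat.not_dvd_ordCompl hp hN0
  let Z' : Subgroup G :=
    { carrier := {z | z ∈ Z ∧ z ^ m' = 1}
      one_mem' := ⟨Z.one_mem, one_pow _⟩
      mul_mem' := by
        rintro x y ⟨hx, hx1⟩ ⟨hy, hy1⟩
        refine ⟨Z.mul_mem hx hy, ?_⟩
        have h1 : Commute x y := hZ x hx y hy
        rw [h1.mul_pow, hx1, hy1, one_mul]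
      inv_mem' := by
        rintro x ⟨hx, hx1⟩
        exact ⟨Z.inv_mem hx, by rw [inv_pow, hx1, inv_one]⟩ }
  refine ⟨Z', fun x hx => hx.1, ?_, ?_⟩
  · intro h
    obtain ⟨x, hx⟩ := exists_prime_orderOf_dvd_card' (G := Z') p h
    have h1 : x ^ m' = 1 := Subtype.ext x.2.2
    apply hcop
    rw [← hx]
    exact orderOf_dvd_of_pow_eq_one h1
  · intro z hz
    have hzN : z ^ (p ^ a * m') = 1 := by
      rw [hmul, hN]
      have h4 : (⟨z, hz⟩ : Z) ^ Nat.card Z = 1 := pow_card_eq_one'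
      exact congrArg Subtype.val h4
    have hg : Nat.Coprime (p ^ a) m' :=
      Nat.Coprime.pow_left _ ((Nat.Prime.coprime_iff_not_dvd hp).mpr hcop)
    have hb := Nat.gcd_eq_gcd_ab (p ^ a) m'
    rw [Nat.Coprime.gcd_eq_one hg] at hb
    set s := (p ^ a).gcdA m' with hs
    set t := (p ^ a).gcdB m' with ht
    refine ⟨z ^ ((p ^ a : ℕ) * s : ℤ), ⟨Z.zpow_mem hz _, ?_⟩, z ^ ((m' : ℤ) * t), Z.zpow_mem hz _,
      a, ?_, ?_⟩
    · rw [← zpow_natCast, ← zpow_mul]
      have e : ((p ^ a : ℕ) * s : ℤ) * (m' : ℤ) = ((p ^ a * m' : ℕ) : ℤ) * s := by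
        push_cast; ring
      rw [e, zpow_mul, zpow_natCast, hzN, one_zpow]
    · rw [← zpow_natCast, ← zpow_mul]
      have e : (m' : ℤ) * t * ((p ^ a : ℕ) : ℤ) = ((p ^ a * m' : ℕ) : ℤ) * t := by
        push_cast; ring
      rw [e, zpow_mul, zpow_natCast, hzN, one_zpow]
    · rw [← zpow_add, ← hb, Nat.cast_one, zpow_one]

end Gen

variable {K E : Type} [Field K] [AddCommGroup E] [Module K E] [FiniteDimensional K E] [Finite K]

namespace SDec

variable {Φ : HForm K E} {Q : Subgroup (SpecialLinearGroup K E)} {D : SDec Φ Q}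

open Dec

variable (D) in
/-- The full factors. -/
def B (i : Fin D.r) : Subgroup (SpecialLinearGroup K E) where
  carrier := {g | g ∈ D.L ∧ (∀ j, j ≠ i → j ≠ Fin.rev i → toEnd g * D.e j = D.e j) ∧
    (Fin.rev i < i → g = 1)}
  one_mem' := ⟨D.L.one_mem, fun j _ _ => by rw [toEnd_one, one_mul], fun _ => rfl⟩
  mul_mem' := by
    rintro g h ⟨hg, hg1, hg3⟩ ⟨hh, hh1, hh3⟩
    refine ⟨D.L.mul_mem hg hh, fun j hj hj' => ?_, fun hi => ?_⟩
    · rw [toEnd_mul, mul_assoc, hh1 j hj hj', hg1 j hj hj']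
    · rw [hg3 hi, hh3 hi, one_mul]
  inv_mem' := by
    rintro g ⟨hg, hg1, hg3⟩
    refine ⟨D.L.inv_mem hg, fun j hj hj' => ?_, fun hi => ?_⟩
    · conv_lhs => rw [← hg1 j hj hj', ← mul_assoc, toEnd_inv_mul, one_mul]
    · rw [hg3 hi, inv_one]

theorem A_le_B (i : Fin D.r) : D.A i ≤ D.B i := fun _ h => ⟨h.1, h.2.1, h.2.2.2⟩

theorem B_le_L (i : Fin D.r) : D.B i ≤ D.L := fun _ h => h.1

theorem B_conj {i : Fin D.r} {g h : SpecialLinearGroup K E} (hg : g ∈ D.L) (hh : h ∈ D.B i) :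
    g * h * g⁻¹ ∈ D.B i := by
  obtain ⟨hh0, hh1, hh3⟩ := hh
  have hgi := D.L.inv_mem hg
  refine ⟨D.L.mul_mem (D.L.mul_mem hg hh0) hgi, fun j hj hj' => ?_, fun hi => ?_⟩
  · rw [toEnd_mul, toEnd_mul, mul_assoc, hgi.1 j, mul_assoc, ← mul_assoc (toEnd h),
      hh1 j hj hj', ← hgi.1 j, ← mul_assoc, toEnd_mul_inv, one_mul]
  · rw [hh3 hi, mul_one, mul_inv_cancel]

theorem B_comm {i j : Fin D.r} (hij : i ≠ j) {g h : SpecialLinearGroup K E} (hg : g ∈ D.B i)
    (hh : h ∈ D.B j) : g * h = h * g := by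
  obtain ⟨hg0, hg1, hg3⟩ := hg
  obtain ⟨hh0, hh1, hh3⟩ := hh
  by_cases hi : Fin.rev i < i
  · rw [hg3 hi, one_mul, mul_one]
  by_cases hj : Fin.rev j < j
  · rw [hh3 hj, one_mul, mul_one]
  apply toEnd_injective
  rw [toEnd_mul, toEnd_mul]
  apply ext_e (D := D.toDec)
  intro l
  by_cases hl : l = i ∨ l = Fin.rev i
  · obtain ⟨h1, h2⟩ := disj hij hi hj hl
    have h3 : toEnd h * D.e l = D.e l := hh1 l h1 h2
    calc toEnd g * toEnd h * D.e l = toEnd g * D.e l := by rw [mul_assoc, h3]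
      _ = D.e l * toEnd g := hg0.1 l
      _ = toEnd h * D.e l * toEnd g := by rw [h3]
      _ = _ := by rw [mul_assoc, ← hg0.1 l, mul_assoc]
  · push Not at hl
    have h1 : toEnd g * D.e l = D.e l := hg1 l hl.1 hl.2
    calc toEnd g * toEnd h * D.e l = toEnd g * (D.e l * toEnd h) := by rw [mul_assoc, hh0.1 l]
      _ = D.e l * toEnd h := by rw [← mul_assoc, h1]
      _ = toEnd h * (toEnd g * D.e l) := by rw [h1, hh0.1 l]
      _ = _ := by rw [mul_assoc]

theorem B_inf {i j : Fin D.r} (hij : i ≠ j) {g : SpecialLinearGroup K E} (hg : g ∈ D.B i)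
    (hh : g ∈ D.B j) : g = 1 := by
  obtain ⟨hg0, hg1, hg3⟩ := hg
  obtain ⟨hh0, hh1, hh3⟩ := hh
  by_cases hi : Fin.rev i < i
  · exact hg3 hi
  by_cases hj : Fin.rev j < j
  · exact hh3 hj
  apply toEnd_injective
  rw [toEnd_one]
  apply ext_e (D := D.toDec)
  intro l
  rw [one_mul]
  by_cases hl : l = i ∨ l = Fin.rev i
  · obtain ⟨h1, h2⟩ := disj hij hi hj hl
    exact hh1 l h1 h2
  · push Not at hl
    exact hg1 l hl.1 hl.2

theorem cyclic_inf_B (i : Fin D.r) : IsCyclic (Q ⊓ D.B i : Subgroup _) := by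
  obtain ⟨F, _, _, χ, hχ⟩ := D.cyc i
  let ψ : (Q ⊓ D.B i : Subgroup (SpecialLinearGroup K E)) →* Fˣ :=
    χ.comp (Subgroup.inclusion inf_le_left)
  have hinj : Function.Injective ψ := by
    rw [injective_iff_map_eq_one]
    intro g hg
    have h1 : toEnd (g : SpecialLinearGroup K E) * D.e i = D.e i := (hχ ⟨g, g.2.1⟩).mp hg
    obtain ⟨hg0, hg1, -⟩ := g.2.2
    apply Subtype.ext
    apply toEnd_injective
    change toEnd (g : SpecialLinearGroup K E) = toEnd 1
    rw [toEnd_one]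
    apply ext_e (D := D.toDec)
    intro l
    rw [one_mul]
    by_cases hl : l = i
    · rw [hl]; exact h1
    by_cases hl' : l = Fin.rev i
    · rw [hl']; exact triv_rev hg0 h1
    exact hg1 l hl hl'
  exact isCyclic_of_injective ψ hinj

theorem mk_mem_B {g : SpecialLinearGroup K E} (hg : g ∈ D.L) {i : Fin D.r}
    (hi : ¬ Fin.rev i < i) (h : LinearMap.det (D.cp {i, Fin.rev i} g) = 1) :
    mkSL (D.cp {i, Fin.rev i} g) h ∈ D.B i := by
  refine ⟨mk_mem_L hg (pair_image i) h, fun j hj hj' => ?_, fun h' => absurd h' hi⟩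
  rw [toEnd_mkSL]
  refine cp_mul_e_of_notMem ?_ g
  rw [Finset.mem_insert, Finset.mem_singleton]
  push Not
  exact ⟨hj, hj'⟩

/-- An element whose components have determinant one and lie in a subgroup is a product of elements
of the full factors lying in this subgroup. -/
theorem mem_iSup_inf_B {g : SpecialLinearGroup K E} (hg : g ∈ D.L)
    (h : ∀ i, LinearMap.det (D.cp {i, Fin.rev i} g) = 1)
    (X : Subgroup (SpecialLinearGroup K E))
    (hX : ∀ i (h' : LinearMap.det (D.cp {i, Fin.rev i} g) = 1),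
      mkSL (D.cp {i, Fin.rev i} g) h' ∈ X) : g ∈ ⨆ i, (D.B i ⊓ X) := by
  classical
  have key : ∀ n : ℕ, n ≤ D.r → ∃ x ∈ ⨆ i, (D.B i ⊓ X),
      toEnd x = D.cp (Finset.univ.filter fun l : Fin D.r => l.1 < n ∨ (Fin.rev l).1 < n) g := by
    intro n
    induction n with
    | zero =>
      intro _
      refine ⟨1, Subgroup.one_mem _, ?_⟩
      have h1 : (Finset.univ.filter fun l : Fin D.r => l.1 < 0 ∨ (Fin.rev l).1 < 0) = ∅ := by
        ext l
        simp
      rw [h1, cp_empty, toEnd_one]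
    | succ n ih =>
      intro hn
      obtain ⟨x, hx, hxs⟩ := ih (by omega)
      let i : Fin D.r := ⟨n, by omega⟩
      by_cases hi : Fin.rev i < i
      · refine ⟨x, hx, ?_⟩
        rw [hxs]
        congr 1
        ext l
        rw [Finset.mem_filter, Finset.mem_filter]
        refine and_congr_right fun _ => ?_
        have h1 : (Fin.rev i).1 < n := hi
        rw [Fin.val_rev] at h1
        rw [Fin.val_rev]
        have h2 := l.2
        have h3 : i.1 = n := rfl
        omega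
      · have h1 : (Finset.univ.filter fun l : Fin D.r => l.1 < n + 1 ∨ (Fin.rev l).1 < n + 1) =
            {i, Fin.rev i} ∪ Finset.univ.filter fun l : Fin D.r => l.1 < n ∨ (Fin.rev l).1 < n := by
          ext l
          rw [Finset.mem_union, Finset.mem_filter, Finset.mem_filter, Finset.mem_insert,
            Finset.mem_singleton, Fin.ext_iff, Fin.ext_iff]
          have h2 := l.2
          have h3 : i.1 = n := rfl
          simp only [Finset.mem_univ, true_and, Fin.val_rev]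
          omega
        have h2 : Disjoint ({i, Fin.rev i} : Finset (Fin D.r))
            (Finset.univ.filter fun l : Fin D.r => l.1 < n ∨ (Fin.rev l).1 < n) := by
          rw [Finset.disjoint_left]
          intro l hl hl'
          rw [Finset.mem_filter] at hl'
          rw [Finset.mem_insert, Finset.mem_singleton, Fin.ext_iff, Fin.ext_iff] at hl
          have h3 : ¬ (Fin.rev i).1 < n := hi
          have h4 := hl'.2
          have h5 : i.1 = n := rfl
          have h6 := l.2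
          rw [Fin.val_rev] at h3 h4 hl
          omega
        refine ⟨mkSL (D.cp {i, Fin.rev i} g) (h i) * x, Subgroup.mul_mem _
          (Subgroup.mem_iSup_of_mem i ⟨mk_mem_B hg hi _, hX i _⟩) hx, ?_⟩
        rw [toEnd_mul, toEnd_mkSL, hxs, h1, cp_union h2 hg.1]
  obtain ⟨x, hx, hxs⟩ := key D.r le_rfl
  have h1 : (Finset.univ.filter fun l : Fin D.r => l.1 < D.r ∨ (Fin.rev l).1 < D.r) =
      Finset.univ := by
    ext l
    rw [Finset.mem_filter]
    exact ⟨fun h => h.1, fun h => ⟨h, Or.inl l.2⟩⟩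
  rw [h1, cp_univ] at hxs
  rwa [← toEnd_injective hxs]

theorem dt_pow {g : SpecialLinearGroup K E} (hg : g ∈ D.L) (s : Finset (Fin D.r)) (m : ℕ) :
    D.dt s g ^ m = D.dt s (g ^ m) := by
  induction m with
  | zero => rw [pow_zero, pow_zero, dt_one]
  | succ m ih => rw [pow_succ, pow_succ, dt_mul (D.toDec.L.pow_mem hg.1 m) hg.1, ih]

/-- The components of the `p`-elements have determinant one. -/
theorem det_pair {p : ℕ} (hp : p.Prime) (hK : ¬ p ∣ Nat.card K)
    (hlin : ∀ j : ℕ, (∀ c : K, Φ.θ c = c ^ (ringChar K ^ j)) → ¬ p ∣ ringChar K ^ j + 1)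
    {g : SpecialLinearGroup K E} (hg : g ∈ D.L) {m : ℕ} (hgm : g ^ p ^ m = 1) (i : Fin D.r) :
    LinearMap.det (D.cp {i, Fin.rev i} g) = 1 := by
  have hc : D.dt {i} g ^ p ^ m = 1 := by rw [dt_pow hg, hgm, dt_one]
  have hfix := theta_fix hp Φ.θ Φ.θθ hlin hc
  have hrev := dt_rev hg i
  rw [hfix] at hrev
  by_cases hi : Fin.rev i = i
  · have h1 : ({i, Fin.rev i} : Finset (Fin D.r)) = {i} := by
      rw [hi]
      exact Finset.pair_eq_singleton i
    rw [h1]
    change D.dt {i} g = 1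
    rw [hi] at hrev
    exact eq_one_of_norm hp hK Φ.θ Φ.θθ hlin hc (by rw [hfix]; exact hrev)
  · have h1 := dt_prod hg.1 ({i, Fin.rev i} : Finset (Fin D.r))
    rw [Finset.prod_pair (fun h => hi h.symm), mul_comm, hrev] at h1
    exact h1

end SDec

end Vale.Agent.P180.R2.H954.Hc
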