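import Vale.Agent.P180.R2.H954.U1e

/-!
P180: the index of the group of the elements acting as inner automorphisms on the block algebra of a
stable block of a normal subgroup is bounded in terms of the order of the defect group.
-/

set_option linter.all false

namespace Vale.Agent.P180.R2.H954

open Vale.Agent.P180 Vale.Agent.P180.H768.Gd Vale.Agent.P180.R2.H365 Vale.Agent.P180.R2.H799
open Vale.Agent.P180.R2.H667 (InE Ge mem_Ge Ge_normal le_Ge)

section Res

variable {k : Type*} [Field k] {G : Type} [Group G] [Finite G] {C : Subgroup G}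

/-- `ζ` has residue `c` at the block `f`. -/
def Res (f ζ : MonoidAlgebra k G) (c : k) : Prop := IsNilpotent (ζ - c • f)

variable {f ζ ζ' : MonoidAlgebra k G} {c d : k}

theorem Res.unique (hf : IsBlockOf C f) (hζ : ζ ∈ ZAlg k C) (h : Res f ζ c) (h' : Res f ζ d) :
    c = d := by
  have hfZ : f ∈ ZAlg k C := hf.mem
  have h1 : IsNilpotent ((d - c) • f) := by
    have e1 : (d - c) • f = (ζ - c • f) - (ζ - d • f) := by rw [sub_smul]; abel
    rw [e1]
    refine Commute.isNilpotent_sub ?_ h h'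
    exact ZAlg_comm _ (Subalgebra.sub_mem _ hζ (Subalgebra.smul_mem _ hfZ c)) _
      (Subalgebra.sub_mem _ hζ (Subalgebra.smul_mem _ hfZ d))
  exact (sub_eq_zero.mp (nil_smul hf.idem.eq hf.ne_zero h1)).symm

theorem Res.mul (hf : IsBlockOf C f) (hζ : ζ ∈ ZAlg k C) (hζ' : ζ' ∈ ZAlg k C)
    (hfζ' : f * ζ' = ζ') (h : Res f ζ c) (h' : Res f ζ' d) : Res f (ζ * ζ') (c * d) := by
  have hfZ : f ∈ ZAlg k C := hf.mem
  have e1 : ζ * ζ' - (c * d) • f = (ζ - c • f) * ζ' + c • (ζ' - d • f) := by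
    rw [sub_mul, smul_mul_assoc, hfζ', smul_sub, smul_smul]
    abel
  change IsNilpotent _
  rw [e1]
  have m1 : ζ - c • f ∈ ZAlg k C := Subalgebra.sub_mem _ hζ (Subalgebra.smul_mem _ hfZ c)
  have m2 : ζ' - d • f ∈ ZAlg k C := Subalgebra.sub_mem _ hζ' (Subalgebra.smul_mem _ hfZ d)
  have c1 : Commute (ζ - c • f) ζ' := ZAlg_comm _ m1 _ hζ'
  have c2 : Commute ((ζ - c • f) * ζ') (c • (ζ' - d • f)) :=
    ZAlg_comm _ (Subalgebra.mul_mem _ m1 hζ') _ (Subalgebra.smul_mem _ m2 c)
  exact c2.isNilpotent_add (c1.isNilpotent_mul_right h) (h'.smul c)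

theorem Res.cj {t : G} (ht : cj k G t f = f) (h : Res f ζ c) : Res f (cj k G t ζ) c := by
  have h1 := h.map (Vale.Agent.P180.cj k G t)
  rw [map_sub, map_smul, ht] at h1
  exact h1

theorem Res.self : Res f f (1 : k) := by
  change IsNilpotent _
  rw [one_smul, sub_self]
  exact IsNilpotent.zero

end Res

section Count

/-- distinct homomorphisms trivial on `C` -/
theorem card_hom_le {k : Type*} [Field k] {T : Type*} [Group T] [Finite T] (C : Subgroup T)
    (S : Set (T →* k)) (hS : ∀ φ ∈ S, ∀ c ∈ C, φ c = 1) [Finite S] :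
    Nat.card S ≤ C.index := by
  classical
  have _ := Fintype.ofFinite T
  have _ := Fintype.ofFinite S
  have _ := Fintype.ofFinite (T ⧸ C)
  have hli : LinearIndependent k (fun φ : S => ((φ : T →* k) : T → k)) :=
    (linearIndependent_monoidHom T k).comp (fun φ : S => (φ : T →* k)) Subtype.val_injective
  let ρ : (T → k) →ₗ[k] (T ⧸ C → k) := LinearMap.funLeft k k (fun q : T ⧸ C => q.out)
  let V : Submodule k (T → k) :=
    { carrier := {g | ∀ t, ∀ c ∈ C, g (t * c) = g t}
      add_mem' := by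
        intro a b ha hb t c hc
        rw [Pi.add_apply, Pi.add_apply, ha t c hc, hb t c hc]
      zero_mem' := fun _ _ _ => rfl
      smul_mem' := by
        intro r a ha t c hc
        rw [Pi.smul_apply, Pi.smul_apply, ha t c hc] }
  have hspan : Submodule.span k (Set.range fun φ : S => ((φ : T →* k) : T → k)) ≤ V := by
    rw [Submodule.span_le]
    rintro _ ⟨φ, rfl⟩ t c hc
    change (φ : T →* k) (t * c) = (φ : T →* k) t
    rw [map_mul, hS φ φ.2 c hc, mul_one]
  have hdis : Disjoint (Submodule.span k (Set.range fun φ : S => ((φ : T →* k) : T → k)))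
      (LinearMap.ker ρ) := by
    rw [Submodule.disjoint_def]
    intro x hx hx0
    have hxV := hspan hx
    funext t
    have h1 : ρ x (QuotientGroup.mk t) = 0 := by
      rw [LinearMap.mem_ker] at hx0
      rw [hx0]
      rfl
    have h2 : ρ x (QuotientGroup.mk t) = x ((QuotientGroup.mk t : T ⧸ C).out) := rfl
    have h3 : (QuotientGroup.mk t : T ⧸ C).out⁻¹ * t ∈ C := by
      rw [← QuotientGroup.eq, QuotientGroup.out_eq']
    have h4 := hxV ((QuotientGroup.mk t : T ⧸ C).out) _ h3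
    rw [mul_inv_cancel_left] at h4
    rw [h4, ← h2, h1]
    rfl
  have h5 := (hli.map hdis).fintype_card_le_finrank
  rw [Module.finrank_fintype_fun_eq_card] at h5
  rw [Nat.card_eq_fintype_card, Subgroup.index, Nat.card_eq_fintype_card]
  exact h5

/-- the automorphisms of `P` induced by `L` -/
theorem relIndex_cent_le {G : Type} [Group G] [Finite G] {P L : Subgroup G}
    (hL : L ≤ Subgroup.normalizer (P : Set G)) :
    (Subgroup.centralizer (P : Set G)).relIndex L ≤ (Nat.card P).factorial := by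
  classical
  have _ := Fintype.ofFinite P
  let Ψ : L →* Equiv.Perm P :=
    { toFun := fun g =>
        { toFun := fun x => ⟨(g : G) * x * (g : G)⁻¹,
            (Subgroup.mem_normalizer_iff.mp (hL g.2) x).mp x.2⟩
          invFun := fun x => ⟨(g : G)⁻¹ * x * (g : G), by
            have := (Subgroup.mem_normalizer_iff.mp
              ((Subgroup.normalizer (P : Set G)).inv_mem (hL g.2)) x).mp x.2
            rwa [inv_inv] at this⟩
          left_inv := fun x => Subtype.ext (by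
            change (g : G)⁻¹ * ((g : G) * x * (g : G)⁻¹) * (g : G) = x
            group)
          right_inv := fun x => Subtype.ext (by
            change (g : G) * ((g : G)⁻¹ * x * (g : G)) * (g : G)⁻¹ = x
            group) }
      map_one' := by
        ext x
        change (1 : G) * x * (1 : G)⁻¹ = x
        group
      map_mul' := fun a b => by
        ext x
        change ((a : G) * b) * x * ((a : G) * b)⁻¹ = a * (b * x * (b : G)⁻¹) * (a : G)⁻¹
        group }
  have hker : Ψ.ker = (Subgroup.centralizer (P : Set G)).subgroupOf L := by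
    ext g
    rw [MonoidHom.mem_ker, Subgroup.mem_subgroupOf, Subgroup.mem_centralizer_iff]
    constructor
    · intro h x hx
      have h1 : (Ψ g ⟨x, hx⟩ : P) = ⟨x, hx⟩ := by rw [h]; rfl
      have h2 : (g : G) * x * (g : G)⁻¹ = x := congrArg Subtype.val h1
      exact (mul_inv_eq_iff_eq_mul.mp h2).symm
    · intro h
      ext x
      change (g : G) * x * (g : G)⁻¹ = x
      rw [← h x x.2, mul_inv_cancel_right]
  rw [Subgroup.relIndex, ← hker, Subgroup.index_ker]
  refine (Nat.card_le_card_of_injective (fun x : Ψ.range => (x : Equiv.Perm P))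
    Subtype.val_injective).trans ?_
  rw [Nat.card_eq_fintype_card, Fintype.card_perm, Nat.card_eq_fintype_card]

end Count

section Main

variable {k : Type*} [Field k] [IsAlgClosed k] {p : ℕ} [Fact p.Prime] [CharP k p] {G : Type}
  [Group G] [Finite G]
variable {X P : Subgroup G} {e z f : MonoidAlgebra k G}

/-- the units of degree `y` -/
theorem UD.exists_WD [X.Normal] (h : UD p X P e z) (hf : IsBlockOf (UC X P) f)
    (hef : br P e * f = f) {y : G} (hy : y ∈ Subgroup.centralizer (P : Set G))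
    (hyf : cj k G y f = f) : ∃ w w', WD X P f y w w' := by
  obtain ⟨u₀, hu₀, hfu, htr⟩ := h.exists_u₀ hf hef
  set T := UN X P ⊓ stabE f with hT
  have hCT : UC X P ≤ T := by
    refine le_inf (inf_le_inf_left X cent_le_norm) fun c hc => ?_
    rw [mem_stabE]
    exact hf.mem.2 c hc
  have hPT : P ≤ T := by
    refine le_inf h.P_le fun c hc => ?_
    rw [mem_stabE]
    exact UC_fix_P (SubAlg_mono inf_le_right hf.mem.1) c hc
  obtain ⟨x, hx, a, ha, haF, hfa⟩ := covering_rel hCT hPT (fun t ht s hs =>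
    (Subgroup.mem_normalizer_iff.mp (mem_norm_UC ht.1.2) s).mp hs) hf hf.idem
    (by rw [hf.idem.eq]; exact hf.ne_zero) (SubAlg_mono hCT hu₀)
    (UC_fix_P (SubAlg_mono inf_le_right hu₀)) htr
  rw [conjS_of_norm hx.1.2] at hfa
  obtain ⟨w, w', h1, h2, h3, h4, h5, h6, h7, h8, h9, h10⟩ := exists_inner_unit (p := p)
    (C := UC X P) (Z := UC X P ⊓ P) (h.hP.to_le inf_le_right) inf_le_left
    (fun s hs n hn => Subgroup.mem_centralizer_iff.mp hn.2 s hs.2) hf ha hfa
    (mem_norm_UC (cent_le_norm hy)) hyf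
    (fun s hs => (Subgroup.mem_centralizer_iff.mp hy s hs.2).symm)
  exact ⟨w, w', h1, h2, h3, h4, h5, h6, h7, h8, h9, h10⟩

omit [IsAlgClosed k] [Fact p.Prime] [CharP k p] in
theorem WD.mul_symm [X.Normal] {y₁ y₂ : G} {w₁ w₁' w₂ w₂' : MonoidAlgebra k G}
    (h₁ : WD X P f y₁ w₁ w₁') (h₂ : WD X P f y₂ w₂ w₂')
    (hy₁ : y₁ ∈ Subgroup.centralizer (P : Set G)) (hy₂ : y₂ ∈ Subgroup.centralizer (P : Set G)) :
    WD X P f (y₁ * y₂⁻¹) (w₁ * w₂') (w₂ * w₁') := by
  have hn : ∀ y ∈ Subgroup.centralizer (P : Set G), ∀ c ∈ UC X P, y * c * y⁻¹ ∈ UC X P :=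
    fun y hy c hc => (Subgroup.mem_normalizer_iff.mp (mem_norm_UC (cent_le_norm hy)) c).mp hc
  refine ⟨?_, ?_, Subalgebra.mul_mem _ h₁.F h₂.F', Subalgebra.mul_mem _ h₂.F h₁.F', ?_, ?_, ?_, ?_,
    ?_, ?_⟩
  · refine SuppIn.mul h₁.s h₂.s' fun x hx x' hx' => ?_
    change (y₁ * y₂⁻¹)⁻¹ * (x * x') ∈ UC X P
    have e1 : (y₁ * y₂⁻¹)⁻¹ * (x * x') = (y₂ * (y₁⁻¹ * x) * y₂⁻¹) * (y₂ * x') := by group
    rw [e1]
    exact Subgroup.mul_mem _ (hn _ hy₂ _ hx) hx'
  · refine SuppIn.mul h₂.s h₁.s' fun x hx x' hx' => ?_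
    change (y₁ * y₂⁻¹) * (x * x') ∈ UC X P
    have e1 : (y₁ * y₂⁻¹) * (x * x') = (y₁ * (y₂⁻¹ * x) * y₁⁻¹) * (y₁ * x') := by group
    rw [e1]
    exact Subgroup.mul_mem _ (hn _ hy₁ _ hx) hx'
  · rw [← mul_assoc, h₁.fw]
  · rw [mul_assoc, h₂.wf']
  · rw [← mul_assoc, h₂.fw]
  · rw [mul_assoc, h₁.wf']
  · calc w₁ * w₂' * (w₂ * w₁') = w₁ * (w₂' * w₂) * w₁' := by simp only [mul_assoc]
      _ = f := by rw [h₂.ww', h₁.wf, h₁.ww]
  · calc w₂ * w₁' * (w₁ * w₂') = w₂ * (w₁' * w₁) * w₂' := by simp only [mul_assoc]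
      _ = f := by rw [h₁.ww', h₂.wf, h₂.ww]

/-- The character of `T` attached to a unit. -/
theorem UD.exists_hom [X.Normal] (h : UD p X P e z) (hf : IsBlockOf (UC X P) f) {y : G}
    (hy : y ∈ Subgroup.centralizer (P : Set G)) {w w' : MonoidAlgebra k G}
    (hw : WD X P f y w w') :
    ∃ Φ : (UN X P ⊓ stabE f : Subgroup G) →* k,
      (∀ t : (UN X P ⊓ stabE f : Subgroup G), Res f (cj k G (t : G) w * w') (Φ t)) ∧
      ∀ t : (UN X P ⊓ stabE f : Subgroup G), (t : G) ∈ UC X P → Φ t = 1 := by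
  have _ : FiniteDimensional k (MonoidAlgebra k G) :=
    Module.Finite.equiv (MonoidAlgebra.coeffLinearEquiv k (M := G) (S := k)).symm
  set T := UN X P ⊓ stabE f with hT
  have htf : ∀ t : T, cj k G (t : G) f = f := fun t => mem_stabE.mp t.2.2
  have hζ : ∀ t : T, cj k G (t : G) w * w' ∈ ZAlg k (UC X P) := fun t => hw.zeta_mem hy t.2.1
  have hζf : ∀ t : T, f * (cj k G (t : G) w * w') = cj k G (t : G) w * w' := fun t =>
    hw.f_zeta (htf t)
  have hex : ∀ t : T, ∃ c : k, Res f (cj k G (t : G) w * w') c := by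
    intro t
    obtain ⟨c, hc⟩ := KP.isPrimIn_exists_scalar (by exact ZAlg_comm) hf (hζ t)
    refine ⟨c, ?_⟩
    rw [ZAlg_comm _ (hζ t) _ hf.mem, hζf t] at hc
    exact hc
  choose ω hω using hex
  refine ⟨⟨⟨ω, ?_⟩, ?_⟩, hω, ?_⟩
  · refine Res.unique hf (hζ 1) (hω 1) ?_
    rw [OneMemClass.coe_one, map_one_act, hw.ww]
    exact Res.self
  · intro t s
    change ω (t * s) = ω t * ω s
    refine Res.unique hf (hζ _) (hω _) ?_
    have e1 : cj k G ((t * s : T) : G) w * w' =
        cj k G (t : G) (cj k G (s : G) w * w') * (cj k G (t : G) w * w') := by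
      rw [Subgroup.coe_mul, map_mul_act]
      conv_lhs => rw [hw.cj_eq (htf s)]
      rw [map_mul, mul_assoc]
    have hζs : cj k G (t : G) (cj k G (s : G) w * w') ∈ ZAlg k (UC X P) := by
      have htN : (t : G) ∈ Subgroup.normalizer (UC X P : Set G) := mem_norm_UC t.2.1.2
      refine ⟨cj_mem_UC t.2.1.2 (hζ s).1, ?_⟩
      refine conj_mem_Fix (hζ s).2 _ fun c hc => ?_
      have := (Subgroup.mem_normalizer_iff.mp
        ((Subgroup.normalizer (UC X P : Set G)).inv_mem htN) c).mp hc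
      rwa [inv_inv] at this
    rw [e1, mul_comm (ω t)]
    exact Res.mul hf hζs (hζ t) (hζf t) (Res.cj (htf t) (hω s)) (hω t)
  · intro t ht
    change ω t = 1
    refine Res.unique hf (hζ _) (hω _) ?_
    rw [hw.F t ht, hw.ww]
    exact Res.self

/-- **Theorem (U1).** -/
theorem exists_index_le [X.Normal] (hP : IsPGroup p P) (hPX : P ≤ X) (he : IsBlockOf X e)
    (heG : ∀ g, cj k G g e = e) (hz : z ∈ SubAlg k X) (hzP : z ∈ Fix (cj k G) P)
    (hez : e = tr (cj k G) P X z) (hbr : br P e ≠ 0) :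
    (Ge he).index ≤ (Nat.card P).factorial * (Nat.card P).factorial := by
  classical
  have _ : FiniteDimensional k (MonoidAlgebra k G) :=
    Module.Finite.equiv (MonoidAlgebra.coeffLinearEquiv k (M := G) (S := k)).symm
  have h : UD p X P e z := ⟨hP, hPX, he, heG, hz, hzP, hez, hbr⟩
  have hGn : (Ge he).Normal := Ge_normal he heG
  -- a block of `kC_X(P)` below `e`
  obtain ⟨f, hf, hef0⟩ := exists_isPrimIn (ZAlg k (UC X P)) (by exact ZAlg_comm) hbr
  have he₁Z : br P e ∈ ZAlg k (UC X P) :=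
    ⟨h.e₁_mem, Fix_mono _ (inf_le_right.trans cent_le_norm) h.e₁_fix⟩
  have hef : br P e * f = f := by
    rcases hf.primitive (br P e * f) (Subalgebra.mul_mem _ he₁Z hf.mem) (by
      change br P e * f * (br P e * f) = br P e * f
      rw [mul_assoc, ← mul_assoc f, ZAlg_comm _ hf.mem _ he₁Z, mul_assoc _ f f, hf.idem.eq,
        ← mul_assoc, h.e₁_idem]) (by rw [mul_assoc, hf.idem.eq]) with h1 | h1
    · exact absurd h1 hef0
    · exact h1
  set T : Subgroup G := UN X P ⊓ stabE f with hT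
  set Nf : Subgroup G := Subgroup.normalizer (P : Set G) ⊓ stabE f with hNf
  set K : Subgroup G := Nf ⊓ Subgroup.centralizer (P : Set G) with hK
  -- the characters
  have hKc : ∀ y : K, (y : G) ∈ Subgroup.centralizer (P : Set G) := fun y => y.2.2
  have hKf : ∀ y : K, cj k G (y : G) f = f := fun y => mem_stabE.mp y.2.1.2
  choose W W' hW using fun y : K => h.exists_WD hf hef (hKc y) (hKf y)
  choose Φ hΦ hΦC using fun y : K => h.exists_hom hf (hKc y) (hW y)
  have hkey : ∀ y₁ y₂ : K, Φ y₁ = Φ y₂ → ((y₁ : G) * (y₂ : G)⁻¹) ∈ Ge he := by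
    intro y₁ y₂ h12
    have hw := (hW y₁).mul_symm (hW y₂) (hKc y₁) (hKc y₂)
    refine h.mem_Ge hf hef hw
      (Subgroup.mul_mem _ (hKc y₁) (Subgroup.inv_mem _ (hKc y₂))) fun t ht => ?_
    have htf : cj k G t f = f := mem_stabE.mp ht.2
    have z1 := (hW y₁).zeta_mem (hKc y₁) ht.1
    have z2 := (hW y₂).zeta_mem (hKc y₂) ht.1
    have z2' := (hW y₂).symm.zeta_mem (Subgroup.inv_mem _ (hKc y₂)) ht.1
    have f2 := (hW y₂).f_zeta htf
    have f2' := (hW y₂).symm.f_zeta htf
    have hinv := (hW y₂).zeta_inv (hKc y₂) ht.1 htf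
    obtain ⟨d, hd⟩ := KP.isPrimIn_exists_scalar (by exact ZAlg_comm) hf z2'
    rw [ZAlg_comm _ z2' _ hf.mem, f2'] at hd
    have r1 : Res f (cj k G t (W y₁) * W' y₁) (Φ y₁ ⟨t, ht⟩) := hΦ y₁ ⟨t, ht⟩
    have r2 : Res f (cj k G t (W y₂) * W' y₂) (Φ y₂ ⟨t, ht⟩) := hΦ y₂ ⟨t, ht⟩
    have r3 : Res f f (d * Φ y₂ ⟨t, ht⟩) := by
      have := Res.mul hf z2' z2 f2 hd r2
      rwa [hinv] at this
    have hd1 : d * Φ y₂ ⟨t, ht⟩ = 1 := Res.unique hf hf.mem r3 Res.self
    have r4 := Res.mul hf z1 z2' f2' r1 hd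
    rw [h12, mul_comm, hd1] at r4
    have e1 : cj k G t (W y₁ * W' y₂) * (W y₂ * W' y₁) =
        (cj k G t (W y₁) * W' y₁) * (cj k G t (W' y₂) * W y₂) := by
      have hc : W' y₁ * (cj k G t (W' y₂) * W y₂) = (cj k G t (W' y₂) * W y₂) * W' y₁ :=
        (commute_of_mem z2'.1 (hW y₁).F').symm
      rw [map_mul]
      calc cj k G t (W y₁) * cj k G t (W' y₂) * (W y₂ * W' y₁)
          = cj k G t (W y₁) * ((cj k G t (W' y₂) * W y₂) * W' y₁) := by simp only [mul_assoc]
        _ = _ := by rw [← hc]; simp only [mul_assoc]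
    rw [e1]
    have r5 : IsNilpotent ((cj k G t (W y₁) * W' y₁) * (cj k G t (W' y₂) * W y₂) - (1 : k) • f) := r4
    rwa [one_smul] at r5
  -- the number of characters
  have hfin : Finite (Set.range Φ) := Set.finite_range Φ |>.to_subtype
  have hcount : Nat.card (Set.range Φ) ≤ (Nat.card P).factorial := by
    have h1 := card_hom_le ((UC X P).subgroupOf T) (Set.range Φ) (by
      rintro _ ⟨y, rfl⟩ c hc
      exact hΦC y c hc)
    refine h1.trans ?_
    have h2 : ((UC X P).subgroupOf T).index =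
        (Subgroup.centralizer (P : Set G)).relIndex T := by
      rw [Subgroup.relIndex]
      congr 1
      ext t
      rw [Subgroup.mem_subgroupOf, Subgroup.mem_subgroupOf]
      exact ⟨fun h => h.2, fun h => ⟨t.2.1.1, h⟩⟩
    rw [h2]
    exact relIndex_cent_le (inf_le_left.trans inf_le_right)
  have hrel : (Ge he).relIndex K ≤ Nat.card (Set.range Φ) := by
    rw [Subgroup.relIndex, Subgroup.index]
    refine Nat.card_le_card_of_injective
      (fun q : K ⧸ (Ge he).subgroupOf K => (⟨Φ q.out, ⟨_, rfl⟩⟩ : Set.range Φ)) ?_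
    intro q r hqr
    have h1 : Φ q.out = Φ r.out := congrArg Subtype.val hqr
    have h2 := hkey _ _ h1
    rw [← QuotientGroup.out_eq' q, ← QuotientGroup.out_eq' r, QuotientGroup.eq,
      Subgroup.mem_subgroupOf]
    have h3 := hGn.conj_mem _ ((Ge he).inv_mem h2) ((q.out : K) : G)⁻¹
    have e1 : ((q.out : K) : G)⁻¹ * (((q.out : K) : G) * ((r.out : K) : G)⁻¹)⁻¹ *
        (((q.out : K) : G)⁻¹)⁻¹ = (((q.out)⁻¹ * r.out : K) : G) := by
      rw [Subgroup.coe_mul, Subgroup.coe_inv]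
      group
    rw [e1] at h3
    exact h3
  -- assembly
  have htop : Nf ⊔ Ge he = ⊤ := by
    rw [eq_top_iff]
    intro g _
    obtain ⟨x, hx, n, hn, rfl⟩ := h.frattini hf hef g
    exact Subgroup.mul_mem _ (Subgroup.mem_sup_right (le_Ge he hx)) (Subgroup.mem_sup_left hn)
  have h1 : (Ge he).index = (Ge he).relIndex Nf := by
    rw [← Subgroup.relIndex_top_right, ← htop, Subgroup.relIndex_sup_right]
  have h2 : (Ge he ⊓ K).relIndex K * K.relIndex Nf = (Ge he ⊓ K).relIndex Nf :=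
    Subgroup.relIndex_mul_relIndex _ _ _ inf_le_right inf_le_left
  rw [Subgroup.inf_relIndex_right] at h2
  have h3 : (Ge he).relIndex Nf ≤ (Ge he ⊓ K).relIndex Nf :=
    Subgroup.relIndex_le_of_le_left inf_le_left Subgroup.index_ne_zero_of_finite
  have h4 : K.relIndex Nf ≤ (Nat.card P).factorial := by
    rw [hK, Subgroup.inf_relIndex_left]
    exact relIndex_cent_le inf_le_left
  rw [h1]
  refine h3.trans ?_
  rw [← h2]
  exact Nat.mul_le_mul (hrel.trans hcount) h4

end Main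

end Vale.Agent.P180.R2.H954
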