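import Vale.Agent.P180.R2.H47.SS
import Vale.Agent.P180.R2.H12.Fam

/-!
P180: the family of the simple factors in a class `Q` of a normal subgroup `X`.
-/

set_option linter.all false

namespace Vale.Agent.P180.R2.H954

open Vale.Agent.P180 Vale.Agent.P180.R2.H47 Vale.Agent.P180.R2.H12 Equiv

variable {Q : ∀ (S : Type) [Group S], Prop} {G : Type} [Group G]

theorem simps_conj (hQ : IsoInv Q) {X : Subgroup G} [X.Normal] {S : Subgroup G}
    (hS : S ∈ simps Q X) (g : G) : S.map (MulAut.conj g).toMonoidHom ∈ simps Q X := by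
  have h := simps_map hQ (MulAut.conj g).toMonoidHom X (fun x _ hx => by
    simpa using hx) hS
  have h1 : X.map (MulAut.conj g).toMonoidHom = X := by
    ext x
    constructor
    · rintro ⟨y, hy, rfl⟩
      exact (inferInstance : X.Normal).conj_mem y hy g
    · intro hx
      refine ⟨g⁻¹ * x * g, ?_, by simp [mul_assoc]⟩
      simpa using (inferInstance : X.Normal).conj_mem x hx g⁻¹
  rwa [h1] at h

/-- `G` permutes the simple factors by conjugation. -/
def conjPerm (hQ : IsoInv Q) (X : Subgroup G) [X.Normal] :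
    (⊤ : Subgroup G) →* Perm (simps Q X) where
  toFun g :=
    { toFun := fun S => ⟨_, simps_conj hQ S.2 (g : G)⟩
      invFun := fun S => ⟨_, simps_conj hQ S.2 (g : G)⁻¹⟩
      left_inv := fun S => by
        apply Subtype.ext
        change (S.1.map _).map _ = S.1
        rw [Subgroup.map_map]
        convert Subgroup.map_id S.1
        ext x
        simp [mul_assoc]
      right_inv := fun S => by
        apply Subtype.ext
        change (S.1.map _).map _ = S.1
        rw [Subgroup.map_map]
        convert Subgroup.map_id S.1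
        ext x
        simp [mul_assoc] }
  map_one' := by
    ext1 S
    apply Subtype.ext
    change S.1.map _ = S.1
    convert Subgroup.map_id S.1
    ext x
    simp
  map_mul' g h := by
    ext1 S
    apply Subtype.ext
    change S.1.map _ = (S.1.map _).map _
    rw [Subgroup.map_map]
    congr 1
    ext x
    simp [mul_assoc]

theorem simps_eq_of_le [Finite G] {X : Subgroup G} {S T : Subgroup G} (hS : S ∈ simps Q X)
    (hT : T ∈ simps Q X) (h : S ≤ T) : S = T := by
  by_contra hne
  apply hS.2.2.2.1
  intro x hx y hy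
  exact simps_comm hS hT hne hx (h hy)

/-- The family of the simple factors. -/
theorem exists_fam [Finite G] (hQ : IsoInv Q) (X : Subgroup G) [X.Normal] :
    ∃ F : Fam G (Nat.card (simps Q X)) ⊤, (∀ j, F.A j ∈ simps Q X) ∧
      (∀ S ∈ simps Q X, ∃ j, F.A j = S) ∧ (∀ i j, F.A i ≤ F.A j → i = j) := by
  let e : Fin (Nat.card (simps Q X)) ≃ simps Q X := (Finite.equivFin (simps Q X)).symm
  let F : Fam G (Nat.card (simps Q X)) ⊤ :=
    { A := fun j => (e j).1
      σ := (e.symm.permCongrHom.toMonoidHom).comp (conjPerm hQ X)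
      comm := fun i j hij x hx y hy => simps_comm (e i).2 (e j).2
        (fun h => hij (e.injective (Subtype.ext h))) hx hy
      conj := fun g j x hx => by
        change (g : G) * x * (g : G)⁻¹ ∈ (e (e.symm (conjPerm hQ X g (e j)))).1
        rw [Equiv.apply_symm_apply]
        exact ⟨x, hx, rfl⟩ }
  refine ⟨F, fun j => (e j).2, fun S hS => ⟨e.symm ⟨S, hS⟩, ?_⟩, fun i j h => ?_⟩
  · change (e (e.symm ⟨S, hS⟩)).1 = S
    rw [Equiv.apply_symm_apply]
  · exact e.injective (Subtype.ext (simps_eq_of_le (e i).2 (e j).2 h))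

theorem fam_range [Finite G] {X : Subgroup G} {F : Fam G (Nat.card (simps Q X)) ⊤}
    (h1 : ∀ j, F.A j ∈ simps Q X) (h2 : ∀ S ∈ simps Q X, ∃ j, F.A j = S) :
    F.μ.range = sSup (simps Q X) := by
  have hμ : F.μ.range = ⨆ j, F.A j := Subgroup.noncommPiCoprod_range
  rw [hμ]
  refine le_antisymm (iSup_le fun j => le_sSup (h1 j)) (sSup_le fun S hS => ?_)
  obtain ⟨j, rfl⟩ := h2 S hS
  exact le_iSup F.A j

end Vale.Agent.P180.R2.H954
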