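import Vale.Agent.P180.R2.H799.Cross
import Mathlib.LinearAlgebra.Matrix.Rank
import Mathlib.RingTheory.LocalRing.Module

/-!
P180: the rank of `F R[H] F'` for idempotents `F`, `F'` of the group algebra of a subgroup `H` over a
local ring is the dimension over every field over the local ring.
-/

set_option linter.all false

namespace Vale.Agent.P180.R2.H954.Hc

open Vale.Agent.P180 Vale.Agent.P180.R2.H799
open Matrix

universe u v

section Mat

/-- An idempotent matrix over a local ring has the same rank over every field. -/
theorem exists_rank_map {O : Type u} [CommRing O] [IsLocalRing O] {ι : Type v} [Fintype ι]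
    [DecidableEq ι] (E : Matrix ι ι O) (hE : E * E = E) :
    ∃ r : ℕ, ∀ (K : Type*) [Field K] (φ : O →+* K), (E.map φ).rank = r := by
  -- factorisation of an idempotent matrix
  have key : ∀ E : Matrix ι ι O, E * E = E → ∃ (A : Matrix ι (Fin (Module.finrank O (LinearMap.range E.mulVecLin))) O)
      (B : Matrix (Fin (Module.finrank O (LinearMap.range E.mulVecLin))) ι O), E = A * B ∧
        Module.Free O (LinearMap.range E.mulVecLin) ∧
        Module.Finite O (LinearMap.range E.mulVecLin) := by
    intro E hE
    set f : (ι → O) →ₗ[O] (ι → O) := E.mulVecLin with hf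
    have hff : f ∘ₗ f = f := by
      rw [hf, ← Matrix.mulVecLin_mul, hE]
    set M := LinearMap.range f with hM
    have hfin : Module.Finite O M := Module.Finite.range f
    set π : (ι → O) →ₗ[O] M := f.rangeRestrict with hπ
    have hπi : π ∘ₗ M.subtype = LinearMap.id := by
      apply LinearMap.ext
      rintro ⟨x, ⟨y, rfl⟩⟩
      apply Subtype.ext
      change f (f y) = f y
      exact LinearMap.congr_fun hff y
    have hproj : Module.Projective O M := Module.Projective.of_split M.subtype π hπi
    have hfree : Module.Free O M := Module.free_of_flat_of_isLocalRing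
    set b := Module.finBasis O M with hb
    refine ⟨LinearMap.toMatrix b (Pi.basisFun O ι) M.subtype,
      LinearMap.toMatrix (Pi.basisFun O ι) b π, ?_, hfree, hfin⟩
    rw [← LinearMap.toMatrix_comp]
    have h1 : M.subtype ∘ₗ π = f := by
      ext x
      rfl
    rw [h1, hf, LinearMap.toMatrix_eq_toMatrix', ← Matrix.toLin'_apply', LinearMap.toMatrix'_toLin']
  obtain ⟨A, B, hAB, hfr, hfi⟩ := key E hE
  have hE' : (1 - E) * (1 - E) = 1 - E := by
    rw [mul_sub, sub_mul, sub_mul, one_mul, mul_one, hE, one_mul, sub_self, sub_zero]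
  obtain ⟨A', B', hAB', hfr', hfi'⟩ := key (1 - E) hE'
  set r := Module.finrank O (LinearMap.range E.mulVecLin) with hr
  set s := Module.finrank O (LinearMap.range (1 - E).mulVecLin) with hs
  have hrs : r + s = Fintype.card ι := by
    have h1 : (ι → O) ≃ₗ[O] LinearMap.range E.mulVecLin × LinearMap.range (1 - E).mulVecLin :=
      { toFun := fun x => (⟨E.mulVecLin x, ⟨x, rfl⟩⟩, ⟨(1 - E).mulVecLin x, ⟨x, rfl⟩⟩)
        map_add' := fun x y => by
          apply Prod.ext
          · apply Subtype.ext; exact map_add _ x y
          · apply Subtype.ext; exact map_add _ x y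
        map_smul' := fun c x => by
          apply Prod.ext
          · apply Subtype.ext; exact map_smul _ c x
          · apply Subtype.ext; exact map_smul _ c x
        invFun := fun z => z.1.1 + z.2.1
        left_inv := fun x => by
          change E.mulVecLin x + (1 - E).mulVecLin x = x
          rw [mulVecLin_apply, mulVecLin_apply, ← Matrix.add_mulVec, add_sub_cancel,
            Matrix.one_mulVec]
        right_inv := by
          rintro ⟨⟨_, ⟨x, rfl⟩⟩, ⟨_, ⟨y, rfl⟩⟩⟩
          apply Prod.ext
          · apply Subtype.ext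
            change E.mulVecLin (E.mulVecLin x + (1 - E).mulVecLin y) = E.mulVecLin x
            rw [map_add]
            simp only [mulVecLin_apply, Matrix.mulVec_mulVec]
            rw [hE, mul_sub, mul_one, hE, sub_self, Matrix.zero_mulVec, add_zero]
          · apply Subtype.ext
            change (1 - E).mulVecLin (E.mulVecLin x + (1 - E).mulVecLin y) = (1 - E).mulVecLin y
            rw [map_add]
            simp only [mulVecLin_apply, Matrix.mulVec_mulVec]
            rw [hE', sub_mul, one_mul, hE, sub_self, Matrix.zero_mulVec, zero_add] }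
    have h2 := h1.finrank_eq
    rw [Module.finrank_prod, Module.finrank_fintype_fun_eq_card] at h2
    exact h2.symm
  refine ⟨r, fun K _ φ => ?_⟩
  have h1 : (E.map φ).rank ≤ r := by
    rw [hAB, Matrix.map_mul]
    refine (Matrix.rank_mul_le_left _ _).trans ((Matrix.rank_le_card_width _).trans ?_)
    rw [Fintype.card_fin]
  have h2 : ((1 - E).map φ).rank ≤ s := by
    rw [hAB', Matrix.map_mul]
    refine (Matrix.rank_mul_le_left _ _).trans ((Matrix.rank_le_card_width _).trans ?_)
    rw [Fintype.card_fin]
  have h3 : Fintype.card ι ≤ (E.map φ).rank + ((1 - E).map φ).rank := by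
    have e1 : E.map φ + (1 - E).map φ = 1 := by
      rw [← Matrix.map_add _ (map_add φ), add_sub_cancel]
      exact Matrix.map_one _ (map_zero φ) (map_one φ)
    have e2 : LinearMap.range (1 : Matrix ι ι K).mulVecLin ≤
        LinearMap.range (E.map φ).mulVecLin ⊔ LinearMap.range ((1 - E).map φ).mulVecLin := by
      rintro _ ⟨v, rfl⟩
      rw [← e1, Matrix.mulVecLin_add, LinearMap.add_apply]
      exact Submodule.add_mem_sup ⟨v, rfl⟩ ⟨v, rfl⟩
    calc Fintype.card ι = (1 : Matrix ι ι K).rank := Matrix.rank_one.symm
      _ ≤ Module.finrank K ↥(LinearMap.range (E.map φ).mulVecLin ⊔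
          LinearMap.range ((1 - E).map φ).mulVecLin) := Submodule.finrank_mono e2
      _ ≤ _ := Submodule.finrank_add_le_finrank_add_finrank _ _
  omega

end Mat

section GA

variable {G : Type} [Group G]

open Classical in
/-- The matrix of `x ↦ F π(x) F'`, where `π` is the projection to `R[H]`. -/
noncomputable def mat {R : Type*} [CommRing R] (H : Subgroup G) (F F' : MonoidAlgebra R G) :
    Matrix G G R :=
  Matrix.of fun x y => if y ∈ H then (F * MonoidAlgebra.single y 1 * F').coeff x else 0

theorem mat_map {R S : Type*} [CommRing R] [CommRing S] (φ : R →+* S) (H : Subgroup G)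
    (F F' : MonoidAlgebra R G) : (mat H F F').map φ =
      mat H (MonoidAlgebra.mapRingHom G φ F) (MonoidAlgebra.mapRingHom G φ F') := by
  classical
  ext x y
  rw [Matrix.map_apply]
  unfold mat
  rw [Matrix.of_apply, Matrix.of_apply]
  split_ifs with h
  · have h1 : MonoidAlgebra.single y (1 : S) = MonoidAlgebra.mapRingHom G φ (MonoidAlgebra.single y 1) := by
      rw [MonoidAlgebra.mapRingHom_single, map_one]
    rw [h1, ← map_mul, ← map_mul, MonoidAlgebra.coeff_mapRingHom]
  · exact map_zero φ

variable [Finite G]

theorem coeff_eq_sum {R : Type*} [CommRing R] [Fintype G] (F F' a : MonoidAlgebra R G) (x : G) :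
    (F * a * F').coeff x =
      ∑ y : G, (F * MonoidAlgebra.single y 1 * F').coeff x * a.coeff y := by
  classical
  induction a using MonoidAlgebra.induction_linear with
  | zero => simp
  | add a b ha hb =>
    rw [mul_add, add_mul, MonoidAlgebra.coeff_add, Finsupp.add_apply, ha, hb,
      ← Finset.sum_add_distrib]
    refine Finset.sum_congr rfl fun y _ => ?_
    rw [MonoidAlgebra.coeff_add, Finsupp.add_apply, mul_add]
  | single z c =>
    rw [Finset.sum_eq_single z]
    · have h1 : MonoidAlgebra.single z c = c • MonoidAlgebra.single z (1 : R) := by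
        rw [MonoidAlgebra.smul_single, smul_eq_mul, mul_one]
      rw [h1, mul_smul_comm, smul_mul_assoc, MonoidAlgebra.coeff_smul, Finsupp.smul_apply,
        MonoidAlgebra.coeff_smul, Finsupp.smul_apply, MonoidAlgebra.coeff_single,
        Finsupp.single_apply, if_pos rfl, smul_eq_mul, smul_eq_mul, mul_one, mul_comm]
    · intro y _ hy
      rw [MonoidAlgebra.coeff_single, Finsupp.single_apply, if_neg hy.symm, mul_zero]
    · intro h
      exact absurd (Finset.mem_univ z) h

theorem mat_mulVec {K : Type*} [Field K] [Fintype G] {H : Subgroup G} {F F' a : MonoidAlgebra K G}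
    (ha : a ∈ SubAlg K H) : (mat H F F').mulVec (fun y => a.coeff y) =
      fun x => (F * a * F').coeff x := by
  classical
  funext x
  rw [coeff_eq_sum]
  unfold mat
  rw [Matrix.mulVec, dotProduct]
  refine Finset.sum_congr rfl fun y _ => ?_
  rw [Matrix.of_apply]
  split_ifs with h
  · rfl
  · have : a.coeff y = 0 := by
      by_contra h'
      exact h (ha y h')
    rw [this, mul_zero, mul_zero]

open Classical in
/-- The restriction of a vector to `H` as an element of the group algebra. -/
noncomputable def res {K : Type*} [Field K] (H : Subgroup G) (v : G → K) : MonoidAlgebra K G :=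
  MonoidAlgebra.ofCoeff (Finsupp.equivFunOnFinite.symm fun y => if y ∈ H then v y else 0)

open Classical in
theorem res_coeff {K : Type*} [Field K] (H : Subgroup G) (v : G → K) (y : G) :
    (res H v).coeff y = if y ∈ H then v y else 0 := rfl

theorem res_mem {K : Type*} [Field K] (H : Subgroup G) (v : G → K) : res H v ∈ SubAlg K H := by
  classical
  intro y hy
  rw [res_coeff] at hy
  by_contra h
  exact hy (if_neg h)

theorem mat_mulVec' {K : Type*} [Field K] [Fintype G] {H : Subgroup G} {F F' : MonoidAlgebra K G}
    (v : G → K) : (mat H F F').mulVec v = fun x => (F * res H v * F').coeff x := by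
  classical
  rw [← mat_mulVec (res_mem H v)]
  funext x
  unfold mat
  rw [Matrix.mulVec, dotProduct, Matrix.mulVec, dotProduct]
  refine Finset.sum_congr rfl fun y _ => ?_
  rw [Matrix.of_apply, res_coeff]
  split_ifs with h
  · rfl
  · rw [zero_mul, zero_mul]

/-- The dimension of `f K[H] f'` is the rank of the matrix. -/
theorem finrank_NN_eq_rank {K : Type*} [Field K] [Fintype G] {H : Subgroup G}
    {f f' : MonoidAlgebra K G} (hf : f * f = f) (hf' : f' * f' = f') (hfH : f ∈ SubAlg K H)
    (hfH' : f' ∈ SubAlg K H) :
    Module.finrank K (NN (SubAlg K H) f f') = (mat H f f').rank := by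
  classical
  rw [Matrix.rank]
  have hfin : FiniteDimensional K (MonoidAlgebra K G) :=
    Module.Finite.equiv (MonoidAlgebra.coeffLinearEquiv K (M := G) (S := K)).symm
  let L : MonoidAlgebra K G →ₗ[K] (G → K) :=
    { toFun := fun a y => a.coeff y
      map_add' := fun a b => by funext y; rfl
      map_smul' := fun c a => by funext y; rfl }
  have hL : Function.Injective L := by
    intro a b hab
    apply MonoidAlgebra.coeff_injective
    ext y
    exact congrFun hab y
  have h1 : (NN (SubAlg K H) f f').map L = LinearMap.range (mat H f f').mulVecLin := by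
    apply le_antisymm
    · rintro _ ⟨a, ha, rfl⟩
      refine ⟨L a, ?_⟩
      rw [Matrix.mulVecLin_apply]
      change (mat H f f').mulVec (fun y => a.coeff y) = _
      rw [mat_mulVec ha.1, ha.2.1, ha.2.2]
      rfl
    · rintro _ ⟨v, rfl⟩
      rw [Matrix.mulVecLin_apply, mat_mulVec']
      exact ⟨f * res H v * f', mul_mul_mem_NN hf hf' hfH hfH' (res_mem H v), rfl⟩
  rw [← h1]
  exact (Submodule.equivMapOfInjective L hL (NN (SubAlg K H) f f')).finrank_eq

/-- The matrix of an idempotent endomorphism. -/
theorem mat_idem {O : Type*} [CommRing O] [Fintype G] {H : Subgroup G}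
    {F F' : MonoidAlgebra O G} (hF : F * F = F) (hF' : F' * F' = F')
    (hFH : ∀ x, F.coeff x ≠ 0 → x ∈ H) (hFH' : ∀ x, F'.coeff x ≠ 0 → x ∈ H) :
    mat H F F' * mat H F F' = mat H F F' := by
  classical
  have hsupp : ∀ {a b : MonoidAlgebra O G}, (∀ x, a.coeff x ≠ 0 → x ∈ H) →
      (∀ x, b.coeff x ≠ 0 → x ∈ H) → ∀ x, (a * b).coeff x ≠ 0 → x ∈ H := by
    intro a b ha hb x hx
    by_contra hxU
    apply hx
    rw [MonoidAlgebra.coeff_mul_apply_left]
    apply Finset.sum_eq_zero
    intro y hy
    have hy1 : a.coeff y ≠ 0 := by simpa using hy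
    have h2 : b.coeff (y⁻¹ * x) = 0 := by
      by_contra h3
      apply hxU
      have := H.mul_mem (ha y hy1) (hb _ h3)
      rwa [mul_inv_cancel_left] at this
    simp [h2]
  ext x z
  rw [Matrix.mul_apply]
  unfold mat
  simp only [Matrix.of_apply]
  by_cases hz : z ∈ H
  · simp only [if_pos hz]
    have hs : ∀ y, (F * MonoidAlgebra.single z 1 * F').coeff y ≠ 0 → y ∈ H := by
      refine hsupp (hsupp hFH ?_) hFH'
      intro y hy
      rw [MonoidAlgebra.coeff_single, Finsupp.single_apply] at hy
      split_ifs at hy with h
      · rwa [← h]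
      · exact absurd rfl hy
    have h1 : ∀ y, (if y ∈ H then (F * MonoidAlgebra.single y 1 * F').coeff x else 0) *
        (F * MonoidAlgebra.single z 1 * F').coeff y =
        (F * MonoidAlgebra.single y 1 * F').coeff x *
        (F * MonoidAlgebra.single z 1 * F').coeff y := by
      intro y
      split_ifs with h
      · rfl
      · have : (F * MonoidAlgebra.single z 1 * F').coeff y = 0 := by
          by_contra h'
          exact h (hs y h')
        rw [this, mul_zero, mul_zero]
    rw [Finset.sum_congr rfl fun y _ => h1 y, ← coeff_eq_sum]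
    have e1 : F * (F * MonoidAlgebra.single z 1 * F') * F' = F * MonoidAlgebra.single z 1 * F' := by
      rw [← mul_assoc, ← mul_assoc, hF, mul_assoc _ F' F', hF']
    rw [e1]
  · simp only [if_neg hz, mul_zero, Finset.sum_const_zero]

/-- **The rank of `F O[H] F'`** for idempotents over a local ring. -/
theorem exists_rank {O : Type*} [CommRing O] [IsLocalRing O] {H : Subgroup G}
    {F F' : MonoidAlgebra O G} (hF : F * F = F) (hF' : F' * F' = F')
    (hFH : ∀ x, F.coeff x ≠ 0 → x ∈ H) (hFH' : ∀ x, F'.coeff x ≠ 0 → x ∈ H) :
    ∃ r : ℕ, ∀ (K : Type*) [Field K] (φ : O →+* K),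
      Module.finrank K (NN (SubAlg K H) (MonoidAlgebra.mapRingHom G φ F)
        (MonoidAlgebra.mapRingHom G φ F')) = r := by
  classical
  have := Fintype.ofFinite G
  obtain ⟨r, hr⟩ := exists_rank_map (mat H F F') (mat_idem hF hF' hFH hFH')
  refine ⟨r, fun K _ φ => ?_⟩
  rw [finrank_NN_eq_rank, ← mat_map, hr K φ]
  · rw [← map_mul, hF]
  · rw [← map_mul, hF']
  · intro x hx
    rw [MonoidAlgebra.coeff_mapRingHom] at hx
    exact hFH x fun h => hx (by rw [h, map_zero])
  · intro x hx
    rw [MonoidAlgebra.coeff_mapRingHom] at hx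
    exact hFH' x fun h => hx (by rw [h, map_zero])

end GA

end Vale.Agent.P180.R2.H954.Hc
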