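import Vale.Agent.P180.R2.H854.Flag

/-!
P180: the decomposition of a vector space over a finite field under a commutative group of order
prime to the characteristic.
-/

set_option linter.all false

namespace Vale.Agent.P180.R2.H954.Hc

open Module Vale.Agent.P180.R2.H854

section Alg

variable {K : Type} [Field K] [Finite K] {Q : Type} [CommGroup Q] [Finite Q]

/-- In `K[Q]`, for `Q` commutative of order prime to the order of `K`, each element is a proper power
of itself. -/
theorem pow_eq (hQ : (Nat.card K).Coprime (Nat.card Q)) :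
    ∃ M : ℕ, 1 < M ∧ ∀ x : MonoidAlgebra K Q, x ^ M = x := by
  classical
  have := Fintype.ofFinite K
  rw [Nat.card_eq_fintype_card] at hQ
  set q := Fintype.card K with hq
  set N := Nat.totient (Nat.card Q) with hN
  have hNpos : 0 < N := Nat.totient_pos.mpr Nat.card_pos
  have hqN : q ^ N ≡ 1 [MOD Nat.card Q] := Nat.ModEq.pow_totient hQ
  have hq1 : 1 < q := Fintype.one_lt_card
  refine ⟨q ^ N, Nat.one_lt_pow hNpos.ne' hq1, fun x => ?_⟩
  have h1 : (FiniteField.frobeniusAlgHom K (MonoidAlgebra K Q)) ^ N = AlgHom.id K _ := by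
    apply AlgHom.toLinearMap_injective
    apply MonoidAlgebra.lhom_ext'
    intro g
    apply LinearMap.ext_ring
    change ((FiniteField.frobeniusAlgHom K (MonoidAlgebra K Q)) ^ N) (MonoidAlgebra.single g 1) =
      MonoidAlgebra.single g 1
    rw [AlgHom.coe_pow, FiniteField.coe_frobeniusAlgHom, pow_iterate]
    change (MonoidAlgebra.single g (1 : K)) ^ (q ^ N) = MonoidAlgebra.single g 1
    rw [MonoidAlgebra.single_pow, one_pow]
    congr 1
    have h2 : g ^ (q ^ N) = g ^ 1 := by
      rw [pow_eq_pow_iff_modEq]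
      exact hqN.of_dvd (orderOf_dvd_natCard g)
    rw [h2, pow_one]
  have h2 := DFunLike.congr_fun h1 x
  rw [AlgHom.coe_pow, FiniteField.coe_frobeniusAlgHom, pow_iterate] at h2
  exact h2

theorem isReduced (hQ : (Nat.card K).Coprime (Nat.card Q)) : IsReduced (MonoidAlgebra K Q) := by
  obtain ⟨M, hM, h⟩ := pow_eq hQ
  refine ⟨fun x hx => ?_⟩
  obtain ⟨n, hn⟩ := hx
  have h1 : ∀ t : ℕ, x ^ (M ^ t) = x := by
    intro t
    induction t with
    | zero => rw [pow_zero, pow_one]
    | succ t ih => rw [pow_succ, pow_mul, ih, h]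
  rw [← h1 n]
  exact pow_eq_zero_of_le (Nat.lt_pow_self hM).le hn

end Alg

variable {K E : Type} [Field K] [AddCommGroup E] [Module K E]

/-- A decomposition of `E` under `Q`. -/
structure Dec (Q : Subgroup (SpecialLinearGroup K E)) where
  /-- the number of summands -/
  r : ℕ
  /-- the projections -/
  e : Fin r → End K E
  idem : ∀ i, e i * e i = e i
  orth : ∀ i j, i ≠ j → e i * e j = 0
  sum : ∑ i, e i = 1
  ne : ∀ i, e i ≠ 0
  comm : ∀ a : End K E, (∀ q ∈ Q, a * toEnd q = toEnd q * a) → ∀ i, a * e i = e i * a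
  cyc : ∀ i, ∃ (F : Type) (_ : Field F) (_ : Finite F) (χ : Q →* Fˣ),
    ∀ q : Q, χ q = 1 ↔ toEnd (q : SpecialLinearGroup K E) * e i = e i

/-- **Decomposition of the natural module under a commutative subgroup.** -/
theorem exists_dec [Finite K] (Q : Subgroup (SpecialLinearGroup K E)) [Finite Q]
    (hQ : (Nat.card K).Coprime (Nat.card Q)) (hab : ∀ x ∈ Q, ∀ y ∈ Q, x * y = y * x) :
    Nonempty (Dec Q) := by
  classical
  letI : CommGroup Q := { (inferInstance : Group Q) with
    mul_comm := fun x y => Subtype.ext (hab x x.2 y y.2) }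
  have hred : IsReduced (MonoidAlgebra K Q) := isReduced hQ
  have hfin : Finite (MonoidAlgebra K Q) := by
    have h1 : Module.Finite K (MonoidAlgebra K Q) :=
      Module.Finite.equiv (MonoidAlgebra.coeffLinearEquiv K (M := Q) (S := K)).symm
    exact Module.finite_of_finite K
  have hart : IsArtinianRing (MonoidAlgebra K Q) := inferInstance
  have hMfin : Finite (MaximalSpectrum (MonoidAlgebra K Q)) := inferInstance
  -- the action
  let ρ : Q →* End K E :=
    { toFun := fun q => toEnd (q : SpecialLinearGroup K E)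
      map_one' := rfl
      map_mul' := fun _ _ => rfl }
  let Φ : MonoidAlgebra K Q →ₐ[K] End K E := MonoidAlgebra.lift K (End K E) Q ρ
  have hΦ : ∀ q : Q, Φ (MonoidAlgebra.single q 1) = toEnd (q : SpecialLinearGroup K E) := by
    intro q
    change MonoidAlgebra.lift K (End K E) Q ρ (MonoidAlgebra.single q 1) = _
    rw [MonoidAlgebra.lift_single, one_smul]
    rfl
  let ψ := IsArtinianRing.equivPi (MonoidAlgebra K Q)
  let ε : MaximalSpectrum (MonoidAlgebra K Q) → MonoidAlgebra K Q := fun I => ψ.symm (Pi.single I 1)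
  have hεI : ∀ I, ε I * ε I = ε I := by
    intro I
    change ψ.symm _ * ψ.symm _ = ψ.symm _
    rw [← map_mul, ← Pi.single_mul, one_mul]
  have hεIJ : ∀ I J, I ≠ J → ε I * ε J = 0 := by
    intro I J hIJ
    change ψ.symm _ * ψ.symm _ = 0
    rw [← map_mul]
    have : (Pi.single I 1 : ∀ I : MaximalSpectrum (MonoidAlgebra K Q), MonoidAlgebra K Q ⧸ I.asIdeal) *
        Pi.single J 1 = 0 := by
      funext L
      rw [Pi.mul_apply, Pi.zero_apply]
      by_cases hL : L = I
      · subst hL
        rw [Pi.single_eq_of_ne hIJ, mul_zero]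
      · rw [Pi.single_eq_of_ne hL, zero_mul]
    rw [this, map_zero]
  have := Fintype.ofFinite (MaximalSpectrum (MonoidAlgebra K Q))
  have hεs : ∑ I, ε I = 1 := by
    change ∑ I, ψ.symm (Pi.single I 1) = 1
    rw [← map_sum]
    have : ∑ I : MaximalSpectrum (MonoidAlgebra K Q), (Pi.single I 1 :
        ∀ I : MaximalSpectrum (MonoidAlgebra K Q), MonoidAlgebra K Q ⧸ I.asIdeal) = 1 := by
      exact Finset.univ_sum_single (1 : ∀ I : MaximalSpectrum (MonoidAlgebra K Q),
        MonoidAlgebra K Q ⧸ I.asIdeal)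
    rw [this, map_one]
  have hmem : ∀ I x, x * ε I = 0 ↔ x ∈ I.asIdeal := by
    intro I x
    have h1 : x * ε I = 0 ↔ ψ (x * ε I) = 0 := by
      rw [map_eq_zero_iff ψ ψ.injective]
    rw [h1, map_mul]
    have h2 : ψ (ε I) = Pi.single I 1 := ψ.apply_symm_apply _
    rw [h2]
    constructor
    · intro h
      have h3 := congrFun h I
      rw [Pi.mul_apply, Pi.single_eq_same, mul_one, Pi.zero_apply] at h3
      exact Ideal.Quotient.eq_zero_iff_mem.mp h3
    · intro h
      funext L
      rw [Pi.mul_apply, Pi.zero_apply]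
      by_cases hL : L = I
      · subst hL
        rw [Pi.single_eq_same, mul_one]
        exact Ideal.Quotient.eq_zero_iff_mem.mpr h
      · rw [Pi.single_eq_of_ne hL, mul_zero]
  -- reindex
  let T := {I : MaximalSpectrum (MonoidAlgebra K Q) // Φ (ε I) ≠ 0}
  let eqv := Fintype.equivFin T
  refine ⟨⟨Fintype.card T, fun i => Φ (ε (eqv.symm i).1), ?_, ?_, ?_, ?_, ?_, ?_⟩⟩
  · intro i
    rw [← map_mul, hεI]
  · intro i j hij
    rw [← map_mul, hεIJ, map_zero]
    intro h
    exact hij (eqv.symm.injective (Subtype.ext h))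
  · rw [Equiv.sum_comp eqv.symm (fun I : T => Φ (ε I.1))]
    have h1 : ∑ I : T, Φ (ε I.1) = ∑ I, Φ (ε I) := by
      refine Eq.trans ?_ (Finset.sum_filter_ne_zero (s := Finset.univ) (f := fun I => Φ (ε I)))
      exact (Finset.sum_subtype (Finset.univ.filter fun I => Φ (ε I) ≠ 0)
        (fun x => by rw [Finset.mem_filter]; exact ⟨fun h => h.2, fun h => ⟨Finset.mem_univ _, h⟩⟩)
        (fun I => Φ (ε I))).symm
    rw [h1, ← map_sum, hεs, map_one]
  · intro i
    exact (eqv.symm i).2
  · intro a ha i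
    have h1 : ∀ x : MonoidAlgebra K Q, a * Φ x = Φ x * a := by
      intro x
      induction x using MonoidAlgebra.induction_linear with
      | zero => simp
      | add x y hx hy => rw [map_add, mul_add, add_mul, hx, hy]
      | single q c =>
        have h2 : MonoidAlgebra.single q c = c • MonoidAlgebra.single q (1 : K) := by
          rw [MonoidAlgebra.smul_single, smul_eq_mul, mul_one]
        rw [h2, map_smul, hΦ, mul_smul_comm, smul_mul_assoc, ha q q.2]
    exact h1 _
  · intro i
    set I := (eqv.symm i).1 with hI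
    have hfield : IsField (MonoidAlgebra K Q ⧸ I.asIdeal) :=
      (Ideal.Quotient.maximal_ideal_iff_isField_quotient _).mp I.isMaximal
    have hFf : Finite (MonoidAlgebra K Q ⧸ I.asIdeal) :=
      Finite.of_surjective _ Ideal.Quotient.mk_surjective
    refine ⟨MonoidAlgebra K Q ⧸ I.asIdeal, hfield.toField, hFf, ?_⟩
    refine ⟨(Units.map (Ideal.Quotient.mk I.asIdeal).toMonoidHom).comp
      (MonoidAlgebra.of K Q).toHomUnits, fun q => ?_⟩
    have h1 : (Units.map (Ideal.Quotient.mk I.asIdeal).toMonoidHom).comp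
      (MonoidAlgebra.of K Q).toHomUnits q = 1 ↔
        (MonoidAlgebra.single q (1 : K) - 1) ∈ I.asIdeal := by
      rw [← Ideal.Quotient.eq_zero_iff_mem, map_sub, sub_eq_zero, map_one, Units.ext_iff]
      rfl
    have h2 : Φ ((MonoidAlgebra.single q (1 : K) - 1) * ε I) = 0 ↔
        toEnd (q : SpecialLinearGroup K E) * Φ (ε I) = Φ (ε I) := by
      rw [map_mul, map_sub, map_one, sub_mul, one_mul, sub_eq_zero, hΦ]
    refine Iff.trans h1 (Iff.trans ?_ h2)
    rw [← hmem]
    refine ⟨fun h => by rw [h, map_zero], fun h => ?_⟩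
    by_contra hne
    rw [hmem] at hne
    have hne' : Ideal.Quotient.mk I.asIdeal (MonoidAlgebra.single q (1 : K) - 1) ≠ 0 := by
      rw [Ne, Ideal.Quotient.eq_zero_iff_mem]
      exact hne
    obtain ⟨y, hy⟩ := hfield.mul_inv_cancel hne'
    obtain ⟨y, rfl⟩ := Ideal.Quotient.mk_surjective y
    have h3 : ((MonoidAlgebra.single q (1 : K) - 1) * y - 1) ∈ I.asIdeal := by
      rw [← Ideal.Quotient.eq_zero_iff_mem, map_sub, map_mul, hy, map_one, sub_self]
    rw [← hmem, sub_mul, one_mul, sub_eq_zero] at h3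
    apply (eqv.symm i).2
    change Φ (ε I) = 0
    rw [← h3, mul_assoc, mul_comm y, ← mul_assoc, map_mul, h, zero_mul]

end Vale.Agent.P180.R2.H954.Hc
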