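import Vale.Agent.P180.R2.H954.Hc3a

/-!
P180: the stabiliser of a decomposition of a vector space in the special linear group, and the special
linear groups of the summands.
-/

set_option linter.all false

namespace Vale.Agent.P180.R2.H954.Hc

open Module Vale.Agent.P180.R2.H854

variable {K E : Type} [Field K] [AddCommGroup E] [Module K E]

namespace Dec

variable {Q : Subgroup (SpecialLinearGroup K E)} (D : Dec Q)

theorem toEnd_mul_inv (g : SpecialLinearGroup K E) : toEnd g * toEnd g⁻¹ = 1 := by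
  rw [← toEnd_mul, mul_inv_cancel, toEnd_one]

theorem toEnd_inv_mul (g : SpecialLinearGroup K E) : toEnd g⁻¹ * toEnd g = 1 := by
  rw [← toEnd_mul, inv_mul_cancel, toEnd_one]

/-- The stabiliser of the decomposition. -/
def L : Subgroup (SpecialLinearGroup K E) where
  carrier := {g | ∀ i, toEnd g * D.e i = D.e i * toEnd g}
  one_mem' := fun i => by rw [toEnd_one, one_mul, mul_one]
  mul_mem' := by
    intro g h hg hh i
    rw [toEnd_mul, mul_assoc, hh i, ← mul_assoc, hg i, mul_assoc]
  inv_mem' := by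
    intro g hg i
    calc toEnd g⁻¹ * D.e i = toEnd g⁻¹ * (D.e i * toEnd g) * toEnd g⁻¹ := by
          rw [mul_assoc, mul_assoc, toEnd_mul_inv, mul_one]
      _ = D.e i * toEnd g⁻¹ := by
          rw [← hg i, ← mul_assoc, toEnd_inv_mul, one_mul]

variable {D}

theorem mem_L {g : SpecialLinearGroup K E} : g ∈ D.L ↔ ∀ i, toEnd g * D.e i = D.e i * toEnd g :=
  Iff.rfl

/-- the sum of some projections -/
noncomputable def es (D : Dec Q) (s : Finset (Fin D.r)) : End K E := ∑ i ∈ s, D.e i

theorem e_mul_es_of_mem {s : Finset (Fin D.r)} {i : Fin D.r} (hi : i ∈ s) :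
    D.e i * D.es s = D.e i := by
  rw [es, Finset.mul_sum, Finset.sum_eq_single i]
  · exact D.idem i
  · intro j _ hj
    exact D.orth i j hj.symm
  · intro h; exact absurd hi h

theorem e_mul_es_of_notMem {s : Finset (Fin D.r)} {i : Fin D.r} (hi : i ∉ s) :
    D.e i * D.es s = 0 := by
  rw [es, Finset.mul_sum]
  refine Finset.sum_eq_zero fun j hj => D.orth i j ?_
  rintro rfl
  exact hi hj

theorem es_mul_e_of_notMem {s : Finset (Fin D.r)} {i : Fin D.r} (hi : i ∉ s) :
    D.es s * D.e i = 0 := by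
  rw [es, Finset.sum_mul]
  refine Finset.sum_eq_zero fun j hj => D.orth j i ?_
  rintro rfl
  exact hi hj

theorem comm_es {g : SpecialLinearGroup K E} (hg : g ∈ D.L) (s : Finset (Fin D.r)) :
    toEnd g * D.es s = D.es s * toEnd g := by
  rw [es, Finset.mul_sum, Finset.sum_mul]
  exact Finset.sum_congr rfl fun i _ => hg i

theorem es_idem (s : Finset (Fin D.r)) : D.es s * D.es s = D.es s := by
  conv_lhs => rw [es, Finset.sum_mul]
  exact Finset.sum_congr rfl fun i hi => e_mul_es_of_mem hi

theorem es_univ : D.es Finset.univ = 1 := D.sum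

theorem es_singleton (i : Fin D.r) : D.es {i} = D.e i := Finset.sum_singleton _ _

/-- the component on a set of summands -/
noncomputable def cp (D : Dec Q) (s : Finset (Fin D.r)) (g : SpecialLinearGroup K E) : End K E :=
  toEnd g * D.es s + (1 - D.es s)

theorem cp_mul {s : Finset (Fin D.r)} {g h : SpecialLinearGroup K E} (hg : g ∈ D.L)
    (hh : h ∈ D.L) : D.cp s (g * h) = D.cp s g * D.cp s h := by
  have h1 := es_idem (D := D) s
  have h2 := comm_es hh s
  have h3 := comm_es hg s
  have e1 : toEnd g * D.es s * (toEnd h * D.es s) = toEnd g * toEnd h * D.es s := by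
    calc toEnd g * D.es s * (toEnd h * D.es s) = toEnd g * (D.es s * toEnd h) * D.es s := by
          simp only [mul_assoc]
      _ = toEnd g * toEnd h * (D.es s * D.es s) := by rw [← h2]; simp only [mul_assoc]
      _ = _ := by rw [h1]
  have e2 : toEnd g * D.es s * (1 - D.es s) = 0 := by
    rw [mul_sub, mul_one, mul_assoc, h1, sub_self]
  have e3 : (1 - D.es s) * (toEnd h * D.es s) = 0 := by
    rw [h2, ← mul_assoc, sub_mul, one_mul, h1, sub_self, zero_mul]
  have e4 : (1 - D.es s) * (1 - D.es s) = 1 - D.es s := by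
    rw [mul_sub, mul_one, sub_mul, one_mul, h1, sub_self, sub_zero]
  rw [cp, cp, cp, add_mul, mul_add, mul_add, e1, e2, e3, e4, toEnd_mul, add_zero, zero_add]

theorem cp_one (s : Finset (Fin D.r)) : D.cp s 1 = 1 := by
  rw [cp, toEnd_one, one_mul, add_sub_cancel]

theorem cp_univ (g : SpecialLinearGroup K E) : D.cp Finset.univ g = toEnd g := by
  rw [cp, es_univ, mul_one, sub_self, add_zero]

theorem cp_empty (g : SpecialLinearGroup K E) : D.cp ∅ g = 1 := by
  rw [cp, es, Finset.sum_empty, mul_zero, zero_add, sub_zero]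

theorem cp_insert {s : Finset (Fin D.r)} {i : Fin D.r} (hi : i ∉ s) {g : SpecialLinearGroup K E}
    (hg : g ∈ D.L) : D.cp (insert i s) g = D.cp {i} g * D.cp s g := by
  have h1 : D.es (insert i s) = D.e i + D.es s := Finset.sum_insert hi
  have h2 : D.e i * D.es s = 0 := e_mul_es_of_notMem hi
  have h3 : D.es s * D.e i = 0 := es_mul_e_of_notMem hi
  have h4 := comm_es hg s
  have e1 : toEnd g * D.e i * (toEnd g * D.es s) = 0 := by
    rw [h4, ← mul_assoc, mul_assoc (toEnd g), h2, mul_zero, zero_mul]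
  have e2 : toEnd g * D.e i * (1 - D.es s) = toEnd g * D.e i := by
    rw [mul_sub, mul_one, mul_assoc, h2, mul_zero, sub_zero]
  have e3 : (1 - D.e i) * (toEnd g * D.es s) = toEnd g * D.es s := by
    rw [sub_mul, one_mul, h4, ← mul_assoc, h2, zero_mul, sub_zero]
  have e4 : (1 - D.e i) * (1 - D.es s) = 1 - D.e i - D.es s := by
    rw [mul_sub, mul_one, sub_mul, one_mul, h2, sub_zero]
  have e5 : D.cp {i} g * D.cp s g = toEnd g * D.e i * (toEnd g * D.es s) +
      toEnd g * D.e i * (1 - D.es s) + ((1 - D.e i) * (toEnd g * D.es s) +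
        (1 - D.e i) * (1 - D.es s)) := by
    rw [cp, cp, es_singleton, add_mul, mul_add, mul_add]
  rw [e5, e1, e2, e3, e4, cp, h1, mul_add]
  abel

theorem commute_cp {s : Finset (Fin D.r)} {g h : SpecialLinearGroup K E} (hg : g ∈ D.L)
    (hh : toEnd h * (toEnd g * D.es s) = toEnd g * D.es s * toEnd h)
    (hh' : toEnd h * D.es s = D.es s * toEnd h) :
    toEnd h * D.cp s g = D.cp s g * toEnd h := by
  rw [cp, mul_add, add_mul, hh, mul_sub, sub_mul, hh', mul_one, one_mul]

variable (D) in
/-- The special linear group of a summand. -/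
def A (i : Fin D.r) : Subgroup (SpecialLinearGroup K E) where
  carrier := {g | g ∈ D.L ∧ ∀ j, j ≠ i → toEnd g * D.e j = D.e j}
  one_mem' := ⟨D.L.one_mem, fun j _ => by rw [toEnd_one, one_mul]⟩
  mul_mem' := by
    rintro g h ⟨hg, hg'⟩ ⟨hh, hh'⟩
    exact ⟨D.L.mul_mem hg hh, fun j hj => by rw [toEnd_mul, mul_assoc, hh' j hj, hg' j hj]⟩
  inv_mem' := by
    rintro g ⟨hg, hg'⟩
    refine ⟨D.L.inv_mem hg, fun j hj => ?_⟩
    conv_lhs => rw [← hg' j hj, ← mul_assoc, toEnd_inv_mul, one_mul]

theorem mem_A {i : Fin D.r} {g : SpecialLinearGroup K E} :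
    g ∈ D.A i ↔ g ∈ D.L ∧ ∀ j, j ≠ i → toEnd g * D.e j = D.e j := Iff.rfl

theorem A_le_L (i : Fin D.r) : D.A i ≤ D.L := fun _ h => h.1

theorem A_conj {i : Fin D.r} {g h : SpecialLinearGroup K E} (hg : g ∈ D.L) (hh : h ∈ D.A i) :
    g * h * g⁻¹ ∈ D.A i := by
  refine ⟨D.L.mul_mem (D.L.mul_mem hg hh.1) (D.L.inv_mem hg), fun j hj => ?_⟩
  rw [toEnd_mul, toEnd_mul, mul_assoc, (D.L.inv_mem hg) j, mul_assoc, ← mul_assoc (toEnd h),
    hh.2 j hj, ← (D.L.inv_mem hg) j, ← mul_assoc, toEnd_mul_inv, one_mul]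

/-- An endomorphism is determined by its restrictions to the summands. -/
theorem ext_e {a b : End K E} (h : ∀ i, a * D.e i = b * D.e i) : a = b := by
  rw [← mul_one a, ← mul_one b, ← D.sum, Finset.mul_sum, Finset.mul_sum]
  exact Finset.sum_congr rfl fun i _ => h i

theorem A_comm {i j : Fin D.r} (hij : i ≠ j) {g h : SpecialLinearGroup K E} (hg : g ∈ D.A i)
    (hh : h ∈ D.A j) : g * h = h * g := by
  apply toEnd_injective
  rw [toEnd_mul, toEnd_mul]
  apply ext_e (D := D)
  intro l
  by_cases hl : l = i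
  · subst hl
    have h1 : toEnd h * D.e l = D.e l := hh.2 l hij
    calc toEnd g * toEnd h * D.e l = toEnd g * D.e l := by rw [mul_assoc, h1]
      _ = D.e l * toEnd g := hg.1 l
      _ = toEnd h * D.e l * toEnd g := by rw [h1]
      _ = _ := by rw [mul_assoc, ← hg.1 l, mul_assoc]
  · have h1 : toEnd g * D.e l = D.e l := hg.2 l hl
    calc toEnd g * toEnd h * D.e l = toEnd g * (D.e l * toEnd h) := by rw [mul_assoc, hh.1 l]
      _ = D.e l * toEnd h := by rw [← mul_assoc, h1]
      _ = toEnd h * (toEnd g * D.e l) := by rw [h1, hh.1 l]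
      _ = _ := by rw [mul_assoc]

theorem A_inf {i j : Fin D.r} (hij : i ≠ j) {g : SpecialLinearGroup K E} (hg : g ∈ D.A i)
    (hh : g ∈ D.A j) : g = 1 := by
  apply toEnd_injective
  rw [toEnd_one]
  apply ext_e (D := D)
  intro l
  rw [one_mul]
  by_cases hl : l = i
  · subst hl
    exact hh.2 l hij
  · exact hg.2 l hl

section fin

variable [FiniteDimensional K E]

/-- the determinant of a component -/
noncomputable def dt (D : Dec Q) (s : Finset (Fin D.r)) (g : SpecialLinearGroup K E) : K :=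
  LinearMap.det (D.cp s g)

theorem dt_mul {s : Finset (Fin D.r)} {g h : SpecialLinearGroup K E} (hg : g ∈ D.L)
    (hh : h ∈ D.L) : D.dt s (g * h) = D.dt s g * D.dt s h := by
  rw [dt, cp_mul hg hh, map_mul]; rfl

theorem dt_one (s : Finset (Fin D.r)) : D.dt s 1 = 1 := by rw [dt, cp_one, map_one]

theorem dt_prod {g : SpecialLinearGroup K E} (hg : g ∈ D.L) (s : Finset (Fin D.r)) :
    D.dt s g = ∏ i ∈ s, D.dt {i} g := by
  classical
  induction s using Finset.induction_on with
  | empty => rw [dt, cp_empty, map_one, Finset.prod_empty]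
  | insert i s hi ih => rw [Finset.prod_insert hi, ← ih, dt, cp_insert hi hg, map_mul]; rfl

theorem dt_univ (g : SpecialLinearGroup K E) : D.dt Finset.univ g = 1 := by
  rw [dt, cp_univ]
  have := g.det_eq_one
  exact this

/-- The component as an element of the special linear group. -/
theorem cp_comm {s : Finset (Fin D.r)} {g : SpecialLinearGroup K E} (hg : g ∈ D.L) (j : Fin D.r) :
    D.cp s g * D.e j = D.e j * D.cp s g := by
  have h1 : D.es s * D.e j = D.e j * D.es s := by
    by_cases hj : j ∈ s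
    · rw [e_mul_es_of_mem hj, es, Finset.sum_mul, Finset.sum_eq_single j]
      · exact D.idem j
      · intro l _ hl
        exact D.orth l j hl
      · intro h; exact absurd hj h
    · rw [e_mul_es_of_notMem hj, es_mul_e_of_notMem hj]
  have h2 : D.e j * (toEnd g * D.es s) = toEnd g * (D.es s * D.e j) := by
    rw [← mul_assoc, ← hg j, mul_assoc, h1]
  rw [cp, add_mul, mul_add, mul_assoc, h2, sub_mul, mul_sub, h1, one_mul, mul_one]

theorem mk_mem_L {s : Finset (Fin D.r)} {g : SpecialLinearGroup K E} (hg : g ∈ D.L)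
    (h : LinearMap.det (D.cp s g) = 1) : mkSL (D.cp s g) h ∈ D.L := fun j => by
  rw [toEnd_mkSL]; exact cp_comm hg j

theorem mk_mem_A {i : Fin D.r} {g : SpecialLinearGroup K E} (hg : g ∈ D.L)
    (h : LinearMap.det (D.cp {i} g) = 1) : mkSL (D.cp {i} g) h ∈ D.A i := by
  refine ⟨mk_mem_L hg h, fun j hj => ?_⟩
  rw [toEnd_mkSL, cp, es_singleton, add_mul, mul_assoc, D.orth i j hj.symm, mul_zero, zero_add,
    sub_mul, D.orth i j hj.symm, one_mul, sub_zero]

/-- An element all of whose components have determinant one is a product of elements of the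
special linear groups of the summands. -/
theorem mem_iSup {g : SpecialLinearGroup K E} (hg : g ∈ D.L) (h : ∀ i, D.dt {i} g = 1) :
    g ∈ ⨆ i, D.A i := by
  classical
  have key : ∀ s : Finset (Fin D.r), ∃ x ∈ ⨆ i, D.A i, toEnd x = D.cp s g := by
    intro s
    induction s using Finset.induction_on with
    | empty => exact ⟨1, Subgroup.one_mem _, by rw [cp_empty, toEnd_one]⟩
    | insert i s hi ih =>
      obtain ⟨x, hx, hxs⟩ := ih
      have hi' : LinearMap.det (D.cp {i} g) = 1 := h i
      refine ⟨mkSL (D.cp {i} g) hi' * x,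
        Subgroup.mul_mem _ (Subgroup.mem_iSup_of_mem i (mk_mem_A hg hi')) hx, ?_⟩
      rw [toEnd_mul, toEnd_mkSL, hxs, cp_insert hi hg]
  obtain ⟨x, hx, hxs⟩ := key Finset.univ
  rw [cp_univ] at hxs
  rwa [← toEnd_injective hxs]

theorem cp_of_mem_A_ne {i j : Fin D.r} (hij : j ≠ i) {g : SpecialLinearGroup K E}
    (hg : g ∈ D.A i) : D.cp {j} g = 1 := by
  rw [cp, es_singleton, hg.2 j hij, add_sub_cancel]

theorem cp_of_mem_A {i : Fin D.r} {g : SpecialLinearGroup K E}
    (hg : g ∈ D.A i) : D.cp {i} g = toEnd g := by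
  apply ext_e (D := D)
  intro l
  rw [cp, es_singleton, add_mul, mul_assoc, sub_mul, one_mul]
  by_cases hl : l = i
  · subst hl
    rw [D.idem, sub_self, add_zero]
  · rw [D.orth i l (Ne.symm hl), mul_zero, zero_add, sub_zero, hg.2 l hl]

theorem dt_of_mem_iSup {g : SpecialLinearGroup K E} (hg : g ∈ ⨆ i, D.A i) (i : Fin D.r) :
    g ∈ D.L ∧ D.dt {i} g = 1 := by
  induction hg using Subgroup.iSup_induction' with
  | hp j x hx =>
    refine ⟨hx.1, ?_⟩
    by_cases hj : j = i
    · subst hj
      rw [dt, cp_of_mem_A hx, ← cp_univ (D := D)]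
      exact dt_univ x
    · rw [dt, cp_of_mem_A_ne (Ne.symm hj) hx, map_one]
  | h1 => exact ⟨D.L.one_mem, dt_one _⟩
  | hmul x y _ _ hx hy => exact ⟨D.L.mul_mem hx.1 hy.1, by rw [dt_mul hx.1 hy.1, hx.2, hy.2, one_mul]⟩

theorem dt_ne_zero {s : Finset (Fin D.r)} {g : SpecialLinearGroup K E} (hg : g ∈ D.L) :
    D.dt s g ≠ 0 := by
  intro h
  have h1 := dt_mul (s := s) hg (D.L.inv_mem hg)
  rw [mul_inv_cancel, dt_one, h, zero_mul] at h1
  exact one_ne_zero h1

variable (D) in
/-- The determinants of the components. -/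
noncomputable def δ : D.L →* (Fin D.r → Kˣ) where
  toFun g := fun i => Units.mk0 (D.dt {i} g) (dt_ne_zero g.2)
  map_one' := by
    funext i
    apply Units.ext
    exact dt_one _
  map_mul' := by
    intro g h
    funext i
    apply Units.ext
    exact dt_mul g.2 h.2

theorem δ_ker : D.δ.ker = (⨆ i, D.A i).subgroupOf D.L := by
  ext g
  rw [MonoidHom.mem_ker, Subgroup.mem_subgroupOf]
  constructor
  · intro h
    refine mem_iSup g.2 fun i => ?_
    exact congrArg Units.val (congrFun h i)
  · intro h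
    funext i
    apply Units.ext
    exact (dt_of_mem_iSup h i).2

/-- The index of the product of the special linear groups. -/
theorem relIndex_dvd [Finite K] : (⨆ i, D.A i).relIndex D.L ∣ (Nat.card K - 1) ^ D.r := by
  have h1 : (⨆ i, D.A i).relIndex D.L = Nat.card D.δ.range := by
    rw [Subgroup.relIndex, ← δ_ker, Subgroup.index_ker]
  rw [h1]
  have h2 : Nat.card (Fin D.r → Kˣ) = (Nat.card K - 1) ^ D.r := by
    rw [Nat.card_pi, Finset.prod_const, Finset.card_univ, Fintype.card_fin, Nat.card_units]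
  rw [← h2]
  exact Subgroup.card_subgroup_dvd_card _

/-- The centraliser of `Q` stabilises the decomposition. -/
theorem cent_le : Subgroup.centralizer (Q : Set (SpecialLinearGroup K E)) ≤ D.L := by
  intro g hg i
  refine D.comm _ (fun q hq => ?_) i
  rw [← toEnd_mul, ← toEnd_mul, (Subgroup.mem_centralizer_iff.mp hg q hq)]

theorem Q_le (hab : ∀ x ∈ Q, ∀ y ∈ Q, x * y = y * x) : Q ≤ D.L := by
  intro g hg
  exact cent_le (Subgroup.mem_centralizer_iff.mpr fun q hq => hab q hq g hg)

/-- If the order of `Q` is prime to `|K| - 1` then `Q` lies in the product of the special linear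
groups. -/
theorem Q_le_iSup [Finite K] [Finite Q] (hab : ∀ x ∈ Q, ∀ y ∈ Q, x * y = y * x)
    (hQ : (Nat.card Q).Coprime (Nat.card K - 1)) : Q ≤ ⨆ i, D.A i := by
  intro g hg
  refine mem_iSup (Q_le hab hg) fun i => ?_
  let ψ : Q →* Kˣ := ((Pi.evalMonoidHom _ i).comp D.δ).comp (Subgroup.inclusion (Q_le hab))
  have h1 : ψ ⟨g, hg⟩ = 1 := by
    apply orderOf_eq_one_iff.mp
    refine Nat.eq_one_of_dvd_coprimes hQ ?_ ?_
    · exact (orderOf_map_dvd ψ _).trans (orderOf_dvd_natCard _)
    · rw [← Nat.card_units]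
      exact orderOf_dvd_natCard _
  exact congrArg Units.val h1

theorem cyclic_inf [Finite K] (i : Fin D.r) : IsCyclic (Q ⊓ D.A i : Subgroup _) := by
  obtain ⟨F, _, _, χ, hχ⟩ := D.cyc i
  let ψ : (Q ⊓ D.A i : Subgroup (SpecialLinearGroup K E)) →* Fˣ :=
    χ.comp (Subgroup.inclusion inf_le_left)
  have hinj : Function.Injective ψ := by
    rw [injective_iff_map_eq_one]
    intro g hg
    apply Subtype.ext
    apply toEnd_injective
    change toEnd (g : SpecialLinearGroup K E) = toEnd 1
    rw [toEnd_one]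
    apply ext_e (D := D)
    intro l
    rw [one_mul]
    by_cases hl : l = i
    · subst hl
      exact (hχ ⟨g, g.2.1⟩).mp hg
    · exact g.2.2.2 l hl
  exact isCyclic_of_injective ψ hinj

end fin

end Dec

end Vale.Agent.P180.R2.H954.Hc
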