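import Vale.Agent.P180.R2.H954.Hc3a

/-!
P180: the primitive idempotents of the group algebra of a commutative subgroup of the special linear
group over a finite field.
-/

set_option linter.all false

namespace Vale.Agent.P180.R2.H954.Hc

open Module Vale.Agent.P180.R2.H854

section Comb

/-- An involution with at most one fixed point is conjugate to the reversal. -/
theorem exists_equiv_rev {T : Type*} [Fintype T] (τ : T → T) (hτ : ∀ t, τ (τ t) = t)
    (hfix : ∀ s t, τ s = s → τ t = t → s = t) :
    ∃ e : T ≃ Fin (Fintype.card T), ∀ t, e (τ t) = Fin.rev (e t) := by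
  classical
  -- a linear order on `T`
  let o : T ≃ Fin (Fintype.card T) := Fintype.equivFin T
  let S : Finset T := Finset.univ.filter fun t => o t < o (τ t)
  have hS : ∀ t, t ∈ S ↔ o t < o (τ t) := fun t => by
    rw [Finset.mem_filter]; exact ⟨fun h => h.2, fun h => ⟨Finset.mem_univ _, h⟩⟩
  set m := S.card with hm
  let g : S ≃ Fin m := S.equivFin
  have htri : ∀ t, t ∈ S ∨ τ t ∈ S ∨ τ t = t := by
    intro t
    rcases lt_trichotomy (o t) (o (τ t)) with h | h | h
    · exact Or.inl ((hS t).mpr h)
    · exact Or.inr (Or.inr (o.injective h).symm)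
    · refine Or.inr (Or.inl ((hS _).mpr ?_))
      rwa [hτ]
  have hnot : ∀ t, t ∈ S → τ t ∉ S := by
    intro t h h'
    rw [hS] at h h'
    rw [hτ] at h'
    exact lt_asymm h h'
  have hSf : ∀ t, τ t = t → t ∉ S := by
    intro t h h'
    rw [hS, h] at h'
    exact lt_irrefl _ h'
  let Fx : Finset T := Finset.univ.filter fun t => τ t = t
  have hFx : ∀ t, t ∈ Fx ↔ τ t = t := fun t => by
    rw [Finset.mem_filter]; exact ⟨fun h => h.2, fun h => ⟨Finset.mem_univ _, h⟩⟩
  have hFx1 : Fx.card ≤ 1 := Finset.card_le_one.mpr fun s hs t ht =>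
    hfix s t ((hFx s).mp hs) ((hFx t).mp ht)
  have hτinj : Function.Injective τ := fun s t h => by rw [← hτ s, h, hτ]
  have hcard : Fintype.card T = m + (m + Fx.card) := by
    have h1 : (Finset.univ : Finset T) = S ∪ (S.image τ ∪ Fx) := by
      ext t
      simp only [Finset.mem_univ, Finset.mem_union, true_iff]
      rcases htri t with h | h | h
      · exact Or.inl h
      · exact Or.inr (Or.inl (Finset.mem_image.mpr ⟨τ t, h, hτ t⟩))
      · exact Or.inr (Or.inr ((hFx t).mpr h))
    have h2 : Disjoint (S.image τ) Fx := by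
      rw [Finset.disjoint_left]
      intro t ht ht'
      obtain ⟨s, hs, rfl⟩ := Finset.mem_image.mp ht
      rw [hFx, hτ] at ht'
      exact hSf s ht'.symm hs
    have h3 : Disjoint S (S.image τ ∪ Fx) := by
      rw [Finset.disjoint_left]
      intro t ht ht'
      rcases Finset.mem_union.mp ht' with h | h
      · obtain ⟨s, hs, rfl⟩ := Finset.mem_image.mp h
        exact hnot s hs ht
      · exact hSf t ((hFx t).mp h) ht
    rw [← Finset.card_univ, h1, Finset.card_union_of_disjoint h3,
      Finset.card_union_of_disjoint h2, Finset.card_image_of_injective _ hτinj]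
  -- the map
  have hgr : ∀ s : S, (g s : ℕ) < Fintype.card T := fun s => by
    have := (g s).2
    omega
  have hmid : ∀ t, t ∉ S → τ t ∉ S → Fx.card = 1 := by
    intro t h h'
    have h1 : τ t = t := by
      rcases htri t with h2 | h2 | h2
      · exact absurd h2 h
      · exact absurd h2 h'
      · exact h2
    have h2 : 0 < Fx.card := Finset.card_pos.mpr ⟨t, (hFx t).mpr h1⟩
    omega
  let e : T → Fin (Fintype.card T) := fun t =>
    if h : t ∈ S then ⟨g ⟨t, h⟩, hgr _⟩
    else if h' : τ t ∈ S then Fin.rev ⟨g ⟨τ t, h'⟩, hgr _⟩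
    else ⟨m, by have := hmid t h h'; omega⟩
  have e1 : ∀ t (h : t ∈ S), e t = ⟨g ⟨t, h⟩, hgr _⟩ := fun t h => dif_pos h
  have e2 : ∀ t (h : τ t ∈ S), e t = Fin.rev ⟨g ⟨τ t, h⟩, hgr _⟩ := by
    intro t h
    have h1 : t ∉ S := by
      intro h'
      exact hnot t h' h
    change (if h : t ∈ S then _ else _) = _
    rw [dif_neg h1, dif_pos h]
  have e3 : ∀ t, t ∉ S → τ t ∉ S → (e t : ℕ) = m := by
    intro t h h'
    change ((if h : t ∈ S then _ else _ : Fin (Fintype.card T)) : ℕ) = _
    rw [dif_neg h, dif_neg h']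
  have hrev : ∀ t, e (τ t) = Fin.rev (e t) := by
    intro t
    by_cases h : t ∈ S
    · have h' : τ (τ t) ∈ S := by rw [hτ]; exact h
      rw [e2 _ h', e1 _ h]
      congr 3
      exact congrArg g (Subtype.ext (hτ t))
    · by_cases h' : τ t ∈ S
      · rw [e1 _ h', e2 _ h', Fin.rev_rev]
      · apply Fin.ext
        have h1 : τ t = t := by
          rcases htri t with h2 | h2 | h2
          · exact absurd h2 h
          · exact absurd h2 h'
          · exact h2
        rw [h1, Fin.val_rev, e3 t h h']
        have := hmid t h h'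
        omega
  have hinj : Function.Injective e := by
    have key : ∀ s t, s ∈ S → e s = e t → s = t := by
      intro s t hs hst
      by_cases ht : t ∈ S
      · rw [e1 s hs, e1 t ht] at hst
        have h0 := congrArg (fun z : Fin (Fintype.card T) => (z : ℕ)) hst
        have h1 : g ⟨s, hs⟩ = g ⟨t, ht⟩ := Fin.ext h0
        exact congrArg Subtype.val (g.injective h1)
      · exfalso
        have hs' : (e s : ℕ) < m := by rw [e1 s hs]; exact (g ⟨s, hs⟩).2
        by_cases ht' : τ t ∈ S
        · have h1 : (e t : ℕ) = Fintype.card T - (g ⟨τ t, ht'⟩ + 1) := by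
            rw [e2 t ht', Fin.val_rev]
          have h2 := (g ⟨τ t, ht'⟩).2
          rw [hst, h1] at hs'
          omega
        · have h1 := e3 t ht ht'
          rw [hst] at hs'
          omega
    intro s t hst
    by_cases hs : s ∈ S
    · exact key s t hs hst
    by_cases ht : t ∈ S
    · exact (key t s ht hst.symm).symm
    have hst' : e (τ s) = e (τ t) := by rw [hrev, hrev, hst]
    by_cases hs' : τ s ∈ S
    · exact hτinj (key _ _ hs' hst')
    by_cases ht' : τ t ∈ S
    · exact hτinj (key _ _ ht' hst'.symm).symm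
    apply hfix
    · rcases htri s with h2 | h2 | h2
      · exact absurd h2 hs
      · exact absurd h2 hs'
      · exact h2
    · rcases htri t with h2 | h2 | h2
      · exact absurd h2 ht
      · exact absurd h2 ht'
      · exact h2
  have hbij : Function.Bijective e := by
    rw [Fintype.bijective_iff_injective_and_card]
    exact ⟨hinj, (Fintype.card_fin _).symm⟩
  exact ⟨Equiv.ofBijective e hbij, hrev⟩

end Comb

variable {K E : Type} [Field K] [AddCommGroup E] [Module K E]

/-- The action of the group algebra. -/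
noncomputable def act (Q : Subgroup (SpecialLinearGroup K E)) :
    MonoidAlgebra K Q →ₐ[K] End K E :=
  MonoidAlgebra.lift K (End K E) Q
    { toFun := fun q => toEnd (q : SpecialLinearGroup K E)
      map_one' := rfl
      map_mul' := fun _ _ => rfl }

theorem act_single {Q : Subgroup (SpecialLinearGroup K E)} (q : Q) (c : K) :
    act Q (MonoidAlgebra.single q c) = c • toEnd (q : SpecialLinearGroup K E) := by
  change MonoidAlgebra.lift K (End K E) Q _ (MonoidAlgebra.single q c) = _
  rw [MonoidAlgebra.lift_single]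
  rfl

/-- **The primitive idempotents.** -/
theorem exists_core [Finite K] (Q : Subgroup (SpecialLinearGroup K E)) [Finite Q]
    (hQ : (Nat.card K).Coprime (Nat.card Q)) (hab : ∀ x ∈ Q, ∀ y ∈ Q, x * y = y * x) :
    ∃ (T : Type) (_ : Fintype T) (ε : T → MonoidAlgebra K Q),
      (∀ t, ε t * ε t = ε t) ∧ (∀ s t, s ≠ t → ε s * ε t = 0) ∧
      (∑ t, act Q (ε t) = 1) ∧ (∀ t, act Q (ε t) ≠ 0) ∧
      (∀ t, ∃ (F : Type) (_ : Field F) (_ : Finite F) (π : MonoidAlgebra K Q →+* F),
        Function.Surjective π ∧ ∀ x, π x = 0 ↔ x * ε t = 0) ∧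
      (∀ y, y * y = y → act Q y ≠ 0 → (∀ c, c * c = c → c * y = 0 ∨ c * y = y) →
        ∃ t, y = ε t) := by
  classical
  letI : CommGroup Q := { (inferInstance : Group Q) with
    mul_comm := fun x y => Subtype.ext (hab x x.2 y y.2) }
  have hred : IsReduced (MonoidAlgebra K Q) := isReduced hQ
  have hfin : Finite (MonoidAlgebra K Q) := by
    have h1 : Module.Finite K (MonoidAlgebra K Q) :=
      Module.Finite.equiv (MonoidAlgebra.coeffLinearEquiv K (M := Q) (S := K)).symm
    exact Module.finite_of_finite K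
  have hart : IsArtinianRing (MonoidAlgebra K Q) := inferInstance
  have hMfin : Finite (MaximalSpectrum (MonoidAlgebra K Q)) := inferInstance
  let ψ := IsArtinianRing.equivPi (MonoidAlgebra K Q)
  let ε : MaximalSpectrum (MonoidAlgebra K Q) → MonoidAlgebra K Q := fun I => ψ.symm (Pi.single I 1)
  have hεI : ∀ I, ε I * ε I = ε I := by
    intro I
    change ψ.symm _ * ψ.symm _ = ψ.symm _
    rw [← map_mul, ← Pi.single_mul, one_mul]
  have hεIJ : ∀ I J, I ≠ J → ε I * ε J = 0 := by
    intro I J hIJ
    change ψ.symm _ * ψ.symm _ = 0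
    rw [← map_mul]
    have : (Pi.single I 1 : ∀ I : MaximalSpectrum (MonoidAlgebra K Q), MonoidAlgebra K Q ⧸ I.asIdeal) *
        Pi.single J 1 = 0 := by
      funext L
      rw [Pi.mul_apply, Pi.zero_apply]
      by_cases hL : L = I
      · subst hL
        rw [Pi.single_eq_of_ne hIJ, mul_zero]
      · rw [Pi.single_eq_of_ne hL, zero_mul]
    rw [this, map_zero]
  have := Fintype.ofFinite (MaximalSpectrum (MonoidAlgebra K Q))
  have hεs : ∑ I, ε I = 1 := by
    change ∑ I, ψ.symm (Pi.single I 1) = 1
    rw [← map_sum]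
    have : ∑ I : MaximalSpectrum (MonoidAlgebra K Q), (Pi.single I 1 :
        ∀ I : MaximalSpectrum (MonoidAlgebra K Q), MonoidAlgebra K Q ⧸ I.asIdeal) = 1 := by
      exact Finset.univ_sum_single (1 : ∀ I : MaximalSpectrum (MonoidAlgebra K Q),
        MonoidAlgebra K Q ⧸ I.asIdeal)
    rw [this, map_one]
  have hmem : ∀ I x, x * ε I = 0 ↔ x ∈ I.asIdeal := by
    intro I x
    have h1 : x * ε I = 0 ↔ ψ (x * ε I) = 0 := by
      rw [map_eq_zero_iff ψ ψ.injective]
    rw [h1, map_mul]
    have h2 : ψ (ε I) = Pi.single I 1 := ψ.apply_symm_apply _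
    rw [h2]
    constructor
    · intro h
      have h3 := congrFun h I
      rw [Pi.mul_apply, Pi.single_eq_same, mul_one, Pi.zero_apply] at h3
      exact Ideal.Quotient.eq_zero_iff_mem.mp h3
    · intro h
      funext L
      rw [Pi.mul_apply, Pi.zero_apply]
      by_cases hL : L = I
      · subst hL
        rw [Pi.single_eq_same, mul_one]
        exact Ideal.Quotient.eq_zero_iff_mem.mpr h
      · rw [Pi.single_eq_of_ne hL, mul_zero]
  let T := {I : MaximalSpectrum (MonoidAlgebra K Q) // act Q (ε I) ≠ 0}
  refine ⟨T, inferInstance, fun t => ε t.1, fun t => hεI _, ?_, ?_, fun t => t.2, ?_, ?_⟩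
  · intro s t hst
    exact hεIJ _ _ fun h => hst (Subtype.ext h)
  · have h1 : ∑ I : T, act Q (ε I.1) = ∑ I, act Q (ε I) := by
      refine Eq.trans ?_ (Finset.sum_filter_ne_zero (s := Finset.univ) (f := fun I => act Q (ε I)))
      exact (Finset.sum_subtype (Finset.univ.filter fun I => act Q (ε I) ≠ 0)
        (fun x => by rw [Finset.mem_filter]; exact ⟨fun h => h.2, fun h => ⟨Finset.mem_univ _, h⟩⟩)
        (fun I => act Q (ε I))).symm
    rw [h1, ← map_sum, hεs, map_one]
  · intro t
    have hfield : IsField (MonoidAlgebra K Q ⧸ t.1.asIdeal) :=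
      (Ideal.Quotient.maximal_ideal_iff_isField_quotient _).mp t.1.isMaximal
    have hFf : Finite (MonoidAlgebra K Q ⧸ t.1.asIdeal) :=
      Finite.of_surjective _ Ideal.Quotient.mk_surjective
    refine ⟨MonoidAlgebra K Q ⧸ t.1.asIdeal, hfield.toField, hFf,
      Ideal.Quotient.mk t.1.asIdeal, Ideal.Quotient.mk_surjective, fun x => ?_⟩
    rw [hmem]
    exact Ideal.Quotient.eq_zero_iff_mem
  · intro y hyy hy hprim
    have h1 : ∃ I, ε I * y ≠ 0 := by
      by_contra h
      push Not at h
      apply hy
      rw [← one_mul y, ← hεs, Finset.sum_mul, Finset.sum_congr rfl fun I _ => h I,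
        Finset.sum_const_zero, map_zero]
    obtain ⟨I, hI⟩ := h1
    have h2 : ε I * y = y := (hprim (ε I) (hεI I)).resolve_left hI
    -- `ε I` is primitive
    have h3 : y * ε I = ε I := by
      have h4 : y ∉ I.asIdeal := by
        rw [← hmem]
        intro h
        apply hI
        rw [mul_comm]
        exact h
      have h5 : (1 - y) ∈ I.asIdeal := by
        have h6 : y * (1 - y) ∈ I.asIdeal := by
          rw [mul_sub, mul_one, hyy, sub_self]
          exact I.asIdeal.zero_mem
        exact (I.isMaximal.isPrime.mem_or_mem h6).resolve_left h4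
      rw [← hmem, sub_mul, one_mul, sub_eq_zero] at h5
      exact h5.symm
    have h4 : y = ε I := by rw [← h3, mul_comm, h2]
    exact ⟨⟨I, by rw [← h4]; exact hy⟩, h4⟩

/-- A decomposition from an enumeration of the primitive idempotents. -/
noncomputable def decOf {Q : Subgroup (SpecialLinearGroup K E)} {T : Type} [Fintype T]
    (ε : T → MonoidAlgebra K Q) (h1 : ∀ t, ε t * ε t = ε t) (h2 : ∀ s t, s ≠ t → ε s * ε t = 0)
    (h3 : ∑ t, act Q (ε t) = 1) (h4 : ∀ t, act Q (ε t) ≠ 0)
    (h5 : ∀ t, ∃ (F : Type) (_ : Field F) (_ : Finite F) (π : MonoidAlgebra K Q →+* F),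
        Function.Surjective π ∧ ∀ x, π x = 0 ↔ x * ε t = 0)
    {n : ℕ} (e : T ≃ Fin n) : Dec Q where
  r := n
  e i := act Q (ε (e.symm i))
  idem i := by rw [← map_mul, h1]
  orth i j hij := by
    rw [← map_mul, h2, map_zero]
    exact fun h => hij (e.symm.injective h)
  sum := by
    rw [Equiv.sum_comp e.symm (fun t => act Q (ε t)), h3]
  ne i := h4 _
  comm a ha i := by
    have key : ∀ x : MonoidAlgebra K Q, a * act Q x = act Q x * a := by
      intro x
      induction x using MonoidAlgebra.induction_linear with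
      | zero => simp
      | add x y hx hy => rw [map_add, mul_add, add_mul, hx, hy]
      | single q c => rw [act_single, mul_smul_comm, smul_mul_assoc, ha q q.2]
    exact key _
  cyc i := by
    obtain ⟨F, hF, hFf, π, hπ, hπ0⟩ := h5 (e.symm i)
    refine ⟨F, hF, hFf, (Units.map π.toMonoidHom).comp (MonoidAlgebra.of K Q).toHomUnits,
      fun q => ?_⟩
    have g1 : (Units.map π.toMonoidHom).comp (MonoidAlgebra.of K Q).toHomUnits q = 1 ↔
        π (MonoidAlgebra.single q (1 : K) - 1) = 0 := by
      rw [map_sub, sub_eq_zero, map_one, Units.ext_iff]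
      rfl
    have g2 : act Q ((MonoidAlgebra.single q (1 : K) - 1) * ε (e.symm i)) = 0 ↔
        toEnd (q : SpecialLinearGroup K E) * act Q (ε (e.symm i)) = act Q (ε (e.symm i)) := by
      rw [map_mul, map_sub, map_one, sub_mul, one_mul, sub_eq_zero, act_single, one_smul]
    refine Iff.trans g1 (Iff.trans ?_ g2)
    rw [hπ0]
    refine ⟨fun h => by rw [h, map_zero], fun h => ?_⟩
    by_contra hne
    rw [← hπ0] at hne
    obtain ⟨y, hy⟩ := hπ (π (MonoidAlgebra.single q (1 : K) - 1))⁻¹
    have g3 : π (y * (MonoidAlgebra.single q (1 : K) - 1) - 1) = 0 := by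
      rw [map_sub, map_mul, hy, map_one, inv_mul_cancel₀ hne, sub_self]
    rw [hπ0, sub_mul, one_mul, sub_eq_zero] at g3
    apply h4 (e.symm i)
    rw [← g3, mul_assoc, map_mul, h, mul_zero]

end Vale.Agent.P180.R2.H954.Hc
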