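import Vale.Agent.P180.R2.H954.U1a

/-!
P180: homogeneous units commuting with a block algebra with central defect group.
-/

set_option linter.all false

namespace Vale.Agent.P180.R2.H954

open Vale.Agent.P180 Vale.Agent.P180.H768.Gd Vale.Agent.P180.R2.H365 Vale.Agent.P180.R2.H799

section Abs

variable {A : Type*} [Ring A]

/-- spreading a unit of a corner over a full matrix algebra -/
theorem spread_comm {n : ℕ} {i f s y : A} {u v : Fin n → A} (hf : f = ∑ a, u a * i * v a)
    (his : i * s = s) (hsi : s * i = s) (hcomm : ∀ a b, s * (i * (v a * y * u b) * i) =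
      (i * (v a * y * u b) * i) * s) :
    f * y * (∑ a, u a * s * v a) = (∑ a, u a * s * v a) * y * f := by
  have e1 : f * y * (∑ a, u a * s * v a) =
      ∑ a, ∑ b, u a * ((i * (v a * y * u b) * i) * s) * v b := by
    conv_lhs => rw [hf]
    rw [Finset.sum_mul, Finset.sum_mul]
    refine Finset.sum_congr rfl fun a _ => ?_
    rw [Finset.mul_sum]
    refine Finset.sum_congr rfl fun b _ => ?_
    conv_lhs => rw [← his]
    simp only [mul_assoc]
  have e2 : (∑ a, u a * s * v a) * y * f =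
      ∑ a, ∑ b, u a * (s * (i * (v a * y * u b) * i)) * v b := by
    conv_lhs => rw [hf]
    rw [Finset.sum_mul, Finset.sum_mul]
    refine Finset.sum_congr rfl fun a _ => ?_
    rw [Finset.mul_sum]
    refine Finset.sum_congr rfl fun b _ => ?_
    conv_lhs => rw [← hsi]
    simp only [mul_assoc]
  rw [e1, e2]
  exact Finset.sum_congr rfl fun a _ => Finset.sum_congr rfl fun b _ => by rw [hcomm]

theorem spread_mul {n : ℕ} {i f s s' : A} {u v : Fin n → A} (hf : f = ∑ a, u a * i * v a)
    (hff : f * f = f) (hii : i * i = i)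
    (hsi : s * i = s) (his' : i * s' = s') (hss : s * s' = i)
    (hcomm : ∀ a b, s * (i * (v a * u b) * i) = (i * (v a * u b) * i) * s) :
    (∑ a, u a * s * v a) * (∑ a, u a * s' * v a) = f := by
  have e1 : (∑ a, u a * s * v a) * (∑ a, u a * s' * v a) =
      ∑ a, ∑ b, u a * (s * (i * (v a * u b) * i) * s') * v b := by
    rw [Finset.sum_mul]
    refine Finset.sum_congr rfl fun a _ => ?_
    rw [Finset.mul_sum]
    refine Finset.sum_congr rfl fun b _ => ?_
    conv_lhs => rw [← hsi, ← his']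
    simp only [mul_assoc]
  have e2 : f * f = ∑ a, ∑ b, u a * ((i * (v a * u b) * i) * i) * v b := by
    conv_lhs => rw [hf]
    rw [Finset.sum_mul]
    refine Finset.sum_congr rfl fun a _ => ?_
    rw [Finset.mul_sum]
    refine Finset.sum_congr rfl fun b _ => ?_
    rw [mul_assoc (i * (v a * u b)) i i, hii]
    simp only [mul_assoc]
  rw [e1, ← hff, e2]
  refine Finset.sum_congr rfl fun a _ => Finset.sum_congr rfl fun b _ => ?_
  rw [hcomm, mul_assoc (i * (v a * u b) * i) s s', hss]

end Abs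

section Unit

variable {k : Type*} [Field k] [IsAlgClosed k] {p : ℕ} [Fact p.Prime] [CharP k p]

theorem exists_inner_unit_CB {E : Type} [Group E] [Finite E] {C : Subgroup E} [C.Normal]
    {Z : Type} [CommGroup Z] [Finite Z] {κ : Z →* E} (hZ : IsPGroup p Z)
    {f : MonoidAlgebra k E} (h : KP.CB C κ f) (hfE : f ∈ Fix (cj k E) ⊤)
    {g : E} (hg : ∀ z, g * κ z = κ z * g) :
    ∃ w w' : MonoidAlgebra k E, SuppIn {x | g⁻¹ * x ∈ C} w ∧ SuppIn {x | g * x ∈ C} w' ∧
      w ∈ Fix (cj k E) C ∧ w' ∈ Fix (cj k E) C ∧ f * w = w ∧ w * f = w ∧ f * w' = w' ∧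
      w' * f = w' ∧ w * w' = f ∧ w' * w = f := by
  have hf := h.block
  obtain ⟨d, hd, ψ, i, hψ, hi, -⟩ := KP.exists_CIdem h hZ
  obtain ⟨t, t', ht, ht', hit, hti, hit', ht'i, htt', ht't⟩ := hi.exists_unit h hZ hfE g
  obtain ⟨n, u, v, hu, hv, huv⟩ := hi.full
  have hcZ : C ≤ Subgroup.centralizer (κ.range : Set E) := by
    intro x hx
    rw [Subgroup.mem_centralizer_iff]
    rintro _ ⟨z, rfl⟩
    exact h.comm z x hx
  have hgZ : g ∈ Subgroup.centralizer (κ.range : Set E) := by
    rw [Subgroup.mem_centralizer_iff]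
    rintro _ ⟨z, rfl⟩
    exact (hg z).symm
  have htZ : t ∈ SubAlg k (Subgroup.centralizer (κ.range : Set E)) := by
    intro x hx
    have h1 := Subgroup.mul_mem _ hgZ (hcZ (ht x hx))
    rwa [mul_inv_cancel_left] at h1
  have ht'Z : t' ∈ SubAlg k (Subgroup.centralizer (κ.range : Set E)) := by
    intro x hx
    have h1 := Subgroup.mul_mem _ (Subgroup.inv_mem _ hgZ) (hcZ (ht' x hx))
    rwa [inv_mul_cancel_left] at h1
  have hcom : ∀ s ∈ SubAlg k (Subgroup.centralizer (κ.range : Set E)), i * s = s → s * i = s →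
      ∀ x ∈ SubAlg k C, s * (i * x * i) = (i * x * i) * s := by
    intro s hs his hsi x hx
    obtain ⟨l, hl⟩ := hi.corner x hx
    rw [hl]
    have h1 : KP.kap k κ l * s = s * KP.kap k κ l :=
      KP.kap_comm (fun c n hn => Subgroup.mem_centralizer_iff.mp hn (κ c) (MonoidHom.mem_range.mpr ⟨c, rfl⟩)) l hs
    have h2 : KP.kap k κ l * i = i * KP.kap k κ l := h.kap_comm l hi.mem
    rw [mul_assoc, his, h1, ← mul_assoc, ← h1, mul_assoc, hsi]
  have hff : f * f = f := hf.idem.eq
  have hfC : ∀ x ∈ SubAlg k C, x * f = f * x := fun x hx => h.e_comm hx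
  have hif : f * i = i := by rw [← hfC i hi.mem, hi.ie]
  have hW : ∀ s ∈ SubAlg k (Subgroup.centralizer (κ.range : Set E)), i * s = s → s * i = s →
      (f * (∑ a, u a * s * v a) = ∑ a, u a * s * v a) ∧
      ((∑ a, u a * s * v a) * f = ∑ a, u a * s * v a) ∧
      (∑ a, u a * s * v a) ∈ Fix (cj k E) C := by
    intro s hs his hsi
    have e1 : f * (∑ a, u a * s * v a) = ∑ a, u a * s * v a := by
      rw [Finset.mul_sum]
      refine Finset.sum_congr rfl fun a _ => ?_
      have h1 : f * s = s := by rw [← his, ← mul_assoc, hif]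
      calc f * (u a * s * v a) = (f * u a) * s * v a := by simp only [mul_assoc]
        _ = u a * (f * s) * v a := by rw [← hfC _ (hu a)]; simp only [mul_assoc]
        _ = _ := by rw [h1]
    have e2 : (∑ a, u a * s * v a) * f = ∑ a, u a * s * v a := by
      rw [Finset.sum_mul]
      refine Finset.sum_congr rfl fun a _ => ?_
      have h1 : s * f = s := by rw [← hsi, mul_assoc, hi.ie]
      calc u a * s * v a * f = u a * s * (v a * f) := by simp only [mul_assoc]
        _ = u a * (s * f) * v a := by rw [hfC _ (hv a)]; simp only [mul_assoc]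
        _ = _ := by rw [h1]
    refine ⟨e1, e2, mem_Fix_cj_iff.mpr fun x hx => ?_⟩
    have hxC : MonoidAlgebra.single x (1 : k) ∈ SubAlg k C := single_mem_SubAlg hx 1
    have h1 := spread_comm (y := MonoidAlgebra.single x (1 : k)) huv his hsi (fun a b =>
      hcom s hs his hsi _ (Subalgebra.mul_mem _ (Subalgebra.mul_mem _ (hv a) hxC) (hu b)))
    rw [← hfC _ hxC, mul_assoc, e1, mul_assoc _ _ f, hfC _ hxC, ← mul_assoc _ f, e2] at h1
    exact h1
  obtain ⟨a1, a2, a3⟩ := hW t htZ hit hti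
  obtain ⟨b1, b2, b3⟩ := hW t' ht'Z hit' ht'i
  refine ⟨∑ a, u a * t * v a, ∑ a, u a * t' * v a, ?_, ?_, a3, b3, a1, a2, b1, b2, ?_, ?_⟩
  · have hsum : ∀ s : Finset (Fin n), SuppIn {x | g⁻¹ * x ∈ C} (∑ a ∈ s, u a * t * v a) := by
      intro s
      classical
      induction s using Finset.induction_on with
      | empty =>
        intro x hx
        rw [Finset.sum_empty] at hx
        exact absurd rfl hx
      | insert a s ha ih =>
        rw [Finset.sum_insert ha]
        refine SuppIn.add ?_ ih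
        refine SuppIn.mul (SuppIn.mul (hu a) ht (U := {x | g⁻¹ * x ∈ C}) ?_) (hv a) ?_
        · intro x hx y hy
          change g⁻¹ * (x * y) ∈ C
          have h1 : g⁻¹ * (x * y) = (g⁻¹ * x * g) * (g⁻¹ * y) := by group
          rw [h1]
          have h2 := (inferInstance : C.Normal).conj_mem x hx g⁻¹
          rw [inv_inv] at h2
          exact C.mul_mem h2 hy
        · intro x hx y hy
          change g⁻¹ * (x * y) ∈ C
          rw [← mul_assoc]
          exact C.mul_mem hx hy
    exact hsum _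
  · have hsum : ∀ s : Finset (Fin n), SuppIn {x | g * x ∈ C} (∑ a ∈ s, u a * t' * v a) := by
      intro s
      classical
      induction s using Finset.induction_on with
      | empty =>
        intro x hx
        rw [Finset.sum_empty] at hx
        exact absurd rfl hx
      | insert a s ha ih =>
        rw [Finset.sum_insert ha]
        refine SuppIn.add ?_ ih
        refine SuppIn.mul (SuppIn.mul (hu a) ht' (U := {x | g * x ∈ C}) ?_) (hv a) ?_
        · intro x hx y hy
          change g * (x * y) ∈ C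
          have h1 : g * (x * y) = (g * x * g⁻¹) * (g * y) := by group
          rw [h1]
          have h2 := (inferInstance : C.Normal).conj_mem x hx g
          exact C.mul_mem h2 hy
        · intro x hx y hy
          change g * (x * y) ∈ C
          rw [← mul_assoc]
          exact C.mul_mem hx hy
    exact hsum _
  · exact spread_mul huv hff hi.idem hti hit' htt' fun a b =>
      hcom t htZ hit hti _ (Subalgebra.mul_mem _ (hv a) (hu b))
  · exact spread_mul huv hff hi.idem ht'i hit ht't fun a b =>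
      hcom t' ht'Z hit' ht'i _ (Subalgebra.mul_mem _ (hv a) (hu b))

theorem exists_inner_unit_top {E : Type} [Group E] [Finite E] {C Z : Subgroup E} [C.Normal]
    (hZ : IsPGroup p Z) (hZC : Z ≤ C) (hcen : ∀ z ∈ Z, ∀ n ∈ C, z * n = n * z)
    {f a₀ : MonoidAlgebra k E} (hf : IsBlockOf C f) (hfE : f ∈ Fix (cj k E) ⊤)
    (ha₀ : a₀ ∈ SubAlg k C) (hfa : f = tr (cj k E) Z C a₀) {g : E} (hg : ∀ z ∈ Z, g * z = z * g) :
    ∃ w w' : MonoidAlgebra k E, SuppIn {x | g⁻¹ * x ∈ C} w ∧ SuppIn {x | g * x ∈ C} w' ∧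
      w ∈ Fix (cj k E) C ∧ w' ∈ Fix (cj k E) C ∧ f * w = w ∧ w * f = w ∧ f * w' = w' ∧
      w' * f = w' ∧ w * w' = f ∧ w' * w = f := by
  letI hcg : CommGroup Z := { (inferInstance : Group Z) with
    mul_comm := fun a b => Subtype.ext (hcen a a.2 b (hZC b.2)) }
  have h : KP.CB C Z.subtype f :=
    { inj := Z.subtype_injective
      mem := fun c => hZC c.2
      comm := fun c n hn => hcen c c.2 n hn
      block := hf
      trace := ⟨a₀, ha₀, by rw [Subgroup.range_subtype]; exact hfa⟩ }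
  exact exists_inner_unit_CB hZ h hfE fun z => hg z z.2

omit [IsAlgClosed k] [Fact p.Prime] [CharP k p] in
theorem incl_supp {G : Type} [Group G] [Finite G] (E : Subgroup G) {S : Set G} {T : Set E}
    (h : ∀ x : E, x ∈ T → (x : G) ∈ S) {a : MonoidAlgebra k E} (ha : SuppIn T a) :
    SuppIn S (incl k E a) := by
  intro x hx
  have hxE : x ∈ E := incl_mem E a x hx
  refine h ⟨x, hxE⟩ (ha _ ?_)
  rw [← H799.incl_coeff]
  exact hx

theorem exists_inner_unit {G : Type} [Group G] [Finite G] {C Z : Subgroup G}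
    (hZ : IsPGroup p Z) (hZC : Z ≤ C) (hcen : ∀ z ∈ Z, ∀ n ∈ C, z * n = n * z)
    {f a₀ : MonoidAlgebra k G} (hf : IsBlockOf C f)
    (ha₀ : a₀ ∈ SubAlg k C) (hfa : f = tr (cj k G) Z C a₀) {g : G}
    (hgC : g ∈ Subgroup.normalizer (C : Set G)) (hgf : cj k G g f = f)
    (hg : ∀ z ∈ Z, g * z = z * g) :
    ∃ w w' : MonoidAlgebra k G, SuppIn {x | g⁻¹ * x ∈ C} w ∧ SuppIn {x | g * x ∈ C} w' ∧
      w ∈ Fix (cj k G) C ∧ w' ∈ Fix (cj k G) C ∧ f * w = w ∧ w * f = w ∧ f * w' = w' ∧
      w' * f = w' ∧ w * w' = f ∧ w' * w = f := by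
  obtain ⟨E, hCE, hgE, hEn, hEf⟩ : ∃ E : Subgroup G, C ≤ E ∧ g ∈ E ∧
      (∀ x ∈ E, x ∈ Subgroup.normalizer (C : Set G)) ∧ (∀ x ∈ E, cj k G x f = f) :=
    ⟨Subgroup.normalizer (C : Set G) ⊓ stabE f,
      le_inf Subgroup.le_normalizer fun x hx => mem_stabE.mpr (hf.mem.2 x hx),
      ⟨hgC, mem_stabE.mpr hgf⟩, fun x hx => hx.1, fun x hx => mem_stabE.mp hx.2⟩
  have hZE : Z ≤ E := hZC.trans hCE
  obtain ⟨f', rfl⟩ := exists_incl E (SubAlg_mono hCE hf.mem.1)
  obtain ⟨a', rfl⟩ := exists_incl E (SubAlg_mono hCE ha₀)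
  have hmapC : (C.subgroupOf E).map E.subtype = C := Subgroup.map_subgroupOf_eq_of_le hCE
  have hmapZ : (Z.subgroupOf E).map E.subtype = Z := Subgroup.map_subgroupOf_eq_of_le hZE
  have hCn : (C.subgroupOf E).Normal := by
    constructor
    intro s hs x
    rw [Subgroup.mem_subgroupOf] at hs ⊢
    exact (Subgroup.mem_normalizer_iff.mp (hEn x x.2) _).mp hs
  have hf' : IsBlockOf (C.subgroupOf E) f' := (isBlockOf_subgroupOf_iff hCE f').mpr hf
  have hfE : f' ∈ Fix (cj k E) ⊤ := by
    intro x _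
    apply incl_injective (k := k) E
    rw [incl_cj]
    exact hEf x x.2
  have ha' : a' ∈ SubAlg k (C.subgroupOf E) := by
    rw [← incl_mem_SubAlg_iff, hmapC]; exact ha₀
  have ha'F : a' ∈ Fix (cj k E) (Z.subgroupOf E) := by
    rw [← incl_mem_Fix_iff, hmapZ]
    intro z hz
    refine SuppIn.induction (P := fun a => cj k G z a = a) ha₀ (map_zero _) ?_ ?_
    · intro a b ha hb; rw [map_add, ha, hb]
    · intro x hx r
      rw [map_smul, cj_single, hcen z hz x hx, mul_inv_cancel_right]
  have hfa' : f' = tr (cj k E) (Z.subgroupOf E) (C.subgroupOf E) a' := by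
    apply incl_injective (k := k) E
    rw [incl_tr_gen E ha'F, hmapC, hmapZ]
    exact hfa
  obtain ⟨w, w', h1, h2, h3, h4, h5, h6, h7, h8, h9, h10⟩ := exists_inner_unit_top (k := k)
    (hZ.comap_of_injective E.subtype E.subtype_injective)
    (fun x hx => hZC hx)
    (fun z hz n hn => Subtype.ext (hcen z hz n hn)) hf' hfE ha' hfa' (g := ⟨g, hgE⟩)
    (fun z hz => Subtype.ext (hg z hz))
  refine ⟨incl k E w, incl k E w', incl_supp E (fun x hx => hx) h1, incl_supp E (fun x hx => hx) h2,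
    ?_, ?_, ?_, ?_, ?_, ?_, ?_, ?_⟩
  · rw [← hmapC, incl_mem_Fix_iff]; exact h3
  · rw [← hmapC, incl_mem_Fix_iff]; exact h4
  · rw [← map_mul, h5]
  · rw [← map_mul, h6]
  · rw [← map_mul, h7]
  · rw [← map_mul, h8]
  · rw [← map_mul, h9]
  · rw [← map_mul, h10]

end Unit

end Vale.Agent.P180.R2.H954
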