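import Vale.Agent.P180.R2.H954.U1b
import Vale.Agent.P180.R2.H667.Ge
import Vale.Agent.P180.R2.H12.Tame

/-!
P180: a stable block `e` of a normal subgroup `X` with defect group `P`: the local structure.
-/

set_option linter.all false

namespace Vale.Agent.P180.R2.H954

open Vale.Agent.P180 Vale.Agent.P180.H768.Gd Vale.Agent.P180.R2.H365 Vale.Agent.P180.R2.H799

section Data

variable {k : Type*} [Field k] {p : ℕ} {G : Type} [Group G] [Finite G]

/-- A stable block `e` of the normal subgroup `X` with defect group `P`. -/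
structure UD (p : ℕ) (X P : Subgroup G) (e z : MonoidAlgebra k G) : Prop where
  hP : IsPGroup p P
  hPX : P ≤ X
  he : IsBlockOf X e
  heG : ∀ g, cj k G g e = e
  hz : z ∈ SubAlg k X
  hzP : z ∈ Fix (cj k G) P
  hez : e = tr (cj k G) P X z
  hbr : br P e ≠ 0

/-- the centraliser of `P` in `X` -/
abbrev UC (X P : Subgroup G) : Subgroup G := X ⊓ Subgroup.centralizer (P : Set G)

/-- the normaliser of `P` in `X` -/
abbrev UN (X P : Subgroup G) : Subgroup G := X ⊓ Subgroup.normalizer (P : Set G)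

variable {X P : Subgroup G} {e z : MonoidAlgebra k G}

theorem cent_le_norm : Subgroup.centralizer (P : Set G) ≤ Subgroup.normalizer (P : Set G) := by
  intro x hx
  rw [Subgroup.mem_normalizer_iff]
  intro y
  constructor
  · intro hy
    rw [← Subgroup.mem_centralizer_iff.mp hx y hy, mul_inv_cancel_right]
    exact hy
  · intro hy
    have h1 := Subgroup.mem_centralizer_iff.mp hx _ hy
    have h2 : x * y * x⁻¹ = y := by
      have h3 : x * y * x⁻¹ * x = x * (x * y * x⁻¹) := h1
      have h4 : x * y = x * (x * y * x⁻¹) := by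
        rw [← h3]; group
      exact (mul_left_cancel h4).symm
    rwa [h2] at hy

theorem mem_norm_UC [X.Normal] {n : G} (hn : n ∈ Subgroup.normalizer (P : Set G)) :
    n ∈ Subgroup.normalizer (UC X P : Set G) := by
  have key : ∀ n ∈ Subgroup.normalizer (P : Set G), ∀ x ∈ UC X P, n * x * n⁻¹ ∈ UC X P := by
    intro n hn x hx
    refine ⟨(inferInstance : X.Normal).conj_mem x hx.1 n, ?_⟩
    have := norm_cent ((Subgroup.normalizer (P : Set G)).inv_mem hn) hx.2
    rwa [inv_inv] at this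
  rw [Subgroup.mem_normalizer_iff]
  intro x
  refine ⟨key n hn x, fun hx => ?_⟩
  have := key n⁻¹ ((Subgroup.normalizer (P : Set G)).inv_mem hn) _ hx
  simpa [mul_assoc] using this

theorem conjS_of_norm {S : Subgroup G} {n : G} (hn : n ∈ Subgroup.normalizer (S : Set G)) :
    conjS n S = S := by
  ext x
  rw [mem_conjS]
  have h1 := Subgroup.mem_normalizer_iff.mp ((Subgroup.normalizer (S : Set G)).inv_mem hn) x
  rw [inv_inv] at h1
  exact h1.symm

theorem cj_mem_UC [X.Normal] {n : G} (hn : n ∈ Subgroup.normalizer (P : Set G))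
    {a : MonoidAlgebra k G} (ha : a ∈ SubAlg k (UC X P)) : cj k G n a ∈ SubAlg k (UC X P) := by
  refine SuppIn.conj (T := (UC X P : Set G)) ha n fun s hs => ?_
  exact (Subgroup.mem_normalizer_iff.mp (mem_norm_UC hn) s).mp hs

theorem UC_fix_P {a : MonoidAlgebra k G} (ha : a ∈ SubAlg k (Subgroup.centralizer (P : Set G))) :
    a ∈ Fix (cj k G) P := H365.fix_of_cent ha

theorem block_cj [X.Normal] {n : G} (hn : n ∈ Subgroup.normalizer (P : Set G))
    {f : MonoidAlgebra k G} (hf : IsBlockOf (UC X P) f) : IsBlockOf (UC X P) (cj k G n f) := by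
  have h := H954.isBlockOf_conj n hf
  rwa [conjS_of_norm (mem_norm_UC hn)] at h

variable [Fact p.Prime] [CharP k p]

theorem UD.e₁_mem (h : UD p X P e z) : br P e ∈ SubAlg k (UC X P) := by
  classical
  intro x hx
  rw [br_coeff] at hx
  by_cases hxP : x ∈ Subgroup.centralizer (P : Set G)
  · rw [if_pos hxP] at hx
    exact ⟨h.he.mem.1 x hx, hxP⟩
  · exact absurd (if_neg hxP) hx

theorem UD.e₁_fix (h : UD p X P e z) :
    br P e ∈ Fix (cj k G) (Subgroup.normalizer (P : Set G)) := by
  intro n hn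
  rw [← br_cj_norm hn, h.heG]

theorem UD.e₁_idem (h : UD p X P e z) : br P e * br P e = br P e := by
  rw [← br_mul h.hP (fun g _ => h.heG g) (fun g _ => h.heG g), h.he.idem.eq]

theorem UD.P_le (h : UD p X P e z) : P ≤ UN X P := le_inf h.hPX Subgroup.le_normalizer

theorem UD.e₁_tr (h : UD p X P e z) : br P e = tr (cj k G) P (UN X P) (br P z) := by
  conv_lhs => rw [h.hez]
  exact br_tr_rel h.hP h.hPX h.hzP

/-- Surjectivity of the Brauer homomorphism. -/
theorem UD.lift (h : UD p X P e z) {v : MonoidAlgebra k G} (hv : v ∈ Fix (cj k G) (UN X P))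
    (hvC : v ∈ SubAlg k (Subgroup.centralizer (P : Set G))) :
    br P (tr (cj k G) P X (z * v)) = br P e * v := by
  have hvP : v ∈ Fix (cj k G) P := Fix_mono _ h.P_le hv
  rw [br_tr_rel h.hP h.hPX (Subalgebra.mul_mem _ h.hzP hvP), br_mul h.hP h.hzP hvP,
    H12.br_of_cent hvC, ← tr_mul hv, ← h.e₁_tr]

theorem nil_smul {f : MonoidAlgebra k G} (hff : f * f = f) (hf0 : f ≠ 0) {c : k}
    (h : IsNilpotent (c • f)) : c = 0 := by
  obtain ⟨n, hn⟩ := h
  rw [smul_pow] at hn
  by_contra hc
  rcases (smul_eq_zero.mp hn) with h1 | h1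
  · exact hc (pow_eq_zero_iff (n := n) (by rintro rfl; rw [pow_zero] at h1; exact one_ne_zero h1) |>.mp h1)
  · rcases n with _ | n
    · rw [pow_zero] at h1
      apply hf0
      rw [← one_mul f, h1, zero_mul]
    · rw [IsIdempotentElem.pow_succ_eq n hff] at h1
      exact hf0 h1

omit [Fact p.Prime] [CharP k p] in
/-- the trace from the stabiliser, times the block -/
theorem tr_stab_mul_self [X.Normal] {f v : MonoidAlgebra k G} (hf : IsBlockOf (UC X P) f)
    (hv : v ∈ Fix (cj k G) (UN X P ⊓ stabE f)) (hvf : v * f = v) :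
    tr (cj k G) (UN X P ⊓ stabE f) (UN X P) v * f = v := by
  set T : Subgroup G := UN X P ⊓ stabE f with hT
  have _ := Fintype.ofFinite (UN X P ⧸ T.subgroupOf (UN X P))
  have h0 : ∀ t ∈ UN X P, t ∉ T → cj k G t v * f = 0 := by
    intro t ht htT
    rcases (block_cj ht.2 hf).eq_or_mul_eq_zero (by exact ZAlg_comm) hf with h1 | h1
    · exact absurd ⟨ht, mem_stabE.mpr h1⟩ htT
    · conv_lhs => rw [← hvf]
      rw [map_mul, mul_assoc, h1, mul_zero]
  rw [tr_def, Finset.sum_mul,
    Finset.sum_eq_single ((1 : UN X P) : UN X P ⧸ T.subgroupOf (UN X P))]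
  · have h1 : cj k G ((((1 : UN X P) : UN X P ⧸ T.subgroupOf (UN X P)).out : UN X P) : G) v =
        cj k G ((1 : UN X P) : G) v := act_out hv 1
    rw [h1, OneMemClass.coe_one, map_one_act, hvf]
  · intro q _ hq
    apply h0 _ (q.out : UN X P).2
    intro hqT
    apply hq
    rw [← QuotientGroup.out_eq' q, QuotientGroup.eq, Subgroup.mem_subgroupOf, mul_one]
    exact T.inv_mem hqT
  · intro h1
    exact absurd (Finset.mem_univ _) h1

omit [Fact p.Prime] [CharP k p] in
theorem tr_stab_mul_other [X.Normal] {f f' : MonoidAlgebra k G} (hf : IsBlockOf (UC X P) f)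
    (hf' : IsBlockOf (UC X P) f') (hne : ∀ x ∈ UN X P, cj k G x f ≠ f') (T : Subgroup G) :
    tr (cj k G) T (UN X P) f * f' = 0 := by
  have _ := Fintype.ofFinite (UN X P ⧸ T.subgroupOf (UN X P))
  rw [tr_def, Finset.sum_mul]
  refine Finset.sum_eq_zero fun q _ => ?_
  rcases (block_cj (q.out : UN X P).2.2 hf).eq_or_mul_eq_zero (by exact ZAlg_comm) hf' with h1 | h1
  · exact absurd h1 (hne _ (q.out : UN X P).2)
  · exact h1

theorem br_pow_of (hP : IsPGroup p P) {y : MonoidAlgebra k G} (hy : y ∈ Fix (cj k G) P) (m : ℕ) :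
    br P (y ^ m) = (br P y) ^ m := by
  induction m with
  | zero =>
    rw [pow_zero, pow_zero]
    exact H12.br_of_cent (Subalgebra.one_mem _)
  | succ m ih => rw [pow_succ, pow_succ, br_mul hP (Subalgebra.pow_mem _ hy m) hy, ih]

omit [Fact p.Prime] [CharP k p] in
theorem br_sub_smul (x y : MonoidAlgebra k G) (c : k) :
    br P (x - c • y) = br P x - c • br P y := by
  classical
  apply MonoidAlgebra.coeff_injective
  ext w
  rw [br_coeff, MonoidAlgebra.coeff_sub, MonoidAlgebra.coeff_sub, Finsupp.sub_apply,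
    Finsupp.sub_apply, MonoidAlgebra.coeff_smul, MonoidAlgebra.coeff_smul, Finsupp.smul_apply,
    Finsupp.smul_apply, br_coeff, br_coeff]
  split_ifs <;> simp

/-- An element of `Z(kC)` fixed by `N_X(P)` has the same residue at all blocks below `e`. -/
theorem UD.eval [IsAlgClosed k] [X.Normal] (h : UD p X P e z) {F : MonoidAlgebra k G}
    (hFN : F ∈ Fix (cj k G) (UN X P)) (hFC : F ∈ SubAlg k (UC X P)) (heF : br P e * F = F) :
    ∃ c : k, ∀ φ : MonoidAlgebra k G, IsBlockOf (UC X P) φ → br P e * φ = φ → ∀ d : k,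
      F * φ = d • φ → d = c := by
  have _ : FiniteDimensional k (MonoidAlgebra k G) :=
    Module.Finite.equiv (MonoidAlgebra.coeffLinearEquiv k (M := G) (S := k)).symm
  set x := tr (cj k G) P X (z * F) with hx
  have hzF : z * F ∈ Fix (cj k G) P := Subalgebra.mul_mem _ h.hzP (Fix_mono _ h.P_le hFN)
  have hxX : x ∈ ZAlg k X :=
    ⟨KP.tr_mem_SubAlg (Subalgebra.mul_mem _ h.hz (SubAlg_mono inf_le_left hFC)), tr_mem_Fix hzF⟩
  have hbrx : br P x = F := by
    rw [hx, h.lift hFN (SubAlg_mono inf_le_right hFC), heF]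
  obtain ⟨c, m, hm⟩ := KP.isPrimIn_exists_scalar (by exact ZAlg_comm) h.he hxX
  have heP : e ∈ Fix (cj k G) P := fun g _ => h.heG g
  have hxP : x ∈ Fix (cj k G) P := Fix_mono _ h.hPX hxX.2
  have h2 : F * br P e = F := by
    have : F * br P e = br P e * F := commute_of_mem (SubAlg_mono (by
      exact inf_le_right.trans cent_le_norm) hFC) h.e₁_fix
    rw [this, heF]
  have hlin : br P (x * e - c • e) = F - c • br P e := by
    rw [br_sub_smul, br_mul h.hP hxP heP, hbrx, h2]
  have hnil : (F - c • br P e) ^ m = 0 := by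
    rw [← hlin, ← br_pow_of h.hP (Subalgebra.sub_mem _ (Subalgebra.mul_mem _ hxP heP)
      (Subalgebra.smul_mem _ heP c)), hm]
    exact H12.br_of_cent (Subalgebra.zero_mem _)
  refine ⟨c, fun φ hφ heφ d hd => ?_⟩
  have h1 : (F - c • br P e) * φ = (d - c) • φ := by
    rw [sub_mul, smul_mul_assoc, heφ, hd, sub_smul]
  have hcomm : Commute (F - c • br P e) φ :=
    commute_of_mem (Subalgebra.sub_mem _ hFC (Subalgebra.smul_mem _ h.e₁_mem c)) hφ.mem.2
  have h2 : IsNilpotent ((d - c) • φ) := by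
    rw [← h1]
    exact hcomm.isNilpotent_mul_right ⟨m, hnil⟩
  exact sub_eq_zero.mp (nil_smul hφ.idem.eq hφ.ne_zero h2)

/-- **Transitivity** of `N_X(P)` on the blocks of `kC_X(P)` below `e`, up to `N_G(P)`. -/
theorem UD.trans [IsAlgClosed k] [X.Normal] (h : UD p X P e z) {f : MonoidAlgebra k G}
    (hf : IsBlockOf (UC X P) f) (hef : br P e * f = f) {n : G}
    (hn : n ∈ Subgroup.normalizer (P : Set G)) : ∃ x ∈ UN X P, cj k G x f = cj k G n f := by
  by_contra hcon
  push Not at hcon
  have hf' : IsBlockOf (UC X P) (cj k G n f) := block_cj hn hf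
  have hfT : f ∈ Fix (cj k G) (UN X P ⊓ stabE f) := fun t ht => mem_stabE.mp ht.2
  have hFf := tr_stab_mul_self hf hfT hf.idem.eq
  have hFf' := tr_stab_mul_other hf hf' hcon (UN X P ⊓ stabE f)
  set F := tr (cj k G) (UN X P ⊓ stabE f) (UN X P) f with hF
  have hFN : F ∈ Fix (cj k G) (UN X P) := tr_mem_Fix hfT
  have hFC : F ∈ SubAlg k (UC X P) := by
    have _ := Fintype.ofFinite (UN X P ⧸ (UN X P ⊓ stabE f).subgroupOf (UN X P))
    rw [hF, tr_def]
    exact Subalgebra.sum_mem _ fun q _ => cj_mem_UC (q.out : UN X P).2.2 hf.mem.1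
  have heF : br P e * F = F := by
    rw [hF, mul_tr (Fix_mono _ inf_le_right h.e₁_fix), hef]
  obtain ⟨c, hc⟩ := h.eval hFN hFC heF
  have h1 := hc f hf hef 1 (by rw [hFf, one_smul])
  have hef' : br P e * cj k G n f = cj k G n f := by
    conv_lhs => rw [← h.e₁_fix n hn]
    rw [← map_mul, hef]
  have h2 := hc _ hf' hef' 0 (by rw [hFf', zero_smul])
  rw [← h1] at h2
  exact zero_ne_one h2

end Data

end Vale.Agent.P180.R2.H954
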