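import Vale.Agent.P180.R2.H954.U1c

/-!
P180: a stable block `e` of a normal subgroup `X` with defect group `P`: the Frattini argument, and
the relative trace giving a block of `k C_X(P)`.
-/

set_option linter.all false

namespace Vale.Agent.P180.R2.H954

open Vale.Agent.P180 Vale.Agent.P180.H768.Gd Vale.Agent.P180.R2.H365 Vale.Agent.P180.R2.H799

variable {k : Type*} [Field k] {p : ℕ} [Fact p.Prime] [CharP k p] {G : Type} [Group G] [Finite G]
variable {X P : Subgroup G} {e z : MonoidAlgebra k G}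

/-- **Frattini argument.** -/
theorem UD.frattini [IsAlgClosed k] [X.Normal] (h : UD p X P e z) {f : MonoidAlgebra k G}
    (hf : IsBlockOf (UC X P) f) (hef : br P e * f = f) (g : G) :
    ∃ x ∈ X, ∃ n ∈ Subgroup.normalizer (P : Set G) ⊓ stabE f, g = x * n := by
  obtain ⟨c, hc, hec⟩ := exists_coeff_of_br h.hbr
  have hX : conjS g X = X := by
    ext x
    rw [mem_conjS]
    constructor
    · intro hx
      have := (inferInstance : X.Normal).conj_mem _ hx g
      simpa [mul_assoc] using this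
    · intro hx
      have := (inferInstance : X.Normal).conj_mem _ hx g⁻¹
      simpa [mul_assoc] using this
  have h1 := cj_tr (k := k) g (K := X) h.hzP
  rw [← h.hez, h.heG, hX] at h1
  have hPX' : conjS g P ≤ X := by
    rw [← hX]
    exact Subgroup.map_mono h.hPX
  obtain ⟨x, hx, hxv⟩ := exists_conj_of_coeff hPX' h.hPX h.hP
    (conj_mem_Fix h.hzP g fun y hy => mem_conjS.mp hy) h1 hc hec
  set n := x * g with hn
  have hnN : n ∈ Subgroup.normalizer (P : Set G) := by
    rw [← Subgroup.inv_mem_iff]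
    refine Subgroup.mem_normalizer_fintype fun v hv => ?_
    have h2 := mem_conjS.mp (hxv v hv)
    have e1 : n⁻¹ * v * (n⁻¹)⁻¹ = g⁻¹ * (x⁻¹ * v * x) * g := by rw [hn]; group
    rw [e1]
    exact h2
  obtain ⟨y, hy, hyf⟩ := h.trans hf hef hnN
  refine ⟨x⁻¹ * y, X.mul_mem (X.inv_mem hx) hy.1, y⁻¹ * n, ⟨?_, ?_⟩, ?_⟩
  · exact Subgroup.mul_mem _ (Subgroup.inv_mem _ hy.2) hnN
  · change cj k G (y⁻¹ * n) f = f
    rw [map_mul_act, ← hyf, map_inv_act]
  · rw [hn]; group

/-- `f` is a relative trace from `P` in the stabiliser of `f` in `N_X(P)`. -/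
theorem UD.exists_u₀ [X.Normal] (h : UD p X P e z) {f : MonoidAlgebra k G}
    (hf : IsBlockOf (UC X P) f) (hef : br P e * f = f) :
    ∃ u₀ ∈ SubAlg k (UC X P), f * u₀ = u₀ ∧
      f = tr (cj k G) P (UN X P ⊓ stabE f) u₀ := by
  classical
  set T := UN X P ⊓ stabE f with hT
  set z₁ := br P z with hz₁
  have hz₁C : z₁ ∈ SubAlg k (UC X P) := by
    intro x hx
    rw [hz₁, br_coeff] at hx
    by_cases hxP : x ∈ Subgroup.centralizer (P : Set G)
    · rw [if_pos hxP] at hx
      exact ⟨h.hz x hx, hxP⟩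
    · exact absurd (if_neg hxP) hx
  have hz₁P : z₁ ∈ Fix (cj k G) P := UC_fix_P (SubAlg_mono inf_le_right hz₁C)
  have _ := Fintype.ofFinite (UN X P ⧸ P.subgroupOf (UN X P))
  letI : MulAction T (UN X P ⧸ P.subgroupOf (UN X P)) :=
    MulAction.compHom _ (Subgroup.inclusion (inf_le_left : T ≤ UN X P))
  have _ := Fintype.ofFinite (MulAction.orbitRel.Quotient T (UN X P ⧸ P.subgroupOf (UN X P)))
  have hsmul : ∀ (t : T) (x : UN X P), t • (QuotientGroup.mk x : UN X P ⧸ P.subgroupOf (UN X P)) =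
      QuotientGroup.mk (Subgroup.inclusion (inf_le_left : T ≤ UN X P) t * x) := fun t x => rfl
  let φ : UN X P ⧸ P.subgroupOf (UN X P) → MonoidAlgebra k G := fun q =>
    f * cj k G ((q.out : UN X P) : G) z₁
  have hφ : ∀ x : UN X P, φ (QuotientGroup.mk x) = f * cj k G (x : G) z₁ := by
    intro x
    change f * cj k G _ z₁ = _
    rw [act_out hz₁P]
  have hfT : ∀ t : T, cj k G (t : G) f = f := fun t => mem_stabE.mp t.2.2
  have hsum := sum_eq_sum_orbits (ρ := cj k G) (K := T) φ (by
    intro t q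
    induction q using QuotientGroup.induction_on with
    | H x =>
      rw [hsmul, hφ, hφ, map_mul, hfT, ← map_mul_act]
      rfl)
  have hfe : f = ∑ q, φ q := by
    have h1 : f = br P e * f := hef.symm
    have h2 : br P e * f = f * br P e := (commute_of_mem hf.mem.1 (Fix_mono _ (by
      exact inf_le_right.trans cent_le_norm) h.e₁_fix)).symm
    conv_lhs => rw [h1, h2, h.e₁_tr, tr_def, Finset.mul_sum]
  have hstab : ∀ q : UN X P ⧸ P.subgroupOf (UN X P),
      (MulAction.stabilizer T q).map T.subtype = P := by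
    intro q
    obtain ⟨x, rfl⟩ := QuotientGroup.mk_surjective q
    have hPT : P ≤ T := by
      refine le_inf h.P_le fun y hy => ?_
      rw [mem_stabE]
      exact UC_fix_P (SubAlg_mono inf_le_right hf.mem.1) y hy
    ext y
    constructor
    · rintro ⟨t, ht, rfl⟩
      have h1 : t • (QuotientGroup.mk x : UN X P ⧸ P.subgroupOf (UN X P)) =
        QuotientGroup.mk x := ht
      rw [hsmul, eq_comm, QuotientGroup.eq, Subgroup.mem_subgroupOf] at h1
      have h2 : (x : G)⁻¹ * ((t : G) * x) ∈ P := h1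
      have h3 := (Subgroup.mem_normalizer_iff.mp x.2.2 _).mp h2
      have h4 : (x : G) * ((x : G)⁻¹ * ((t : G) * x)) * (x : G)⁻¹ = t := by group
      rw [h4] at h3
      exact h3
    · intro hy
      refine ⟨⟨y, hPT hy⟩, ?_, rfl⟩
      change (⟨y, hPT hy⟩ : T) • (QuotientGroup.mk x : UN X P ⧸ P.subgroupOf (UN X P)) = _
      rw [hsmul, eq_comm, QuotientGroup.eq, Subgroup.mem_subgroupOf]
      have h3 := (Subgroup.mem_normalizer_iff.mp
        ((Subgroup.normalizer (P : Set G)).inv_mem x.2.2) _).mp hy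
      rw [inv_inv, mul_assoc] at h3
      exact h3
  simp only [hstab] at hsum
  rw [← tr_sum] at hsum
  refine ⟨∑ o : MulAction.orbitRel.Quotient T (UN X P ⧸ P.subgroupOf (UN X P)), φ o.out,
    Subalgebra.sum_mem _ fun o _ => ?_, ?_, ?_⟩
  · exact Subalgebra.mul_mem _ hf.mem.1 (cj_mem_UC (o.out.out : UN X P).2.2 hz₁C)
  · rw [Finset.mul_sum]
    refine Finset.sum_congr rfl fun o _ => ?_
    change f * (f * _) = f * _
    rw [← mul_assoc, hf.idem.eq]
  · rw [← hsum]
    exact hfe

/-- A combination of nilpotent central elements is nilpotent. -/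
theorem nilp_sum {C : Subgroup G} {ι : Type*} (s : Finset ι) (a η : ι → MonoidAlgebra k G)
    (ha : ∀ i ∈ s, a i ∈ SubAlg k C) (hη : ∀ i ∈ s, η i ∈ ZAlg k C)
    (hn : ∀ i ∈ s, IsNilpotent (η i)) : IsNilpotent (∑ i ∈ s, a i * η i) := by
  classical
  obtain ⟨n, hn'⟩ := nilTop_nilpotent (k := k) (⊤ : Subgroup C)
  have hmem : ∃ y ∈ nilZ k (⊤ : Subgroup C) * (⊤ : Submodule k (MonoidAlgebra k C)),
      incl k C y = ∑ i ∈ s, a i * η i := by
    induction s using Finset.induction_on with
    | empty => exact ⟨0, Submodule.zero_mem _, by simp⟩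
    | insert i s hi ih =>
      obtain ⟨y, hy, hys⟩ := ih (fun j hj => ha j (Finset.mem_insert_of_mem hj))
        (fun j hj => hη j (Finset.mem_insert_of_mem hj))
        (fun j hj => hn j (Finset.mem_insert_of_mem hj))
      have hi' := Finset.mem_insert_self i s
      obtain ⟨a', ha'⟩ := exists_incl C (ha i hi')
      obtain ⟨η', hη'⟩ := exists_incl C (hη i hi').1
      have hηZ : η' ∈ ZAlg k (⊤ : Subgroup C) := by
        refine ⟨SubAlg_top _, fun x _ => ?_⟩
        apply incl_injective (k := k) C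
        rw [incl_cj, hη']
        exact (hη i hi').2 x x.2
      have hηn : IsNilpotent η' := by
        obtain ⟨m, hm⟩ := hn i hi'
        refine ⟨m, incl_injective (k := k) C ?_⟩
        rw [map_pow, hη', hm, map_zero]
      refine ⟨η' * a' + y, Submodule.add_mem _ (Submodule.mul_mem_mul ⟨hηZ, hηn⟩ trivial) hy, ?_⟩
      rw [map_add, map_mul, hη', ha', hys, Finset.sum_insert hi]
      congr 1
      exact (commute_of_mem (ha i hi') (hη i hi').2).symm
  obtain ⟨y, hy, hys⟩ := hmem
  refine ⟨n, ?_⟩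
  rw [← hys, ← map_pow]
  have h1 : y ^ n ∈ (nilZ k (⊤ : Subgroup C) * (⊤ : Submodule k (MonoidAlgebra k C))) ^ n :=
    Submodule.pow_mem_pow _ hy n
  rw [hn', Submodule.mem_bot] at h1
  rw [h1, map_zero]

end Vale.Agent.P180.R2.H954
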