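import Vale.Agent.P180.R2.H954.U1d

/-!
P180: lifting of homogeneous units through the Brauer homomorphism.
-/

set_option linter.all false

namespace Vale.Agent.P180.R2.H954

open Vale.Agent.P180 Vale.Agent.P180.H768.Gd Vale.Agent.P180.R2.H365 Vale.Agent.P180.R2.H799
open Vale.Agent.P180.R2.H667 (InE Ge mem_Ge)

section WD

variable {k : Type*} [Field k] {G : Type} [Group G] [Finite G] {X P : Subgroup G}

/-- `w` is a unit of degree `y` with inverse `w'`, commuting with `kC_X(P)`. -/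
structure WD (X P : Subgroup G) (f : MonoidAlgebra k G) (y : G) (w w' : MonoidAlgebra k G) :
    Prop where
  s : SuppIn {x | y⁻¹ * x ∈ UC X P} w
  s' : SuppIn {x | y * x ∈ UC X P} w'
  F : w ∈ Fix (cj k G) (UC X P)
  F' : w' ∈ Fix (cj k G) (UC X P)
  fw : f * w = w
  wf : w * f = w
  fw' : f * w' = w'
  wf' : w' * f = w'
  ww : w * w' = f
  ww' : w' * w = f

variable {f w w' : MonoidAlgebra k G} {y : G}

theorem WD.symm (h : WD X P f y w w') : WD X P f y⁻¹ w' w :=
  ⟨by
    have := h.s'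
    rw [← inv_inv y] at this
    exact this, h.s, h.F', h.F, h.fw', h.wf', h.fw, h.wf, h.ww', h.ww⟩

/-- the commutator of `t` and `y` -/
theorem comm_mem_UC [X.Normal] {t y : G} (ht : t ∈ UN X P)
    (hy : y ∈ Subgroup.centralizer (P : Set G)) : t * y * t⁻¹ * y⁻¹ ∈ UC X P := by
  refine ⟨?_, ?_⟩
  · have h1 : t * y * t⁻¹ * y⁻¹ = t * (y * t⁻¹ * y⁻¹) := by group
    rw [h1]
    exact X.mul_mem ht.1 ((inferInstance : X.Normal).conj_mem _ (X.inv_mem ht.1) y)
  · have h1 := norm_cent ((Subgroup.normalizer (P : Set G)).inv_mem ht.2) hy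
    rw [inv_inv] at h1
    exact Subgroup.mul_mem _ h1 (Subgroup.inv_mem _ hy)

theorem WD.zeta_mem [X.Normal] (h : WD X P f y w w') (hy : y ∈ Subgroup.centralizer (P : Set G))
    {t : G} (ht : t ∈ UN X P) : cj k G t w * w' ∈ ZAlg k (UC X P) := by
  have hyN : y ∈ Subgroup.normalizer (UC X P : Set G) := mem_norm_UC (cent_le_norm hy)
  have htN : t ∈ Subgroup.normalizer (UC X P : Set G) := mem_norm_UC ht.2
  refine ⟨?_, ?_⟩
  · have h1 : SuppIn {x | (t * y * t⁻¹)⁻¹ * x ∈ UC X P} (cj k G t w) := by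
      refine h.s.conj t fun s hs => ?_
      change (t * y * t⁻¹)⁻¹ * (t * s * t⁻¹) ∈ UC X P
      have e1 : (t * y * t⁻¹)⁻¹ * (t * s * t⁻¹) = t * (y⁻¹ * s) * t⁻¹ := by group
      rw [e1]
      exact (Subgroup.mem_normalizer_iff.mp htN _).mp hs
    refine SuppIn.mul (U := (UC X P : Set G)) h1 h.s' fun x hx x' hx' => ?_
    change x * x' ∈ UC X P
    have e1 : x * x' = (t * y * t⁻¹ * y⁻¹) * (y * ((t * y * t⁻¹)⁻¹ * x) * y⁻¹) * (y * x') := by
      group
    rw [e1]
    exact Subgroup.mul_mem _ (Subgroup.mul_mem _ (comm_mem_UC ht hy)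
      ((Subgroup.mem_normalizer_iff.mp hyN _).mp hx)) hx'
  · refine Subalgebra.mul_mem _ ?_ h.F'
    refine conj_mem_Fix h.F t fun c hc => ?_
    have := (Subgroup.mem_normalizer_iff.mp
      ((Subgroup.normalizer (UC X P : Set G)).inv_mem htN) c).mp hc
    rwa [inv_inv] at this

theorem WD.cj_eq (h : WD X P f y w w') {t : G} (htf : cj k G t f = f) :
    cj k G t w = (cj k G t w * w') * w := by
  rw [mul_assoc, h.ww']
  conv_lhs => rw [← h.wf]
  rw [map_mul, htf]

theorem WD.f_zeta (h : WD X P f y w w') {t : G} (htf : cj k G t f = f) :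
    f * (cj k G t w * w') = cj k G t w * w' := by
  rw [← mul_assoc]
  congr 1
  conv_lhs => lhs; rw [← htf]
  rw [← map_mul, h.fw]

/-- the residue condition for the inverse -/
theorem WD.zeta_inv [X.Normal] (h : WD X P f y w w') (hy : y ∈ Subgroup.centralizer (P : Set G))
    {t : G} (ht : t ∈ UN X P) (htf : cj k G t f = f) :
    (cj k G t w' * w) * (cj k G t w * w') = f := by
  have h1 : w * (cj k G t w * w') = (cj k G t w * w') * w :=
    (commute_of_mem (h.zeta_mem hy ht).1 h.F).symm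
  rw [mul_assoc, h1, ← h.cj_eq htf, ← map_mul, h.ww', htf]

theorem WD.nil_inv [X.Normal] (h : WD X P f y w w') (hy : y ∈ Subgroup.centralizer (P : Set G))
    {t : G} (ht : t ∈ UN X P) (htf : cj k G t f = f) (hn : IsNilpotent (cj k G t w * w' - f)) :
    IsNilpotent (cj k G t w' * w - f) := by
  have hy' : y⁻¹ ∈ Subgroup.centralizer (P : Set G) := Subgroup.inv_mem _ hy
  have h1 := h.zeta_mem hy ht
  have h2 := h.symm.zeta_mem hy' ht
  have h3 := h.zeta_inv hy ht htf
  have h4 : f * (cj k G t w' * w) = cj k G t w' * w := h.symm.f_zeta htf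
  have hfC : f ∈ SubAlg k (UC X P) := by
    rw [← h3]
    exact Subalgebra.mul_mem _ h2.1 h1.1
  have hfF : f ∈ Fix (cj k G) (UC X P) := by
    rw [← h.ww]
    exact Subalgebra.mul_mem _ h.F h.F'
  have h5 : (cj k G t w' * w) * f = cj k G t w' * w := by
    rw [ZAlg_comm _ h2 f ⟨hfC, hfF⟩, h4]
  have h6 : cj k G t w' * w - f = -((cj k G t w' * w) * (cj k G t w * w' - f)) := by
    rw [mul_sub, h3, h5]
    abel
  rw [h6]
  refine IsNilpotent.neg ?_
  have hc : Commute (cj k G t w' * w) (cj k G t w * w' - f) :=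
    ZAlg_comm _ h2 _ (Subalgebra.sub_mem _ h1 ⟨hfC, hfF⟩)
  exact hc.isNilpotent_mul_left hn

end WD

section Lift

variable {k : Type*} [Field k] {p : ℕ} [Fact p.Prime] [CharP k p] {G : Type} [Group G] [Finite G]
variable {X P : Subgroup G} {e z f w w' : MonoidAlgebra k G} {y : G}

omit [Fact p.Prime] [CharP k p] [Finite G] in
theorem cst_cj_of_mem [X.Normal] {t : G} (ht : t ∈ X) {c : G ⧸ X} {a : MonoidAlgebra k G}
    (ha : SuppIn (cst X c) a) : SuppIn (cst X c) (cj k G t a) := by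
  refine ha.conj t fun s hs => ?_
  change ((t * s * t⁻¹ : G) : G ⧸ X) = c
  have h1 : (s : G ⧸ X) = c := hs
  have h2 : (t : G ⧸ X) = 1 := (QuotientGroup.eq_one_iff t).mpr ht
  rw [QuotientGroup.mk_mul, QuotientGroup.mk_mul, QuotientGroup.mk_inv, h1, h2, inv_one, one_mul,
    mul_one]

omit [Fact p.Prime] [CharP k p] [Finite G] in
theorem SuppIn_sum {ι : Type*} (s : Finset ι) {S : Set G} {a : ι → MonoidAlgebra k G}
    (h : ∀ i ∈ s, SuppIn S (a i)) : SuppIn S (∑ i ∈ s, a i) := by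
  classical
  induction s using Finset.induction_on with
  | empty =>
    intro x hx
    rw [Finset.sum_empty] at hx
    exact absurd rfl hx
  | insert i s hi ih =>
    rw [Finset.sum_insert hi]
    exact SuppIn.add (h i (Finset.mem_insert_self i s))
      (ih fun j hj => h j (Finset.mem_insert_of_mem hj))

omit [Fact p.Prime] [CharP k p] in
theorem cst_tr [X.Normal] {H K : Subgroup G} (hK : K ≤ X) {c : G ⧸ X} {a : MonoidAlgebra k G}
    (ha : SuppIn (cst X c) a) : SuppIn (cst X c) (tr (cj k G) H K a) := by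
  have _ := Fintype.ofFinite (K ⧸ H.subgroupOf K)
  rw [tr_def]
  exact SuppIn_sum _ fun q _ => cst_cj_of_mem (hK (q.out : K).2) ha

omit [Fact p.Prime] [CharP k p] [Finite G] in
theorem cst_of_UC [X.Normal] {a : MonoidAlgebra k G} (ha : SuppIn {x | y⁻¹ * x ∈ UC X P} a) :
    SuppIn (cst X (y : G ⧸ X)) a := by
  intro x hx
  have h1 := ha x hx
  change (x : G ⧸ X) = (y : G ⧸ X)
  rw [eq_comm, QuotientGroup.eq]
  exact h1.1

omit [Fact p.Prime] [CharP k p] [Finite G] in
theorem SubAlg_mul_cst [X.Normal] {c : G ⧸ X} {a b : MonoidAlgebra k G} (ha : a ∈ SubAlg k X)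
    (hb : SuppIn (cst X c) b) : SuppIn (cst X c) (a * b) := by
  have := mul_supp_cst (mem_SubAlg_iff_cst.mp ha) hb
  rwa [one_mul] at this

omit [Fact p.Prime] [CharP k p] [Finite G] in
theorem WD.cent (h : WD X P f y w w') (hy : y ∈ Subgroup.centralizer (P : Set G)) :
    w ∈ SubAlg k (Subgroup.centralizer (P : Set G)) := by
  intro x hx
  have h1 := h.s x hx
  have h2 := Subgroup.mul_mem _ hy h1.2
  rwa [mul_inv_cancel_left] at h2

/-- lifting of one unit -/
theorem UD.lift_one [X.Normal] (h : UD p X P e z) (hf : IsBlockOf (UC X P) f)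
    (hef : br P e * f = f) (hw : WD X P f y w w') (hy : y ∈ Subgroup.centralizer (P : Set G))
    (hn : ∀ t ∈ UN X P ⊓ stabE f, IsNilpotent (cj k G t w * w' - f)) :
    ∃ x ∈ Fix (cj k G) X, SuppIn (cst X (y : G ⧸ X)) x ∧ ∃ μ ∈ ZAlg k (UC X P),
      IsNilpotent (μ - f) ∧ f * μ = μ ∧ br P x * f = μ * w ∧ f * br P x = μ * w := by
  obtain ⟨u₀, hu₀, hfu, htr⟩ := h.exists_u₀ hf hef
  set T := UN X P ⊓ stabE f with hT
  have hCT : UC X P ≤ T := by
    refine le_inf (inf_le_inf_left X cent_le_norm) fun c hc => ?_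
    rw [mem_stabE]
    exact hf.mem.2 c hc
  have hPT : P ≤ T := by
    refine le_inf h.P_le fun c hc => ?_
    rw [mem_stabE]
    exact UC_fix_P (SubAlg_mono inf_le_right hf.mem.1) c hc
  have hwP : w ∈ Fix (cj k G) P := UC_fix_P (hw.cent hy)
  have hu₀P : u₀ ∈ Fix (cj k G) P := UC_fix_P (SubAlg_mono inf_le_right hu₀)
  have hu₀f : u₀ * f = u₀ := by rw [commute_of_mem hu₀ hf.mem.2, hfu]
  have huwP : u₀ * w ∈ Fix (cj k G) P := Subalgebra.mul_mem _ hu₀P hwP
  have _ := Fintype.ofFinite (T ⧸ P.subgroupOf T)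
  have htf : ∀ t ∈ T, cj k G t f = f := fun t ht => mem_stabE.mp ht.2
  set vf := tr (cj k G) P T (u₀ * w) with hvf
  have hvfT : vf ∈ Fix (cj k G) T := tr_mem_Fix huwP
  have hfT : f ∈ Fix (cj k G) T := htf
  have hvf_f : vf * f = vf := by
    rw [hvf, tr_mul hfT, mul_assoc, hw.wf]
  -- the central unit
  set μ := vf * w' with hμ
  have hμsum : μ = ∑ q : T ⧸ P.subgroupOf T, cj k G ((q.out : T) : G) u₀ *
      (cj k G ((q.out : T) : G) w * w') := by
    rw [hμ, hvf, tr_def, Finset.sum_mul]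
    exact Finset.sum_congr rfl fun q _ => by rw [map_mul, mul_assoc]
  have hu₀C : ∀ t ∈ T, cj k G t u₀ ∈ SubAlg k (UC X P) := fun t ht => cj_mem_UC ht.1.2 hu₀
  have hμC : μ ∈ SubAlg k (UC X P) := by
    rw [hμsum]
    exact Subalgebra.sum_mem _ fun q _ => Subalgebra.mul_mem _ (hu₀C _ (q.out : T).2)
      (hw.zeta_mem hy (q.out : T).2.1).1
  have hμZ : μ ∈ ZAlg k (UC X P) := ⟨hμC, Subalgebra.mul_mem _ (Fix_mono _ hCT hvfT) hw.F'⟩
  have hfsum : f = ∑ q : T ⧸ P.subgroupOf T, cj k G ((q.out : T) : G) u₀ * f := by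
    conv_lhs => rw [htr, tr_def]
    refine Finset.sum_congr rfl fun q _ => ?_
    conv_rhs => rhs; rw [← htf _ (q.out : T).2]
    rw [← map_mul, hu₀f]
  have hμnil : IsNilpotent (μ - f) := by
    have h1 : μ - f = ∑ q : T ⧸ P.subgroupOf T, cj k G ((q.out : T) : G) u₀ *
        (cj k G ((q.out : T) : G) w * w' - f) := by
      conv_lhs => rw [hμsum, hfsum, ← Finset.sum_sub_distrib]
      refine Finset.sum_congr rfl fun q _ => ?_
      rw [mul_sub]
    rw [h1]
    exact nilp_sum _ _ _ (fun q _ => hu₀C _ (q.out : T).2)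
      (fun q _ => Subalgebra.sub_mem _ (hw.zeta_mem hy (q.out : T).2.1) hf.mem)
      (fun q _ => hn _ (q.out : T).2)
  have hfμ : f * μ = μ := by
    have h1 : f * vf = vf := by
      rw [hvf, mul_tr hfT, ← mul_assoc, hfu]
    rw [hμ, ← mul_assoc, h1]
  have hμw : μ * w = vf := by rw [hμ, mul_assoc, hw.ww', hvf_f]
  -- the element fixed by `N_X(P)`
  set v := tr (cj k G) T (UN X P) vf with hv
  have hvN : v ∈ Fix (cj k G) (UN X P) := tr_mem_Fix hvfT
  have hvself : v * f = vf := tr_stab_mul_self hf hvfT hvf_f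
  have hcN : ∀ n ∈ Subgroup.normalizer (P : Set G), ∀ a ∈ SubAlg k (Subgroup.centralizer (P : Set G)),
      cj k G n a ∈ SubAlg k (Subgroup.centralizer (P : Set G)) := by
    intro n hn a ha
    refine SuppIn.conj (T := (Subgroup.centralizer (P : Set G) : Set G)) ha n fun s hs => ?_
    have := norm_cent ((Subgroup.normalizer (P : Set G)).inv_mem hn) hs
    rwa [inv_inv] at this
  have hvC : v ∈ SubAlg k (Subgroup.centralizer (P : Set G)) := by
    have _ := Fintype.ofFinite (UN X P ⧸ T.subgroupOf (UN X P))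
    rw [hv, tr_def]
    refine Subalgebra.sum_mem _ fun q _ => hcN _ (q.out : UN X P).2.2 _ ?_
    rw [hvf, tr_def]
    exact Subalgebra.sum_mem _ fun q _ => hcN _ (q.out : T).2.1.2 _
      (Subalgebra.mul_mem _ (SubAlg_mono inf_le_right hu₀) (hw.cent hy))
  have hev : br P e * v = v := by
    rw [hv, mul_tr (Fix_mono _ inf_le_right h.e₁_fix)]
    congr 1
    rw [hvf, mul_tr (Fix_mono _ (inf_le_left.trans inf_le_right) h.e₁_fix), ← mul_assoc, ← hfu,
      ← mul_assoc, hef]
  have hvX : SuppIn (cst X (y : G ⧸ X)) v := by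
    refine cst_tr inf_le_left (cst_tr (inf_le_left.trans inf_le_left) ?_)
    exact SubAlg_mul_cst (SubAlg_mono inf_le_left hu₀) (cst_of_UC hw.s)
  refine ⟨tr (cj k G) P X (z * v), tr_mem_Fix (Subalgebra.mul_mem _ h.hzP (Fix_mono _ h.P_le hvN)),
    cst_tr le_rfl (SubAlg_mul_cst h.hz hvX), μ, hμZ, hμnil, hfμ, ?_, ?_⟩
  · rw [h.lift hvN hvC, hev, hvself, hμw]
  · rw [h.lift hvN hvC, hev, hμw, ← hvself]
    exact commute_of_mem hf.mem.1 (Fix_mono _ (inf_le_inf_left X cent_le_norm) hvN)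

/-- **Lifting.** -/
theorem UD.mem_Ge [X.Normal] (h : UD p X P e z) (hf : IsBlockOf (UC X P) f)
    (hef : br P e * f = f) (hw : WD X P f y w w') (hy : y ∈ Subgroup.centralizer (P : Set G))
    (hn : ∀ t ∈ UN X P ⊓ stabE f, IsNilpotent (cj k G t w * w' - f)) : y ∈ Ge h.he := by
  have _ : FiniteDimensional k (MonoidAlgebra k G) :=
    Module.Finite.equiv (MonoidAlgebra.coeffLinearEquiv k (M := G) (S := k)).symm
  have hy' : y⁻¹ ∈ Subgroup.centralizer (P : Set G) := Subgroup.inv_mem _ hy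
  obtain ⟨x, hxF, hxs, μ, hμ, hμn, hfμ, hx1, hx2⟩ := h.lift_one hf hef hw hy hn
  obtain ⟨x', hxF', hxs', μ', hμ', hμn', hfμ', hx1', hx2'⟩ := h.lift_one hf hef hw.symm hy'
    fun t ht => hw.nil_inv hy ht.1 (mem_stabE.mp ht.2) (hn t ht)
  have heP : e ∈ Fix (cj k G) P := fun g _ => h.heG g
  have hec : ∀ a : MonoidAlgebra k G, a * e = e * a := fun a =>
    commute_of_mem (SubAlg_top a) fun g _ => h.heG g
  have hxx : x * x' ∈ ZAlg k X := by
    refine ⟨?_, Subalgebra.mul_mem _ hxF hxF'⟩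
    change x * x' ∈ SubAlg k X
    rw [mem_SubAlg_iff_cst]
    have h1 := mul_supp_cst hxs hxs'
    rwa [← QuotientGroup.mk_mul, mul_inv_cancel, QuotientGroup.mk_one] at h1
  have hxxe : x * x' * e ∈ ZAlg k X := Subalgebra.mul_mem _ hxx h.he.mem
  have hbr : br P (x * x' * e) * f = μ * μ' := by
    have h1 : w * μ' = μ' * w := (commute_of_mem hμ'.1 hw.F).symm
    have h2 : μ' * f = μ' := by rw [ZAlg_comm _ hμ' _ hf.mem, hfμ']
    rw [br_mul h.hP (Subalgebra.mul_mem _ (Fix_mono _ h.hPX hxF) (Fix_mono _ h.hPX hxF')) heP,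
      br_mul h.hP (Fix_mono _ h.hPX hxF) (Fix_mono _ h.hPX hxF'), mul_assoc, hef, mul_assoc, hx1']
    calc br P x * (μ' * w') = br P x * ((f * μ') * w') := by rw [hfμ']
      _ = (br P x * f) * μ' * w' := by simp only [mul_assoc]
      _ = μ * (w * μ') * w' := by rw [hx1]; simp only [mul_assoc]
      _ = μ * μ' * (w * w') := by rw [h1]; simp only [mul_assoc]
      _ = μ * μ' := by rw [hw.ww, mul_assoc, h2]
  have hμμ : IsNilpotent (μ * μ' - f) := by
    have h1 : μ * μ' - f = (μ - f) * μ' + (μ' - f) := by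
      rw [sub_mul, hfμ']
      abel
    rw [h1]
    have hfZ : f ∈ ZAlg k (UC X P) := hf.mem
    have c1 : Commute (μ - f) μ' := ZAlg_comm _ (Subalgebra.sub_mem _ hμ hfZ) _ hμ'
    have c2 : Commute ((μ - f) * μ') (μ' - f) := ZAlg_comm _
      (Subalgebra.mul_mem _ (Subalgebra.sub_mem _ hμ hfZ) hμ') _ (Subalgebra.sub_mem _ hμ' hfZ)
    exact c2.isNilpotent_add (c1.isNilpotent_mul_right hμn) hμn'
  have hCcent : UC X P ≤ Subgroup.centralizer (P : Set G) := inf_le_right
  rcases h.he.dichotomy (by exact ZAlg_comm) hxxe (by rw [mul_assoc, h.he.idem.eq]) with ⟨n, hn0⟩ |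
    ⟨y₀, hy₀, hy₀e, hxy⟩
  · exfalso
    -- `f` would be nilpotent
    have h1 : (br P (x * x' * e)) ^ n = 0 := by
      rw [← br_pow_of h.hP (Fix_mono _ h.hPX hxxe.2), hn0]
      exact H12.br_of_cent (Subalgebra.zero_mem _)
    have hbC : br P (x * x' * e) ∈ SubAlg k (UC X P) := by
      classical
      intro q hq
      rw [br_coeff] at hq
      by_cases hqP : q ∈ Subgroup.centralizer (P : Set G)
      · rw [if_pos hqP] at hq
        exact ⟨hxxe.1 q hq, hqP⟩
      · exact absurd (if_neg hqP) hq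
    have c1 : Commute (br P (x * x' * e)) f := commute_of_mem hbC hf.mem.2
    have h2 : IsNilpotent (μ * μ') := by
      rw [← hbr]
      exact c1.isNilpotent_mul_right ⟨n, h1⟩
    have c2 : Commute (μ * μ') (μ * μ' - f) := ZAlg_comm _ (Subalgebra.mul_mem _ hμ hμ') _
      (Subalgebra.sub_mem _ (Subalgebra.mul_mem _ hμ hμ') hf.mem)
    have h3 : IsNilpotent f := by
      have h4 : f = μ * μ' - (μ * μ' - f) := by abel
      rw [h4]
      exact c2.isNilpotent_sub h2 hμμ
    obtain ⟨m, hm⟩ := h3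
    rcases m with _ | m
    · rw [pow_zero] at hm
      exact hf.ne_zero (by rw [← one_mul f, hm, zero_mul])
    · rw [hf.idem.pow_succ_eq] at hm
      exact hf.ne_zero hm
  · -- the unit
    have hu1 : (x * e) * (x' * e * y₀) = e := by
      have e1 : (x * e) * (x' * e * y₀) = (x * x' * e) * y₀ := by
        calc (x * e) * (x' * e * y₀) = x * (e * x') * e * y₀ := by simp only [mul_assoc]
          _ = x * x' * (e * e) * y₀ := by rw [← hec]; simp only [mul_assoc]
          _ = _ := by rw [h.he.idem.eq]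
      rw [e1, hxy]
    set u := x * e with hu
    set u' := x' * e * y₀ with hu'
    have hus : SuppIn (cst X (y : G ⧸ X)) u := by
      have h1 := mul_supp_cst hxs (mem_SubAlg_iff_cst.mp h.he.mem.1)
      rwa [mul_one] at h1
    have hus' : SuppIn (cst X ((y⁻¹ : G) : G ⧸ X)) u' := by
      have h1 := mul_supp_cst (mul_supp_cst hxs' (mem_SubAlg_iff_cst.mp h.he.mem.1))
        (mem_SubAlg_iff_cst.mp hy₀.1)
      rwa [mul_one, mul_one] at h1
    have huF : u ∈ Fix (cj k G) X := Subalgebra.mul_mem _ hxF h.he.mem.2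
    have huF' : u' ∈ Fix (cj k G) X :=
      Subalgebra.mul_mem _ (Subalgebra.mul_mem _ hxF' h.he.mem.2) hy₀.2
    have hue : u * e = u := by rw [hu, mul_assoc, h.he.idem.eq]
    have hue' : u' * e = u' := by rw [hu', mul_assoc, hy₀e]
    have heu : e * u = u := by rw [← hec, hue]
    have huu : u' * u ∈ ZAlg k X := by
      refine ⟨?_, Subalgebra.mul_mem _ huF' huF⟩
      change u' * u ∈ SubAlg k X
      rw [mem_SubAlg_iff_cst]
      have h1 := mul_supp_cst hus' hus
      rwa [← QuotientGroup.mk_mul, inv_mul_cancel, QuotientGroup.mk_one] at h1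
    have hidem : IsIdempotentElem (u' * u) := by
      change u' * u * (u' * u) = u' * u
      calc u' * u * (u' * u) = u' * (u * u') * u := by simp only [mul_assoc]
        _ = u' * (e * u) := by rw [hu1, mul_assoc]
        _ = u' * u := by rw [heu]
    refine ⟨u, u', hus, hus', huF, huF', hue, hue', hu1, ?_⟩
    rcases h.he.primitive _ huu hidem (by rw [mul_assoc, hue]) with h2 | h2
    · exfalso
      apply h.he.ne_zero
      calc e = (u * u') * (u * u') := by rw [hu1, h.he.idem.eq]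
        _ = u * (u' * u) * u' := by simp only [mul_assoc]
        _ = 0 := by rw [h2, mul_zero, zero_mul]
    · exact h2

end Lift

end Vale.Agent.P180.R2.H954
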